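import Crest.Agent.Lib.ZigZag.Sets

/-!
# The zigzag chain: the combinatorial heart of the farness proof (S0066).
Everything here is phrased over an abstract `Oracle` (line picks and "no copy").
-/

set_option autoImplicit false

namespace Crest.Agent.ZigZag

/-- The 25 cell conditions of a copy of the core in the relation `P`. -/
structure CoreV (P : Rw → Cl → Prop) (r1 x r3 w1 w2 : Rw) (s1 y s3 z1 z2 : Cl) : Prop where
  h11 : P r1 s1
  h12 : P r1 y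
  h13 : P r1 s3
  h14 : P r1 z1
  h15 : ¬ P r1 z2
  h21 : P x s1
  h22 : ¬ P x y
  h23 : P x s3
  h24 : ¬ P x z1
  h25 : P x z2
  h31 : P r3 s1
  h32 : P r3 y
  h33 : P r3 s3
  h34 : P r3 z1
  h35 : ¬ P r3 z2
  h41 : P w1 s1
  h42 : ¬ P w1 y
  h43 : P w1 s3
  h44 : P w1 z1
  h45 : P w1 z2
  h51 : ¬ P w2 s1
  h52 : P w2 y
  h53 : ¬ P w2 s3
  h54 : P w2 z1
  h55 : P w2 z2

/-- The abstract interface used by the chain. -/
structure Oracle (J D n : ℕ) (val : Rw → Cl → Prop) (goodR : Rw → Prop) (goodC : Cl → Prop) :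
    Prop where
  pick_r : ∀ b : ℕ → Rw, Function.Injective b → (∀ i < D, b i ∈ rowsSet J D n) →
    ∀ cs : List Cl, cs.length ≤ 5 → (∀ c ∈ cs, c ∈ colsSet J D n ∧ goodC c) →
    ∃ i < D, goodR (b i) ∧ ∀ c ∈ cs, (val (b i) c ↔ M J (b i) c)
  pick_c : ∀ b : ℕ → Cl, Function.Injective b → (∀ i < D, b i ∈ colsSet J D n) →
    ∀ rs : List Rw, rs.length ≤ 5 → (∀ r ∈ rs, r ∈ rowsSet J D n ∧ goodR r) →
    ∃ i < D, goodC (b i) ∧ ∀ r ∈ rs, (val r (b i) ↔ M J r (b i))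
  no_copy : ∀ (r1 x r3 w1 w2 : Rw) (s1 y s3 z1 z2 : Cl),
    (r1 ∈ rowsSet J D n ∧ goodR r1) → (x ∈ rowsSet J D n ∧ goodR x) →
    (r3 ∈ rowsSet J D n ∧ goodR r3) → (w1 ∈ rowsSet J D n ∧ goodR w1) →
    (w2 ∈ rowsSet J D n ∧ goodR w2) →
    (s1 ∈ colsSet J D n ∧ goodC s1) → (y ∈ colsSet J D n ∧ goodC y) →
    (s3 ∈ colsSet J D n ∧ goodC s3) → (z1 ∈ colsSet J D n ∧ goodC z1) →
    (z2 ∈ colsSet J D n ∧ goodC z2) →
    1 ≤ rtag r1 → 1 ≤ ctag s1 →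
    rkey J r1 < rkey J x → rkey J x < rkey J r3 → rkey J r3 < rkey J w1 → rkey J w1 < rkey J w2 →
    ckey J s1 < ckey J y → ckey J y < ckey J s3 → ckey J s3 < ckey J z1 → ckey J z1 < ckey J z2 →
    CoreV val r1 x r3 w1 w2 s1 y s3 z1 z2 → False

macro "mv" : tactic => `(tactic| (simp only [M, not_false_eq_true, true_and, and_true] <;> omega))

section
variable {α : Type*}

theorem mem51 (a b c d e : α) : a ∈ [a, b, c, d, e] := by simp
theorem mem52 (a b c d e : α) : b ∈ [a, b, c, d, e] := by simp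
theorem mem53 (a b c d e : α) : c ∈ [a, b, c, d, e] := by simp
theorem mem54 (a b c d e : α) : d ∈ [a, b, c, d, e] := by simp
theorem mem55 (a b c d e : α) : e ∈ [a, b, c, d, e] := by simp
theorem mem31 (a b c : α) : a ∈ [a, b, c] := by simp
theorem mem32 (a b c : α) : b ∈ [a, b, c] := by simp
theorem mem33 (a b c : α) : c ∈ [a, b, c] := by simp
theorem mem11 (a : α) : a ∈ [a] := by simp

theorem all5 {P : α → Prop} {a b c d e : α} (ha : P a) (hb : P b) (hc : P c) (hd : P d) (he : P e) :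
    ∀ x ∈ [a, b, c, d, e], P x := by
  intro x hx
  simp only [List.mem_cons, List.not_mem_nil, or_false] at hx
  rcases hx with rfl | rfl | rfl | rfl | rfl <;> assumption

theorem all3 {P : α → Prop} {a b c : α} (ha : P a) (hb : P b) (hc : P c) :
    ∀ x ∈ [a, b, c], P x := by
  intro x hx
  simp only [List.mem_cons, List.not_mem_nil, or_false] at hx
  rcases hx with rfl | rfl | rfl <;> assumption

theorem all1 {P : α → Prop} {a : α} (ha : P a) : ∀ x ∈ [a], P x := by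
  intro x hx
  simp only [List.mem_cons, List.not_mem_nil, or_false] at hx
  rcases hx with rfl
  assumption

end

section
variable {J D n : ℕ} {val : Rw → Cl → Prop} {goodR : Rw → Prop} {goodC : Cl → Prop}

/-- A-step: the parent cells of a column force its child cells. -/
theorem stepA (O : Oracle J D n val goodR goodC) {j v vx va : ℕ} {κ1 κ3 κx κa : Bool}
    {i1 i3 ix ia : ℕ}
    (he1 : Rw.thin j v κ1 i1 ∈ rowsSet J D n ∧ goodR (.thin j v κ1 i1))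
    (he3 : Rw.thin j v κ3 i3 ∈ rowsSet J D n ∧ goodR (.thin j v κ3 i3))
    (hx : Rw.thin (j + 1) vx κx ix ∈ rowsSet J D n ∧ goodR (.thin (j + 1) vx κx ix))
    (ha : Cl.thin j va κa ia ∈ colsSet J D n ∧ goodC (.thin j va κa ia))
    (hj : j < J) (hvx : vx / 2 = va)
    (k1 : rkey J (.thin j v κ1 i1) < rkey J (.thin (j + 1) vx κx ix))
    (k3 : rkey J (.thin (j + 1) vx κx ix) < rkey J (.thin j v κ3 i3))
    (v1 : val (.thin j v κ1 i1) (.thin j va κa ia))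
    (v3 : val (.thin j v κ3 i3) (.thin j va κa ia)) :
    val (.thin (j + 1) vx κx ix) (.thin j va κa ia) := by
  by_contra hcon
  have hc : va % 2 < 2 := Nat.mod_lt _ (by norm_num)
  obtain ⟨i4, hi4, g4, h4⟩ := O.pick_r Rw.zs (fun _ _ h => Rw.zs.inj h) (fun i hi => mem_zs hi)
    [Cl.thin j va κa ia] (by simp) (all1 ha)
  obtain ⟨i5, hi5, g5, h5⟩ := O.pick_r (Rw.g j (va % 2)) (fun _ _ h => (Rw.g.inj h).2.2)
    (fun i hi => mem_g hj hc hi) [Cl.thin j va κa ia] (by simp) (all1 ha)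
  have hw4 : Rw.zs i4 ∈ rowsSet J D n ∧ goodR (.zs i4) := ⟨mem_zs hi4, g4⟩
  have hw5 : Rw.g j (va % 2) i5 ∈ rowsSet J D n ∧ goodR (.g j (va % 2) i5) :=
    ⟨mem_g hj hc hi5, g5⟩
  have hrs := all5 (P := fun r => r ∈ rowsSet J D n ∧ goodR r) he1 hx he3 hw4 hw5
  obtain ⟨i6, hi6, g6, h6⟩ := O.pick_c Cl.cs1 (fun _ _ h => Cl.cs1.inj h) (fun i hi => mem_cs1 hi)
    _ (by simp) hrs
  obtain ⟨i7, hi7, g7, h7⟩ := O.pick_c Cl.cs2 (fun _ _ h => Cl.cs2.inj h) (fun i hi => mem_cs2 hi)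
    _ (by simp) hrs
  obtain ⟨i8, hi8, g8, h8⟩ := O.pick_c (Cl.f j) (fun _ _ h => (Cl.f.inj h).2)
    (fun i hi => mem_cf hj.le hi) _ (by simp) hrs
  obtain ⟨i9, hi9, g9, h9⟩ := O.pick_c (Cl.k (j + 1) (va % 2)) (fun _ _ h => (Cl.k.inj h).2.2)
    (fun i hi => mem_ck hj hc hi) _ (by simp) hrs
  refine O.no_copy _ _ _ _ _ (Cl.cs1 i6) _ (Cl.cs2 i7) (Cl.f j i8) (Cl.k (j + 1) (va % 2) i9)
    he1 hx he3 hw4 hw5 ⟨mem_cs1 hi6, g6⟩ ha ⟨mem_cs2 hi7, g7⟩ ⟨mem_cf hj.le hi8, g8⟩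
    ⟨mem_ck hj hc hi9, g9⟩ (by simp [rtag]) (by simp [ctag]) k1 k3
    (rkey_lt_of_tag (by simp [rtag])) (rkey_lt_of_tag (by simp [rtag]))
    (ckey_lt_of_tag (by simp [ctag])) (ckey_lt_of_tag (by simp [ctag]))
    (ckey_lt_of_tag (by simp [ctag])) (ckey_lt_of_tag (by simp [ctag])) ?_
  constructor
  · exact (h6 _ (mem51 _ _ _ _ _)).2 (by mv)
  · exact v1
  · exact (h7 _ (mem51 _ _ _ _ _)).2 (by mv)
  · exact (h8 _ (mem51 _ _ _ _ _)).2 (by mv)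
  · exact fun hh => absurd ((h9 _ (mem51 _ _ _ _ _)).1 hh) (by mv)
  · exact (h6 _ (mem52 _ _ _ _ _)).2 (by mv)
  · exact hcon
  · exact (h7 _ (mem52 _ _ _ _ _)).2 (by mv)
  · exact fun hh => absurd ((h8 _ (mem52 _ _ _ _ _)).1 hh) (by mv)
  · exact (h9 _ (mem52 _ _ _ _ _)).2 (by mv)
  · exact (h6 _ (mem53 _ _ _ _ _)).2 (by mv)
  · exact v3
  · exact (h7 _ (mem53 _ _ _ _ _)).2 (by mv)
  · exact (h8 _ (mem53 _ _ _ _ _)).2 (by mv)
  · exact fun hh => absurd ((h9 _ (mem53 _ _ _ _ _)).1 hh) (by mv)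
  · exact (h6 _ (mem54 _ _ _ _ _)).2 (by mv)
  · exact fun hh => absurd ((h4 _ (mem11 _)).1 hh) (by mv)
  · exact (h7 _ (mem54 _ _ _ _ _)).2 (by mv)
  · exact (h8 _ (mem54 _ _ _ _ _)).2 (by mv)
  · exact (h9 _ (mem54 _ _ _ _ _)).2 (by mv)
  · exact fun hh => absurd ((h6 _ (mem55 _ _ _ _ _)).1 hh) (by mv)
  · exact (h5 _ (mem11 _)).2 (by mv)
  · exact fun hh => absurd ((h7 _ (mem55 _ _ _ _ _)).1 hh) (by mv)
  · exact (h8 _ (mem55 _ _ _ _ _)).2 (by mv)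
  · exact (h9 _ (mem55 _ _ _ _ _)).2 (by mv)

/-- B-step: the parent cells of a row force its child cells. -/
theorem stepB (O : Oracle J D n val goodR goodC) {j va vx vy : ℕ} {κ1 κ3 κx κy : Bool}
    {i1 i3 ix iy : ℕ}
    (ha1 : Cl.thin j va κ1 i1 ∈ colsSet J D n ∧ goodC (.thin j va κ1 i1))
    (ha3 : Cl.thin j va κ3 i3 ∈ colsSet J D n ∧ goodC (.thin j va κ3 i3))
    (hy : Cl.thin (j + 1) vy κy iy ∈ colsSet J D n ∧ goodC (.thin (j + 1) vy κy iy))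
    (hx : Rw.thin (j + 1) vx κx ix ∈ rowsSet J D n ∧ goodR (.thin (j + 1) vx κx ix))
    (hj : j < J) (hvy : vy / 2 = vx)
    (k1 : ckey J (.thin j va κ1 i1) < ckey J (.thin (j + 1) vy κy iy))
    (k3 : ckey J (.thin (j + 1) vy κy iy) < ckey J (.thin j va κ3 i3))
    (v1 : val (.thin (j + 1) vx κx ix) (.thin j va κ1 i1))
    (v3 : val (.thin (j + 1) vx κx ix) (.thin j va κ3 i3)) :
    val (.thin (j + 1) vx κx ix) (.thin (j + 1) vy κy iy) := by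
  by_contra hcon
  have hc : vx % 2 < 2 := Nat.mod_lt _ (by norm_num)
  have hcs := all3 (P := fun c => c ∈ colsSet J D n ∧ goodC c) ha1 hy ha3
  obtain ⟨i4, hi4, g4, h4⟩ := O.pick_r Rw.rs1 (fun _ _ h => Rw.rs1.inj h) (fun i hi => mem_rs1 hi)
    _ (by simp) hcs
  obtain ⟨i5, hi5, g5, h5⟩ := O.pick_r Rw.rs2 (fun _ _ h => Rw.rs2.inj h) (fun i hi => mem_rs2 hi)
    _ (by simp) hcs
  obtain ⟨i6, hi6, g6, h6⟩ := O.pick_r (Rw.f j) (fun _ _ h => (Rw.f.inj h).2)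
    (fun i hi => mem_f hj hi) _ (by simp) hcs
  obtain ⟨i7, hi7, g7, h7⟩ := O.pick_r (Rw.k (j + 1) (vx % 2)) (fun _ _ h => (Rw.k.inj h).2.2)
    (fun i hi => mem_k hj hc hi) _ (by simp) hcs
  have hr4 : Rw.rs1 i4 ∈ rowsSet J D n ∧ goodR (.rs1 i4) := ⟨mem_rs1 hi4, g4⟩
  have hr5 : Rw.rs2 i5 ∈ rowsSet J D n ∧ goodR (.rs2 i5) := ⟨mem_rs2 hi5, g5⟩
  have hr6 : Rw.f j i6 ∈ rowsSet J D n ∧ goodR (.f j i6) := ⟨mem_f hj hi6, g6⟩
  have hr7 : Rw.k (j + 1) (vx % 2) i7 ∈ rowsSet J D n ∧ goodR (.k (j + 1) (vx % 2) i7) :=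
    ⟨mem_k hj hc hi7, g7⟩
  have hrs := all5 (P := fun r => r ∈ rowsSet J D n ∧ goodR r) hr4 hx hr5 hr6 hr7
  obtain ⟨i8, hi8, g8, h8⟩ := O.pick_c Cl.zs (fun _ _ h => Cl.zs.inj h) (fun i hi => mem_czs hi)
    _ (by simp) hrs
  obtain ⟨i9, hi9, g9, h9⟩ := O.pick_c (Cl.g (j + 1) (vx % 2)) (fun _ _ h => (Cl.g.inj h).2.2)
    (fun i hi => mem_cg hj hc hi) _ (by simp) hrs
  refine O.no_copy (Rw.rs1 i4) _ (Rw.rs2 i5) (Rw.f j i6) (Rw.k (j + 1) (vx % 2) i7)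
    _ _ _ (Cl.zs i8) (Cl.g (j + 1) (vx % 2) i9)
    hr4 hx hr5 hr6 hr7 ha1 hy ha3 ⟨mem_czs hi8, g8⟩ ⟨mem_cg hj hc hi9, g9⟩
    (by simp [rtag]) (by simp [ctag])
    (rkey_lt_of_tag (by simp [rtag])) (rkey_lt_of_tag (by simp [rtag]))
    (rkey_lt_of_tag (by simp [rtag])) (rkey_lt_of_tag (by simp [rtag]))
    k1 k3 (ckey_lt_of_tag (by simp [ctag])) (ckey_lt_of_tag (by simp [ctag])) ?_
  constructor
  · exact (h4 _ (mem31 _ _ _)).2 (by mv)
  · exact (h4 _ (mem32 _ _ _)).2 (by mv)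
  · exact (h4 _ (mem33 _ _ _)).2 (by mv)
  · exact (h8 _ (mem51 _ _ _ _ _)).2 (by mv)
  · exact fun hh => absurd ((h9 _ (mem51 _ _ _ _ _)).1 hh) (by mv)
  · exact v1
  · exact hcon
  · exact v3
  · exact fun hh => absurd ((h8 _ (mem52 _ _ _ _ _)).1 hh) (by mv)
  · exact (h9 _ (mem52 _ _ _ _ _)).2 (by mv)
  · exact (h5 _ (mem31 _ _ _)).2 (by mv)
  · exact (h5 _ (mem32 _ _ _)).2 (by mv)
  · exact (h5 _ (mem33 _ _ _)).2 (by mv)
  · exact (h8 _ (mem53 _ _ _ _ _)).2 (by mv)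
  · exact fun hh => absurd ((h9 _ (mem53 _ _ _ _ _)).1 hh) (by mv)
  · exact (h6 _ (mem31 _ _ _)).2 (by mv)
  · exact fun hh => absurd ((h6 _ (mem32 _ _ _)).1 hh) (by mv)
  · exact (h6 _ (mem33 _ _ _)).2 (by mv)
  · exact (h8 _ (mem54 _ _ _ _ _)).2 (by mv)
  · exact (h9 _ (mem54 _ _ _ _ _)).2 (by mv)
  · exact fun hh => absurd ((h7 _ (mem31 _ _ _)).1 hh) (by mv)
  · exact (h7 _ (mem32 _ _ _)).2 (by mv)
  · exact fun hh => absurd ((h7 _ (mem33 _ _ _)).1 hh) (by mv)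
  · exact (h8 _ (mem55 _ _ _ _ _)).2 (by mv)
  · exact (h9 _ (mem55 _ _ _ _ _)).2 (by mv)

/-- The barrier: a leaf row cannot be filled on its parent column. -/
theorem barrier (O : Oracle J D n val goodR goodC) {j va vx : ℕ} {κa κx : Bool} {ia ix : ℕ}
    (hj : j + 1 = J)
    (ha : Cl.thin j va κa ia ∈ colsSet J D n ∧ goodC (.thin j va κa ia))
    (hx : Rw.thin (j + 1) vx κx ix ∈ rowsSet J D n ∧ goodR (.thin (j + 1) vx κx ix))
    (v1 : val (.thin (j + 1) vx κx ix) (.thin j va κa ia)) : False := by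
  have hc : vx % 2 < 2 := Nat.mod_lt _ (by norm_num)
  have hj' : j < J := by omega
  have hcs := all1 (P := fun c => c ∈ colsSet J D n ∧ goodC c) ha
  obtain ⟨i4, hi4, g4, h4⟩ := O.pick_r Rw.rs1 (fun _ _ h => Rw.rs1.inj h) (fun i hi => mem_rs1 hi)
    _ (by simp) hcs
  obtain ⟨i5, hi5, g5, h5⟩ := O.pick_r Rw.rs2 (fun _ _ h => Rw.rs2.inj h) (fun i hi => mem_rs2 hi)
    _ (by simp) hcs
  obtain ⟨i6, hi6, g6, h6⟩ := O.pick_r (Rw.f j) (fun _ _ h => (Rw.f.inj h).2)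
    (fun i hi => mem_f hj' hi) _ (by simp) hcs
  obtain ⟨i7, hi7, g7, h7⟩ := O.pick_r (Rw.k (j + 1) (vx % 2)) (fun _ _ h => (Rw.k.inj h).2.2)
    (fun i hi => mem_k hj' hc hi) _ (by simp) hcs
  have hr4 : Rw.rs1 i4 ∈ rowsSet J D n ∧ goodR (.rs1 i4) := ⟨mem_rs1 hi4, g4⟩
  have hr5 : Rw.rs2 i5 ∈ rowsSet J D n ∧ goodR (.rs2 i5) := ⟨mem_rs2 hi5, g5⟩
  have hr6 : Rw.f j i6 ∈ rowsSet J D n ∧ goodR (.f j i6) := ⟨mem_f hj' hi6, g6⟩
  have hr7 : Rw.k (j + 1) (vx % 2) i7 ∈ rowsSet J D n ∧ goodR (.k (j + 1) (vx % 2) i7) :=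
    ⟨mem_k hj' hc hi7, g7⟩
  have hrs := all5 (P := fun r => r ∈ rowsSet J D n ∧ goodR r) hr4 hx hr5 hr6 hr7
  obtain ⟨i8, hi8, g8, h8⟩ := O.pick_c (Cl.w (vx % 2)) (fun _ _ h => (Cl.w.inj h).2)
    (fun i hi => mem_w hc hi) _ (by simp) hrs
  obtain ⟨i9, hi9, g9, h9⟩ := O.pick_c Cl.anc (fun _ _ h => Cl.anc.inj h) (fun i hi => mem_anc hi)
    _ (by simp) hrs
  obtain ⟨i10, hi10, g10, h10⟩ := O.pick_c Cl.zs (fun _ _ h => Cl.zs.inj h)
    (fun i hi => mem_czs hi) _ (by simp) hrs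
  obtain ⟨i11, hi11, g11, h11⟩ := O.pick_c (Cl.g (j + 1) (vx % 2)) (fun _ _ h => (Cl.g.inj h).2.2)
    (fun i hi => mem_cg hj' hc hi) _ (by simp) hrs
  refine O.no_copy (Rw.rs1 i4) _ (Rw.rs2 i5) (Rw.f j i6) (Rw.k (j + 1) (vx % 2) i7)
    _ (Cl.w (vx % 2) i8) (Cl.anc i9) (Cl.zs i10) (Cl.g (j + 1) (vx % 2) i11)
    hr4 hx hr5 hr6 hr7 ha ⟨mem_w hc hi8, g8⟩ ⟨mem_anc hi9, g9⟩ ⟨mem_czs hi10, g10⟩
    ⟨mem_cg hj' hc hi11, g11⟩
    (by simp [rtag]) (by simp [ctag])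
    (rkey_lt_of_tag (by simp [rtag])) (rkey_lt_of_tag (by simp [rtag]))
    (rkey_lt_of_tag (by simp [rtag])) (rkey_lt_of_tag (by simp [rtag]))
    (ckey_lt_of_tag (by simp [ctag])) (ckey_lt_of_tag (by simp [ctag]))
    (ckey_lt_of_tag (by simp [ctag])) (ckey_lt_of_tag (by simp [ctag])) ?_
  constructor
  · exact (h4 _ (mem11 _)).2 (by mv)
  · exact (h8 _ (mem51 _ _ _ _ _)).2 (by mv)
  · exact (h9 _ (mem51 _ _ _ _ _)).2 (by mv)
  · exact (h10 _ (mem51 _ _ _ _ _)).2 (by mv)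
  · exact fun hh => absurd ((h11 _ (mem51 _ _ _ _ _)).1 hh) (by mv)
  · exact v1
  · exact fun hh => absurd ((h8 _ (mem52 _ _ _ _ _)).1 hh) (by mv)
  · exact (h9 _ (mem52 _ _ _ _ _)).2 (by mv)
  · exact fun hh => absurd ((h10 _ (mem52 _ _ _ _ _)).1 hh) (by mv)
  · exact (h11 _ (mem52 _ _ _ _ _)).2 (by mv)
  · exact (h5 _ (mem11 _)).2 (by mv)
  · exact (h8 _ (mem53 _ _ _ _ _)).2 (by mv)
  · exact (h9 _ (mem53 _ _ _ _ _)).2 (by mv)
  · exact (h10 _ (mem53 _ _ _ _ _)).2 (by mv)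
  · exact fun hh => absurd ((h11 _ (mem53 _ _ _ _ _)).1 hh) (by mv)
  · exact (h6 _ (mem11 _)).2 (by mv)
  · exact fun hh => absurd ((h8 _ (mem54 _ _ _ _ _)).1 hh) (by mv)
  · exact (h9 _ (mem54 _ _ _ _ _)).2 (by mv)
  · exact (h10 _ (mem54 _ _ _ _ _)).2 (by mv)
  · exact (h11 _ (mem54 _ _ _ _ _)).2 (by mv)
  · exact fun hh => absurd ((h7 _ (mem11 _)).1 hh) (by mv)
  · exact (h8 _ (mem55 _ _ _ _ _)).2 (by mv)
  · exact fun hh => absurd ((h9 _ (mem55 _ _ _ _ _)).1 hh) (by mv)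
  · exact (h10 _ (mem55 _ _ _ _ _)).2 (by mv)
  · exact (h11 _ (mem55 _ _ _ _ _)).2 (by mv)

/-- The base of the chain: level-zero rows fill the root column cells. -/
theorem root_step (O : Oracle J D n val goodR goodC) {va vx : ℕ} {κx κa : Bool} {ix ia : ℕ}
    (hJ : 1 ≤ J) (hva : va / 2 = 0) (hvx4 : vx / 4 = 0) (hvx : vx / 2 = va)
    (ha : Cl.thin 0 va κa ia ∈ colsSet J D n ∧ goodC (.thin 0 va κa ia))
    (hx : Rw.thin 1 vx κx ix ∈ rowsSet J D n ∧ goodR (.thin 1 vx κx ix)) :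
    val (.thin 1 vx κx ix) (.thin 0 va κa ia) := by
  obtain ⟨i1, hi1, g1, h1⟩ := O.pick_r (fun i => Rw.thin 0 0 false i)
    (fun _ _ h => (Rw.thin.inj h).2.2.2) (fun i hi => mem_thin0 hi) _ (by simp) (all1 ha)
  obtain ⟨i3, hi3, g3, h3⟩ := O.pick_r (fun i => Rw.thin 0 0 true i)
    (fun _ _ h => (Rw.thin.inj h).2.2.2) (fun i hi => mem_thin0 hi) _ (by simp) (all1 ha)
  have hk := rkey_thin_nest_pos (J := J) (j := 0) (v := 0) (vx := vx) (by omega) hvx4 κx i1 ix i3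
  exact stepA O (v := 0) ⟨mem_thin0 hi1, g1⟩ ⟨mem_thin0 hi3, g3⟩ hx ha (by omega) hvx hk.1 hk.2
    ((h1 _ (mem11 _)).2 (Or.inl ⟨rfl, hva, by omega⟩)) ((h3 _ (mem11 _)).2 (Or.inl ⟨rfl, hva, by omega⟩))

/-- The zigzag chain along an alive leaf `t` yields a contradiction. -/
theorem chain (O : Oracle J D n val goodR goodC) (hJ : 1 ≤ J) (t : ℕ) (ht : t < T J)
    (hgr : ∀ j κ, 1 ≤ j → j < J → goodR (X J j κ t)) (hgl : goodR (X J J false t))
    (hgc : ∀ j κ, j < J → goodC (Xc J j κ t)) : False := by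
  -- arithmetic of nodes
  have hcr : ∀ j, j < J → (t / rW J (j + 1)) / 2 = t / cW J j := by
    intro j _
    rw [Nat.div_div_eq_div_mul, rW_two]
  have hrr : ∀ j, j < J → (t / rW J (j + 1)) / 4 = t / rW J j := by
    intro j hj
    rw [Nat.div_div_eq_div_mul, rW_succ hj, Nat.mul_comm]
  have hcc : ∀ j, j + 1 < J → (t / cW J (j + 1)) / 4 = t / cW J j := by
    intro j hj
    rw [Nat.div_div_eq_div_mul, cW_succ hj, Nat.mul_comm]
  have hroot : t / cW J 0 = 0 := by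
    apply Nat.div_eq_of_lt
    have : T J = cW J 0 := by
      obtain ⟨J', rfl⟩ : ∃ J', J = J' + 1 := ⟨J - 1, by omega⟩
      simp only [T, cW, Nat.sub_zero, Nat.add_sub_cancel]
      have : 2 * (J' + 1) - 1 = 2 * J' + 1 := by omega
      rw [this, pow_succ, pow_mul]
      norm_num
      ring
    omega
  -- validity of lines
  have GRx : ∀ j κ, j < J → (j + 1 < J ∨ κ = false) →
      X J (j + 1) κ t ∈ rowsSet J D n ∧ goodR (X J (j + 1) κ t) := by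
    intro j κ hj h
    by_cases e : j + 1 = J
    · have hκ : κ = false := by
        rcases h with h | h
        · omega
        · exact h
      subst hκ
      rw [e]
      exact ⟨mem_Xleaf ht, hgl⟩
    · have h' : j + 1 < J := by omega
      exact ⟨mem_X (by omega) h' ht, hgr _ _ (by omega) h'⟩
  have GCx : ∀ j κ, j < J → Xc J j κ t ∈ colsSet J D n ∧ goodC (Xc J j κ t) :=
    fun j κ hj => ⟨mem_Xc hj ht, hgc _ _ hj⟩
  -- the chain
  have Q : ∀ j, j < J → ∀ κx κa, (j + 1 < J ∨ κx = false) →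
      val (X J (j + 1) κx t) (Xc J j κa t) := by
    intro j
    induction j with
    | zero =>
      intro hj κx κa hc
      have h1 := hcr 0 hj
      have h2 := hroot
      have h4 : (t / rW J (0 + 1)) / 4 = 0 := by omega
      exact root_step O hJ (by omega) h4 h1 (GCx 0 κa hj) (GRx 0 κx hj hc)
    | succ j ih =>
      intro hj κx κa hc
      have hj0 : j < J := by omega
      have P : ∀ κr κy, val (X J (j + 1) κr t) (Xc J (j + 1) κy t) := by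
        intro κr κy
        have hk := ckey_thin_nest_pos (J := J) (j := j) hj (hcc j hj) κy (t % cW J j)
          (t % cW J (j + 1)) (t % cW J j)
        have hvy : (t / cW J (j + 1)) / 2 = t / rW J (j + 1) := by
          rw [Nat.div_div_eq_div_mul, cW_two hj]
        exact stepB O (GCx j false hj0) (GCx j true hj0) (GCx (j + 1) κy hj)
          (GRx j κr hj0 (Or.inl hj)) hj0 hvy hk.1 hk.2
          (ih hj0 κr false (Or.inl hj)) (ih hj0 κr true (Or.inl hj))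
      have hk := rkey_thin_nest_pos (J := J) (j := j + 1) hj (hrr (j + 1) hj) κx
        (t % rW J (j + 1)) (t % rW J (j + 1 + 1)) (t % rW J (j + 1))
      exact stepA O (GRx j false hj0 (Or.inl hj)) (GRx j true hj0 (Or.inl hj))
        (GRx (j + 1) κx hj hc) (GCx (j + 1) κa hj) hj (hcr (j + 1) hj) hk.1 hk.2 (P _ _) (P _ _)
  obtain ⟨j, rfl⟩ : ∃ j, J = j + 1 := ⟨J - 1, by omega⟩
  have hq := Q j (by omega) false false (Or.inr rfl)
  exact barrier O rfl (GCx j false (by omega)) (GRx j false (by omega) (Or.inr rfl)) hq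

end

end Crest.Agent.ZigZag
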