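import Crest.Agent.Lib.ZigZag.Generic

/-!
# Flip counting and the pad extension (S0066).
-/

set_option autoImplicit false

namespace Crest.Agent.ZigZag

open Crest.CombinatoricsR.OrderedMatrix

/-- The core pattern. -/
def coreB : Fin 5 → Fin 5 → Bool :=
  ![![true, true, true, true, false],
    ![true, false, true, false, true],
    ![true, true, true, true, false],
    ![true, false, true, true, true],
    ![false, true, false, true, true]]

/-- The `66 × 66` pattern: 61 all-one rows and columns first, then the core. -/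
def patH (i j : Fin 66) : Bool :=
  if h : 61 ≤ i.val ∧ 61 ≤ j.val then
    coreB ⟨i.val - 61, by omega⟩ ⟨j.val - 61, by omega⟩
  else true

/-- Flips in a row. -/
def flipR {n : ℕ} (A B : Fin n → Fin n → Bool) (r : Fin n) : Finset (Fin n) :=
  Finset.univ.filter (fun c => A r c ≠ B r c)

/-- Flips in a column. -/
def flipC {n : ℕ} (A B : Fin n → Fin n → Bool) (c : Fin n) : Finset (Fin n) :=
  Finset.univ.filter (fun r => A r c ≠ B r c)

/-- All flips. -/
def flips {n : ℕ} (A B : Fin n → Fin n → Bool) : Finset (Fin n × Fin n) :=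
  Finset.univ.filter (fun rc : Fin n × Fin n => A rc.1 rc.2 ≠ B rc.1 rc.2)

theorem sum_flipR {n : ℕ} (A B : Fin n → Fin n → Bool) :
    ∑ r, (flipR A B r).card = (flips A B).card := by
  classical
  have : (flips A B).card = ∑ r : Fin n, ((flips A B).filter (fun rc => rc.1 = r)).card :=
    Finset.card_eq_sum_card_fiberwise (fun _ _ => Finset.mem_coe.2 (Finset.mem_univ _))
  rw [this]
  refine Finset.sum_congr rfl fun r _ => ?_
  refine Finset.card_bij (fun c _ => (r, c)) ?_ ?_ ?_
  · intro c hc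
    simp only [flipR, Finset.mem_filter, Finset.mem_univ, true_and] at hc
    simp [flips, hc]
  · intro a _ b _ h
    exact (Prod.mk.inj h).2
  · rintro ⟨r', c⟩ h
    simp only [flips, Finset.mem_filter, Finset.mem_univ, true_and] at h
    obtain ⟨h1, rfl⟩ := h
    exact ⟨c, by simpa [flipR] using h1, rfl⟩

theorem sum_flipC {n : ℕ} (A B : Fin n → Fin n → Bool) :
    ∑ c, (flipC A B c).card = (flips A B).card := by
  classical
  have : (flips A B).card = ∑ c : Fin n, ((flips A B).filter (fun rc => rc.2 = c)).card :=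
    Finset.card_eq_sum_card_fiberwise (fun _ _ => Finset.mem_coe.2 (Finset.mem_univ _))
  rw [this]
  refine Finset.sum_congr rfl fun c _ => ?_
  refine Finset.card_bij (fun r _ => (r, c)) ?_ ?_ ?_
  · intro r hr
    simp only [flipC, Finset.mem_filter, Finset.mem_univ, true_and] at hr
    simp [flips, hr]
  · intro a _ b _ h
    exact (Prod.mk.inj h).1
  · rintro ⟨r, c'⟩ h
    simp only [flips, Finset.mem_filter, Finset.mem_univ, true_and] at h
    obtain ⟨h1, rfl⟩ := h
    exact ⟨r, by simpa [flipC] using h1, rfl⟩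

/-- Bad rows: at least `θ` flips. -/
def badR {n : ℕ} (A B : Fin n → Fin n → Bool) (θ : ℕ) : Finset (Fin n) :=
  Finset.univ.filter (fun r => θ ≤ (flipR A B r).card)

/-- Bad columns: at least `θ` flips. -/
def badC {n : ℕ} (A B : Fin n → Fin n → Bool) (θ : ℕ) : Finset (Fin n) :=
  Finset.univ.filter (fun c => θ ≤ (flipC A B c).card)

theorem card_badR_mul_le {n : ℕ} (A B : Fin n → Fin n → Bool) (θ : ℕ) :
    (badR A B θ).card * θ ≤ (flips A B).card := by
  classical
  rw [← sum_flipR]
  calc (badR A B θ).card * θ = ∑ r ∈ badR A B θ, θ := by simp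
    _ ≤ ∑ r ∈ badR A B θ, (flipR A B r).card := by
        refine Finset.sum_le_sum fun r hr => ?_
        simpa [badR] using hr
    _ ≤ ∑ r, (flipR A B r).card :=
        Finset.sum_le_sum_of_subset (Finset.subset_univ _)

theorem card_badC_mul_le {n : ℕ} (A B : Fin n → Fin n → Bool) (θ : ℕ) :
    (badC A B θ).card * θ ≤ (flips A B).card := by
  classical
  rw [← sum_flipC]
  calc (badC A B θ).card * θ = ∑ r ∈ badC A B θ, θ := by simp
    _ ≤ ∑ r ∈ badC A B θ, (flipC A B r).card := by
        refine Finset.sum_le_sum fun r hr => ?_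
        simpa [badC] using hr
    _ ≤ ∑ r, (flipC A B r).card :=
        Finset.sum_le_sum_of_subset (Finset.subset_univ _)

/-- A large set stays large after removing `U` and the sets `V c`, `c ∈ cs`. -/
theorem filter_large {ι κ : Type*} [DecidableEq ι] (Y U : Finset ι) (cs : Finset κ)
    (V : κ → Finset ι) (θ k s : ℕ) (hV : ∀ c ∈ cs, (V c).card ≤ θ) (hk : cs.card ≤ k)
    (h : U.card + k * θ + s ≤ Y.card) :
    ∃ Y' : Finset ι, Y' ⊆ Y ∧ Y'.card = s ∧ ∀ y ∈ Y', y ∉ U ∧ ∀ c ∈ cs, y ∉ V c := by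
  classical
  have hsub : Y ⊆ (Y.filter (fun y => y ∉ U ∧ ∀ c ∈ cs, y ∉ V c)) ∪ (U ∪ cs.biUnion V) := by
    intro y hy
    by_cases h1 : y ∈ U
    · exact Finset.mem_union_right _ (Finset.mem_union_left _ h1)
    by_cases h2 : ∃ c ∈ cs, y ∈ V c
    · obtain ⟨c, hc, hyc⟩ := h2
      exact Finset.mem_union_right _ (Finset.mem_union_right _ (Finset.mem_biUnion.2 ⟨c, hc, hyc⟩))
    · push Not at h2
      exact Finset.mem_union_left _ (Finset.mem_filter.2 ⟨hy, h1, h2⟩)
  have h1 := Finset.card_le_card hsub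
  have h2 := Finset.card_union_le (Y.filter (fun y => y ∉ U ∧ ∀ c ∈ cs, y ∉ V c)) (U ∪ cs.biUnion V)
  have h3 := Finset.card_union_le U (cs.biUnion V)
  have h4 : (cs.biUnion V).card ≤ cs.card * θ := Finset.card_biUnion_le_card_mul _ _ _ hV
  have h5 : cs.card * θ ≤ k * θ := Nat.mul_le_mul_right θ hk
  have h6 : s ≤ (Y.filter (fun y => y ∉ U ∧ ∀ c ∈ cs, y ∉ V c)).card := by omega
  obtain ⟨Y', hY', hc⟩ := Finset.exists_subset_card_eq h6
  refine ⟨Y', hY'.trans (Finset.filter_subset _ _), hc, fun y hy => ?_⟩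
  exact (Finset.mem_filter.1 (hY' hy)).2

/-- The pad extension. -/
theorem extend_pad {n : ℕ} (A B : Fin n → Fin n → Bool) (θ : ℕ)
    (rows cols : Fin 5 → Fin n) (hrows : StrictMono rows) (hcols : StrictMono cols)
    (hgr : ∀ i, (flipR A B (rows i)).card < θ) (hgc : ∀ j, (flipC A B (cols j)).card < θ)
    (hcore : ∀ i j, B (rows i) (cols j) = coreB i j)
    (PR PC : Finset (Fin n))
    (hPR : ∀ r ∈ PR, ∀ i, r < rows i) (hPC : ∀ c ∈ PC, ∀ j, c < cols j)
    (hPRA : ∀ r ∈ PR, ∀ c, A r c = true) (hPCA : ∀ c ∈ PC, ∀ r, A r c = true)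
    (hPRc : (badR A B θ).card + 5 * θ + 61 ≤ PR.card)
    (hPCc : 66 * θ + 61 ≤ PC.card) :
    orderedCopyCount patH B ≠ 0 := by
  classical
  -- pad rows
  obtain ⟨PR', hPR'sub, hPR'card, hPR'prop⟩ := filter_large PR (badR A B θ)
    (Finset.univ : Finset (Fin 5))
    (fun j => flipC A B (cols j)) θ 5 61 (fun j _ => (hgc j).le) (by simp) hPRc
  let pr : Fin 61 → Fin n := PR'.orderEmbOfFin hPR'card
  have hpr_mono : StrictMono pr := (PR'.orderEmbOfFin hPR'card).strictMono
  have hpr_mem : ∀ i, pr i ∈ PR' := fun i => Finset.orderEmbOfFin_mem PR' hPR'card i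
  have hpr_prop : ∀ i, pr i ∈ PR ∧ pr i ∉ badR A B θ ∧
      ∀ j ∈ (Finset.univ : Finset (Fin 5)), pr i ∉ flipC A B (cols j) := by
    intro i
    exact ⟨hPR'sub (hpr_mem i), (hPR'prop _ (hpr_mem i)).1, (hPR'prop _ (hpr_mem i)).2⟩
  -- all rows
  let rr : Fin 66 → Fin n := fun i =>
    if h : i.val < 61 then pr ⟨i.val, h⟩ else rows ⟨i.val - 61, by omega⟩
  have hrr_good : ∀ i, (flipR A B (rr i)).card ≤ θ := by
    intro i
    simp only [rr]
    split_ifs with h
    · have := (hpr_prop ⟨i.val, h⟩).2.1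
      simp only [badR, Finset.mem_filter, Finset.mem_univ, true_and, not_le] at this
      exact this.le
    · exact (hgr _).le
  have hrr_mono : StrictMono rr := by
    intro i i' hii
    have hii' : i.val < i'.val := hii
    simp only [rr]
    split_ifs with h1 h2 h2
    · exact hpr_mono (by simpa using hii')
    · exact hPR _ (hpr_prop _).1 _
    · omega
    · exact hrows (by simp only [Fin.mk_lt_mk]; omega)
  -- pad columns
  obtain ⟨PC', hPC'sub, hPC'card, hPC'prop⟩ := filter_large PC (∅ : Finset (Fin n))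
    (Finset.univ : Finset (Fin 66))
    (fun i => flipR A B (rr i)) θ 66 61 (fun i _ => hrr_good i) (by simp)
    (by simpa using hPCc)
  let pc : Fin 61 → Fin n := PC'.orderEmbOfFin hPC'card
  have hpc_mono : StrictMono pc := (PC'.orderEmbOfFin hPC'card).strictMono
  have hpc_mem : ∀ i, pc i ∈ PC' := fun i => Finset.orderEmbOfFin_mem PC' hPC'card i
  have hpc_prop : ∀ j, pc j ∈ PC ∧ ∀ i ∈ (Finset.univ : Finset (Fin 66)), pc j ∉ flipR A B (rr i) := by
    intro j
    exact ⟨hPC'sub (hpc_mem j), (hPC'prop _ (hpc_mem j)).2⟩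
  let cc : Fin 66 → Fin n := fun j =>
    if h : j.val < 61 then pc ⟨j.val, h⟩ else cols ⟨j.val - 61, by omega⟩
  have hcc_mono : StrictMono cc := by
    intro i i' hii
    have hii' : i.val < i'.val := hii
    simp only [cc]
    split_ifs with h1 h2 h2
    · exact hpc_mono (by simpa using hii')
    · exact hPC _ (hpc_prop _).1 _
    · omega
    · exact hcols (by simp only [Fin.mk_lt_mk]; omega)
  refine count_pos_of_copy rr cc hrr_mono hcc_mono ?_
  intro i j
  by_cases hj : j.val < 61
  · -- pad column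
    have hcj : cc j = pc ⟨j.val, hj⟩ := by simp only [cc, dif_pos hj]
    have h3 := (hpc_prop ⟨j.val, hj⟩).2 i (Finset.mem_univ _)
    simp only [flipR, Finset.mem_filter, Finset.mem_univ, true_and, not_not] at h3
    rw [hcj, ← h3, hPCA _ (hpc_prop _).1]
    simp only [patH]
    rw [dif_neg (by omega)]
  · by_cases hi : i.val < 61
    · -- pad row, core column
      have hri : rr i = pr ⟨i.val, hi⟩ := by simp only [rr, dif_pos hi]
      have hcj : cc j = cols ⟨j.val - 61, by omega⟩ := by simp only [cc, dif_neg hj]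
      have h3 := (hpr_prop ⟨i.val, hi⟩).2.2 ⟨j.val - 61, by omega⟩ (Finset.mem_univ _)
      simp only [flipC, Finset.mem_filter, Finset.mem_univ, true_and, not_not] at h3
      rw [hri, hcj, ← h3, hPRA _ (hpr_prop _).1]
      simp only [patH]
      rw [dif_neg (by omega)]
    · have hri : rr i = rows ⟨i.val - 61, by omega⟩ := by simp only [rr, dif_neg hi]
      have hcj : cc j = cols ⟨j.val - 61, by omega⟩ := by simp only [cc, dif_neg hj]
      rw [hri, hcj, hcore]
      simp only [patH]
      rw [dif_pos ⟨by omega, by omega⟩]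

end Crest.Agent.ZigZag
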