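import Mathlib

/-!
# Sorting a finite set of lines along a key (S0066).
-/

set_option autoImplicit false

namespace Crest.Agent.ZigZag

/-- Sort a finite set along an injective key. -/
theorem exists_layout {α K : Type*} [DecidableEq α] [LinearOrder K] (R : Finset α) (key : α → K)
    (hinj : Function.Injective key) {n : ℕ} (hn : R.card = n) (hn0 : 0 < n) :
    ∃ (ρ : Fin n → α) (pos : α → Fin n), (∀ i, ρ i ∈ R) ∧ (∀ a ∈ R, ρ (pos a) = a) ∧
      (∀ i, pos (ρ i) = i) ∧ (∀ i i', i < i' ↔ key (ρ i) < key (ρ i')) := by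
  classical
  have hS : (R.image key).card = n := by
    rw [Finset.card_image_of_injective _ hinj, hn]
  let e : Fin n ≃o (R.image key) := Finset.orderIsoOfFin (R.image key) hS
  have h1 : ∀ i : Fin n, ∃ a, a ∈ R ∧ key a = (e i).1 := by
    intro i
    obtain ⟨a, ha, hk⟩ := Finset.mem_image.1 (e i).2
    exact ⟨a, ha, hk⟩
  choose ρ hρ hρk using h1
  have hmem : ∀ a, a ∈ R → key a ∈ R.image key := fun a ha => Finset.mem_image_of_mem _ ha
  let pos : α → Fin n := fun a =>
    if h : a ∈ R then e.symm ⟨key a, hmem a h⟩ else ⟨0, hn0⟩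
  refine ⟨ρ, pos, hρ, ?_, ?_, ?_⟩
  · intro a ha
    apply hinj
    rw [hρk]
    simp [pos, ha]
  · intro i
    simp only [pos, dif_pos (hρ i)]
    have : (⟨key (ρ i), hmem _ (hρ i)⟩ : (R.image key)) = e i := Subtype.ext (hρk i)
    rw [this]
    simp
  · intro i i'
    rw [hρk, hρk]
    constructor
    · intro h
      exact Subtype.coe_lt_coe.2 (e.strictMono h)
    · intro h
      have : e i < e i' := Subtype.coe_lt_coe.1 h
      exact e.lt_iff_lt.1 this

end Crest.Agent.ZigZag
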