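import Crest.Agent.Lib.ZigZag.Seeds
import Crest.Agent.Lib.ZigZag.Chain
import Crest.Agent.Lib.ZigZag.Flips
import Crest.Agent.Lib.ZigZag.Layout

/-!
# From the design to a matrix on `Fin n` (S0066).
-/

set_option autoImplicit false

namespace Crest.Agent.ZigZag

open Crest.CombinatoricsR.OrderedMatrix Finset

section
variable {J D n m : ℕ}
  {ρ : Fin n → Rw} {rpos : Rw → Fin n} {γ : Fin n → Cl} {cpos : Cl → Fin n}
  {A B : Fin n → Fin n → Bool}

/-- The pattern values on the core. -/
theorem patH_eq (a b : Fin 5) :
    patH ⟨61 + a.val, by omega⟩ ⟨61 + b.val, by omega⟩ = coreB a b := by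
  unfold patH
  rw [dif_pos ⟨by simp, by simp⟩]
  congr 1 <;> exact Fin.ext (by simp)

/-- The oracle on the real matrices. -/
theorem oracle_of
    (hm : 0 < m) (hD : D = 81 * m)
    (hρ : ∀ i, ρ i ∈ rowsSet J D n) (hρpos : ∀ a ∈ rowsSet J D n, ρ (rpos a) = a)
    (hposρ : ∀ i, rpos (ρ i) = i) (hρk : ∀ i i', i < i' ↔ rkey J (ρ i) < rkey J (ρ i'))
    (hγ : ∀ i, γ i ∈ colsSet J D n) (hγpos : ∀ a ∈ colsSet J D n, γ (cpos a) = a)
    (hposγ : ∀ i, cpos (γ i) = i) (hγk : ∀ i i', i < i' ↔ ckey J (γ i) < ckey J (γ i'))
    (hA : ∀ r c, A r c = true ↔ M J (ρ r) (γ c))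
    (hB : orderedCopyCount patH B = 0)
    (hbR : 16 * (badR A B (16 * m)).card < m) (hbC : 16 * (badC A B (16 * m)).card < m)
    (hR : (rowsCore J D).card + 81 * m + 61 ≤ n) (hC : (colsCore J D).card + 1056 * m + 61 ≤ n) :
    Oracle J D n (fun r c => B (rpos r) (cpos c) = true)
      (fun r => (flipR A B (rpos r)).card < 16 * m)
      (fun c => (flipC A B (cpos c)).card < 16 * m) := by
  classical
  have rposInj : ∀ a ∈ rowsSet J D n, ∀ a' ∈ rowsSet J D n, rpos a = rpos a' → a = a' := by
    intro a ha a' ha' h
    rw [← hρpos a ha, ← hρpos a' ha', h]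
  have cposInj : ∀ a ∈ colsSet J D n, ∀ a' ∈ colsSet J D n, cpos a = cpos a' → a = a' := by
    intro a ha a' ha' h
    rw [← hγpos a ha, ← hγpos a' ha', h]
  have hm' : 1 ≤ m := hm
  refine ⟨?_, ?_, ?_⟩
  · -- pick rows
    intro b hb hbm cs hlen hcs
    have hY : ((range D).image (fun i => rpos (b i))).card = D := by
      rw [card_image_of_injOn, card_range]
      intro i hi i' hi' h
      exact hb (rposInj _ (hbm i (by simpa using hi)) _ (hbm i' (by simpa using hi')) h)
    obtain ⟨Y', hY', hc, hprop⟩ := filter_large ((range D).image (fun i => rpos (b i)))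
      (badR A B (16 * m)) cs.toFinset (fun c => flipC A B (cpos c)) (16 * m) 5 1
      (by
        intro c hc
        exact ((hcs c (List.mem_toFinset.1 hc)).2).le)
      ((List.toFinset_card_le cs).trans hlen)
      (by rw [hY, hD]; omega)
    obtain ⟨y, hy⟩ := Finset.card_pos.1 (by omega : 0 < Y'.card)
    obtain ⟨i, hi, rfl⟩ := Finset.mem_image.1 (hY' hy)
    have hi' : i < D := by simpa using hi
    obtain ⟨h1, h2⟩ := hprop _ hy
    refine ⟨i, hi', ?_, ?_⟩
    · simpa [badR] using h1
    · intro c hc
      have h3 := h2 c (List.mem_toFinset.2 hc)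
      simp only [flipC, mem_filter, mem_univ, true_and, not_not] at h3
      show B (rpos (b i)) (cpos c) = true ↔ _
      rw [← h3, hA, hρpos _ (hbm i hi'), hγpos _ (hcs c hc).1]
  · -- pick columns
    intro b hb hbm rs hlen hrs
    have hY : ((range D).image (fun i => cpos (b i))).card = D := by
      rw [card_image_of_injOn, card_range]
      intro i hi i' hi' h
      exact hb (cposInj _ (hbm i (by simpa using hi)) _ (hbm i' (by simpa using hi')) h)
    obtain ⟨Y', hY', hc, hprop⟩ := filter_large ((range D).image (fun i => cpos (b i)))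
      (badC A B (16 * m)) rs.toFinset (fun r => flipR A B (rpos r)) (16 * m) 5 1
      (by
        intro c hc
        exact ((hrs c (List.mem_toFinset.1 hc)).2).le)
      ((List.toFinset_card_le rs).trans hlen)
      (by rw [hY, hD]; omega)
    obtain ⟨y, hy⟩ := Finset.card_pos.1 (by omega : 0 < Y'.card)
    obtain ⟨i, hi, rfl⟩ := Finset.mem_image.1 (hY' hy)
    have hi' : i < D := by simpa using hi
    obtain ⟨h1, h2⟩ := hprop _ hy
    refine ⟨i, hi', ?_, ?_⟩
    · simpa [badC] using h1
    · intro r hr
      have h3 := h2 r (List.mem_toFinset.2 hr)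
      simp only [flipR, mem_filter, mem_univ, true_and, not_not] at h3
      show B (rpos r) (cpos (b i)) = true ↔ _
      rw [← h3, hA, hγpos _ (hbm i hi'), hρpos _ (hrs r hr).1]
  · -- no copy
    intro r1 x r3 w1 w2 s1 y s3 z1 z2 g1 g2 g3 g4 g5 g6 g7 g8 g9 g10 ht1 ht2 k1 k2 k3 k4 c1 c2 c3 c4 hV
    have krow : ∀ a b, a ∈ rowsSet J D n → b ∈ rowsSet J D n → rkey J a < rkey J b → rpos a < rpos b := by
      intro a b ha hb hab
      rw [hρk, hρpos a ha, hρpos b hb]
      exact hab
    have kcol : ∀ a b, a ∈ colsSet J D n → b ∈ colsSet J D n → ckey J a < ckey J b → cpos a < cpos b := by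
      intro a b ha hb hab
      rw [hγk, hγpos a ha, hγpos b hb]
      exact hab
    let rows : Fin 5 → Fin n := ![rpos r1, rpos x, rpos r3, rpos w1, rpos w2]
    let cols : Fin 5 → Fin n := ![cpos s1, cpos y, cpos s3, cpos z1, cpos z2]
    have hrows : StrictMono rows := by
      rw [Fin.strictMono_iff_lt_succ]
      intro i
      fin_cases i
      · exact krow _ _ g1.1 g2.1 k1
      · exact krow _ _ g2.1 g3.1 k2
      · exact krow _ _ g3.1 g4.1 k3
      · exact krow _ _ g4.1 g5.1 k4
    have hcols : StrictMono cols := by
      rw [Fin.strictMono_iff_lt_succ]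
      intro i
      fin_cases i
      · exact kcol _ _ g6.1 g7.1 c1
      · exact kcol _ _ g7.1 g8.1 c2
      · exact kcol _ _ g8.1 g9.1 c3
      · exact kcol _ _ g9.1 g10.1 c4
    have hgr : ∀ i, (flipR A B (rows i)).card < 16 * m := by
      intro i
      fin_cases i
      · exact g1.2
      · exact g2.2
      · exact g3.2
      · exact g4.2
      · exact g5.2
    have hgc : ∀ j, (flipC A B (cols j)).card < 16 * m := by
      intro i
      fin_cases i
      · exact g6.2
      · exact g7.2
      · exact g8.2
      · exact g9.2
      · exact g10.2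
    have hfalse : ∀ {r c}, ¬ (B r c = true) → B r c = false := by
      intro r c h
      simpa using h
    have hcore : ∀ i j, B (rows i) (cols j) = coreB i j := by
      obtain ⟨h11,h12,h13,h14,h15,h21,h22,h23,h24,h25,h31,h32,h33,h34,h35,h41,h42,h43,h44,h45,h51,h52,h53,h54,h55⟩ := hV
      intro i j
      fin_cases i <;> fin_cases j
      · exact h11
      · exact h12
      · exact h13
      · exact h14
      · exact hfalse h15
      · exact h21
      · exact hfalse h22
      · exact h23
      · exact hfalse h24
      · exact h25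
      · exact h31
      · exact h32
      · exact h33
      · exact h34
      · exact hfalse h35
      · exact h41
      · exact hfalse h42
      · exact h43
      · exact h44
      · exact h45
      · exact hfalse h51
      · exact h52
      · exact hfalse h53
      · exact h54
      · exact h55
    have hnR : (rowsCore J D).card ≤ n := by omega
    have hnC : (colsCore J D).card ≤ n := by omega
    -- pad rows come first
    have tagr : ∀ i, 1 ≤ rtag (![r1, x, r3, w1, w2] i) := by
      have t1 := rtag_le_of_key k1
      have t2 := rtag_le_of_key k2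
      have t3 := rtag_le_of_key k3
      have t4 := rtag_le_of_key k4
      intro i
      fin_cases i
      · exact ht1
      · show 1 ≤ rtag x; omega
      · show 1 ≤ rtag r3; omega
      · show 1 ≤ rtag w1; omega
      · show 1 ≤ rtag w2; omega
    have tagc : ∀ i, 1 ≤ ctag (![s1, y, s3, z1, z2] i) := by
      have t1 := ctag_le_of_key c1
      have t2 := ctag_le_of_key c2
      have t3 := ctag_le_of_key c3
      have t4 := ctag_le_of_key c4
      intro i
      fin_cases i
      · exact ht2
      · show 1 ≤ ctag y; omega
      · show 1 ≤ ctag s3; omega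
      · show 1 ≤ ctag z1; omega
      · show 1 ≤ ctag z2; omega
    have memr : ∀ i, (![r1, x, r3, w1, w2] i) ∈ rowsSet J D n := by
      intro i
      fin_cases i
      · exact g1.1
      · exact g2.1
      · exact g3.1
      · exact g4.1
      · exact g5.1
    have memc : ∀ i, (![s1, y, s3, z1, z2] i) ∈ colsSet J D n := by
      intro i
      fin_cases i
      · exact g6.1
      · exact g7.1
      · exact g8.1
      · exact g9.1
      · exact g10.1
    have rowseq : ∀ i, rows i = rpos (![r1, x, r3, w1, w2] i) := by
      intro i; fin_cases i <;> rfl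
    have colseq : ∀ i, cols i = cpos (![s1, y, s3, z1, z2] i) := by
      intro i; fin_cases i <;> rfl
    have hPRcard : ((range (n - (rowsCore J D).card)).image (fun i => rpos (Rw.pad i))).card
        = n - (rowsCore J D).card := by
      rw [card_image_of_injOn, card_range]
      intro i hi i' hi' h
      have := rposInj _ (mem_pad_r (by simpa using hi)) _ (mem_pad_r (by simpa using hi')) h
      exact Rw.pad.inj this
    have hPCcard : ((range (n - (colsCore J D).card)).image (fun i => cpos (Cl.pad i))).card
        = n - (colsCore J D).card := by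
      rw [card_image_of_injOn, card_range]
      intro i hi i' hi' h
      have := cposInj _ (mem_pad_c (by simpa using hi)) _ (mem_pad_c (by simpa using hi')) h
      exact Cl.pad.inj this
    refine extend_pad A B (16 * m) rows cols hrows hcols hgr hgc hcore
      ((range (n - (rowsCore J D).card)).image (fun i => rpos (Rw.pad i)))
      ((range (n - (colsCore J D).card)).image (fun i => cpos (Cl.pad i)))
      ?_ ?_ ?_ ?_ ?_ ?_ hB
    · intro r hr i
      obtain ⟨a, ha, rfl⟩ := Finset.mem_image.1 hr
      rw [rowseq]
      apply krow _ _ (mem_pad_r (by simpa using ha)) (memr i)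
      apply rkey_lt_of_tag
      exact Nat.lt_of_lt_of_le Nat.zero_lt_one (tagr i)
    · intro r hr i
      obtain ⟨a, ha, rfl⟩ := Finset.mem_image.1 hr
      rw [colseq]
      apply kcol _ _ (mem_pad_c (by simpa using ha)) (memc i)
      apply ckey_lt_of_tag
      exact Nat.lt_of_lt_of_le Nat.zero_lt_one (tagc i)
    · intro r hr c
      obtain ⟨a, ha, rfl⟩ := Finset.mem_image.1 hr
      rw [hA, hρpos _ (mem_pad_r (by simpa using ha))]
      exact M_pad_row _ _ _
    · intro c hc r
      obtain ⟨a, ha, rfl⟩ := Finset.mem_image.1 hc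
      rw [hA, hγpos _ (mem_pad_c (by simpa using ha))]
      exact M_pad_col _ _ _
    · rw [hPRcard]
      omega
    · rw [hPCcard]
      omega

/-- An alive leaf exists. -/
theorem alive_exists
    (hρ : ∀ a ∈ rowsSet J D n, ρ (rpos a) = a) (hγ : ∀ a ∈ colsSet J D n, γ (cpos a) = a)
    (hT : m ≤ 8 * T J)
    (hbR : 16 * (badR A B (16 * m)).card < m) (hbC : 16 * (badC A B (16 * m)).card < m) :
    ∃ t, t < T J ∧
      (∀ j κ, 1 ≤ j → j < J → (flipR A B (rpos (X J j κ t))).card < 16 * m) ∧
      (flipR A B (rpos (X J J false t))).card < 16 * m ∧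
      (∀ j κ, j < J → (flipC A B (cpos (Xc J j κ t))).card < 16 * m) := by
  classical
  by_contra hcon
  push Not at hcon
  let decR : Rw → ℕ := fun r => match r with
    | .thin j v _ i => v * rW J j + i
    | _ => 0
  let decC : Cl → ℕ := fun r => match r with
    | .thin j v _ i => v * cW J j + i
    | _ => 0
  have hsub : range (T J) ⊆ (badR A B (16 * m)).image (fun r => decR (ρ r)) ∪
      (badC A B (16 * m)).image (fun c => decC (γ c)) := by
    intro t ht
    have ht' : t < T J := by simpa using ht
    by_cases h1 : ∀ j κ, 1 ≤ j → j < J → (flipR A B (rpos (X J j κ t))).card < 16 * m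
    · by_cases h2 : (flipR A B (rpos (X J J false t))).card < 16 * m
      · obtain ⟨j, κ, hj, h3⟩ := hcon t ht' h1 h2
        apply mem_union_right
        refine mem_image.2 ⟨cpos (Xc J j κ t), by simpa [badC] using h3, ?_⟩
        show decC (γ _) = t
        rw [hγ _ (mem_Xc hj ht')]
        simp only [decC]
        exact Nat.div_add_mod' _ _
      · apply mem_union_left
        refine mem_image.2 ⟨rpos (X J J false t), by simpa [badR] using h2, ?_⟩
        show decR (ρ _) = t
        rw [hρ _ (mem_Xleaf ht')]
        simp only [decR]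
        exact Nat.div_add_mod' _ _
    · push Not at h1
      obtain ⟨j, κ, hj1, hj2, h3⟩ := h1
      apply mem_union_left
      refine mem_image.2 ⟨rpos (X J j κ t), by simpa [badR] using h3, ?_⟩
      show decR (ρ _) = t
      rw [hρ _ (mem_X hj1 hj2 ht')]
      simp only [decR]
      exact Nat.div_add_mod' _ _
  have h1 := card_le_card hsub
  have h2 := card_union_le ((badR A B (16 * m)).image (fun r => decR (ρ r)))
    ((badC A B (16 * m)).image (fun c => decC (γ c)))
  have h3 : ((badR A B (16 * m)).image (fun r => decR (ρ r))).card ≤ (badR A B (16 * m)).card :=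
    card_image_le
  have h4 : ((badC A B (16 * m)).image (fun c => decC (γ c))).card ≤ (badC A B (16 * m)).card :=
    card_image_le
  rw [card_range] at h1
  omega

end

/-- The design gives the matrix. -/
theorem design_main (J D n m : ℕ) (hm : 0 < m) (hJ : 1 ≤ J) (hD : D = 81 * m)
    (hT1 : m ≤ 8 * T J) (hT2 : 4 * T J ≤ m)
    (hR : (rowsCore J D).card + 81 * m + 61 ≤ n) (hC : (colsCore J D).card + 1056 * m + 61 ≤ n) :
    ∃ A : Fin n → Fin n → Bool,
      (∀ B : Fin n → Fin n → Bool, orderedCopyCount patH B = 0 →
        m ^ 2 ≤ (flips A B).card) ∧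
      orderedCopyCount patH A ≤ m * n ^ 130 := by
  classical
  have hn0 : 0 < n := by omega
  obtain ⟨ρ, rpos, hρ, hρpos, hposρ, hρk⟩ := exists_layout (rowsSet J D n) (rkey J)
    (rkey_injective J) (card_rowsSet (by omega)) hn0
  obtain ⟨γ, cpos, hγ, hγpos, hposγ, hγk⟩ := exists_layout (colsSet J D n) (ckey J)
    (ckey_injective J) (card_colsSet (by omega)) hn0
  let A : Fin n → Fin n → Bool := fun r c => decide (M J (ρ r) (γ c))
  have hA : ∀ r c, A r c = true ↔ M J (ρ r) (γ c) := fun r c => by simp [A]
  refine ⟨A, ?_, ?_⟩
  · intro B hB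
    by_contra hcon
    push Not at hcon
    have hθ : 0 < 16 * m := by omega
    have hbR : 16 * (badR A B (16 * m)).card < m := by
      have h1 := card_badR_mul_le A B (16 * m)
      have h2 : (badR A B (16 * m)).card * (16 * m) < m * m := by
        calc _ ≤ (flips A B).card := h1
          _ < m ^ 2 := hcon
          _ = m * m := by ring
      have h3 : (16 * (badR A B (16 * m)).card) * m < m * m := by nlinarith
      exact Nat.lt_of_mul_lt_mul_right h3
    have hbC : 16 * (badC A B (16 * m)).card < m := by
      have h1 := card_badC_mul_le A B (16 * m)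
      have h2 : (badC A B (16 * m)).card * (16 * m) < m * m := by
        calc _ ≤ (flips A B).card := h1
          _ < m ^ 2 := hcon
          _ = m * m := by ring
      have h3 : (16 * (badC A B (16 * m)).card) * m < m * m := by nlinarith
      exact Nat.lt_of_mul_lt_mul_right h3
    have O := oracle_of (A := A) (B := B) hm hD hρ hρpos hposρ hρk hγ hγpos hposγ hγk hA hB hbR hbC hR hC
    obtain ⟨t, ht, h1, h2, h3⟩ := alive_exists (A := A) (B := B) (m := m) hρpos hγpos hT1 hbR hbC
    exact chain O hJ t ht h1 h2 h3
  · -- the count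
    let S : Finset (Fin n × Fin n) :=
      ((range (T J) ×ˢ (univ : Finset Bool)) ×ˢ range 2).image
        (fun p => (rpos (Rw.thin J p.1.1 false 0), cpos (Cl.thin (J - 1) (p.1.1 / 2) p.1.2 p.2)))
    have hS : S.card ≤ m := by
      refine card_image_le.trans ?_
      simp only [card_product, card_range, card_univ, Fintype.card_bool]
      omega
    have hcount := count_le_of_mem (H := patH) (A := A) (k := 65) 62 62 S ?_
    · calc orderedCopyCount patH A ≤ S.card * n ^ (2 * 65) := hcount
        _ ≤ m * n ^ 130 := Nat.mul_le_mul_right _ hS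
    · intro r c hr hc hcopy
      have cell : ∀ i j, (M J (ρ (r i)) (γ (c j)) ↔ patH i j = true) := by
        intro i j
        rw [← hA, hcopy]
      have hCore : CoreCopy J (ρ (r 61)) (ρ (r 62)) (ρ (r 63)) (ρ (r 64)) (ρ (r 65))
          (γ (c 61)) (γ (c 62)) (γ (c 63)) (γ (c 64)) (γ (c 65)) := by
        constructor
        · exact (cell _ _).2 (by decide)
        · exact (cell _ _).2 (by decide)
        · exact (cell _ _).2 (by decide)
        · exact (cell _ _).2 (by decide)
        · exact fun h => absurd ((cell _ _).1 h) (by decide)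
        · exact (cell _ _).2 (by decide)
        · exact fun h => absurd ((cell _ _).1 h) (by decide)
        · exact (cell _ _).2 (by decide)
        · exact fun h => absurd ((cell _ _).1 h) (by decide)
        · exact (cell _ _).2 (by decide)
        · exact (cell _ _).2 (by decide)
        · exact (cell _ _).2 (by decide)
        · exact (cell _ _).2 (by decide)
        · exact (cell _ _).2 (by decide)
        · exact fun h => absurd ((cell _ _).1 h) (by decide)
        · exact (cell _ _).2 (by decide)
        · exact fun h => absurd ((cell _ _).1 h) (by decide)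
        · exact (cell _ _).2 (by decide)
        · exact (cell _ _).2 (by decide)
        · exact (cell _ _).2 (by decide)
        · exact fun h => absurd ((cell _ _).1 h) (by decide)
        · exact (cell _ _).2 (by decide)
        · exact fun h => absurd ((cell _ _).1 h) (by decide)
        · exact (cell _ _).2 (by decide)
        · exact (cell _ _).2 (by decide)
      have krow : ∀ i i' : Fin 66, i < i' → rkey J (ρ (r i)) < rkey J (ρ (r i')) :=
        fun i i' h => (hρk _ _).1 (hr h)
      have kcol : ∀ i i' : Fin 66, i < i' → ckey J (γ (c i)) < ckey J (γ (c i')) :=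
        fun i i' h => (hγk _ _).1 (hc h)
      obtain ⟨j, vx, κx, ix, κy, iy, hj, hx, hy⟩ := seed_of_copy J _ _ _ _ _ _ _ _ _ _
        (krow 61 62 (by decide)) (krow 62 63 (by decide)) (krow 63 64 (by decide))
        (krow 64 65 (by decide)) (kcol 61 62 (by decide)) (kcol 62 63 (by decide))
        (kcol 63 64 (by decide)) (kcol 64 65 (by decide))
        (by
          intro j v κ i h
          have := hρ (r 62)
          rw [h] at this
          exact thin_row_level this)
        (by
          intro j v κ i h
          have := hγ (c 62)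
          rw [h] at this
          exact thin_col_level this) hCore
      subst hj
      have hxm := hρ (r 62)
      rw [hx] at hxm
      obtain ⟨h1, h2, h3⟩ := leaf_row (by omega) hxm
      have hym := hγ (c 62)
      rw [hy] at hym
      have h4 := leaf_col rfl hym
      refine mem_image.2 ⟨((vx, κy), iy), ?_, ?_⟩
      · simp only [mem_product, mem_range, mem_univ, true_and, and_true]
        exact ⟨h1, h4⟩
      · simp only [Prod.mk.injEq]
        constructor
        · rw [← hposρ (r 62), hx, h2, h3]
        · rw [← hposγ (c 62), hy]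
          simp

end Crest.Agent.ZigZag
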