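import Crest.Agent.Lib.ZigZag.ClassifyDefs

set_option autoImplicit false
set_option maxRecDepth 100000
set_option linter.unusedSimpArgs false
set_option linter.unusedVariables false
set_option maxHeartbeats 0

namespace Crest.Agent.ZigZag

theorem cls_thin_f_n_n_n__n_n_n_n_n (J : ℕ) (j_r1 : ℕ) (v_r1 : ℕ) (q_r1 : Bool) (i_r1 : ℕ) (j_x : ℕ) (i_x : ℕ) (r3 : Rw) (w1 : Rw) (w2 : Rw) (s1 : Cl) (y : Cl) (s3 : Cl) (z1 : Cl) (z2 : Cl)
    (t1 : rtag (.thin j_r1 v_r1 q_r1 i_r1) ≤ rtag (.f j_x i_x)) (t2 : rtag (.f j_x i_x) ≤ rtag r3) (t3 : rtag r3 ≤ rtag w1) (t4 : rtag w1 ≤ rtag w2)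
    (u1 : ctag s1 ≤ ctag y) (u2 : ctag y ≤ ctag s3) (u3 : ctag s3 ≤ ctag z1) (u4 : ctag z1 ≤ ctag z2)
    (h : CoreCopy J (.thin j_r1 v_r1 q_r1 i_r1) (.f j_x i_x) r3 w1 w2 s1 y s3 z1 z2) : IsA (.thin j_r1 v_r1 q_r1 i_r1) (.f j_x i_x) r3 y ∨ IsB J (.f j_x i_x) s1 s3 y := by
  obtain ⟨h11,h12,h13,h14,h15,h21,h22,h23,h24,h25,h31,h32,h33,h34,h35,h41,h42,h43,h44,h45,h51,h52,h53,h54,h55⟩ := h
  have t12 := t1
  have t13 := t1.trans t2
  have t14 := (t1.trans t2).trans t3
  have t15 := ((t1.trans t2).trans t3).trans t4
  have t23 := t2
  have t24 := t2.trans t3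
  have t25 := (t2.trans t3).trans t4
  have t34 := t3
  have t35 := t3.trans t4
  have t45 := t4
  have u12 := u1
  have u13 := u1.trans u2
  have u14 := (u1.trans u2).trans u3
  have u15 := ((u1.trans u2).trans u3).trans u4
  have u23 := u2
  have u24 := u2.trans u3
  have u25 := (u2.trans u3).trans u4
  have u34 := u3
  have u35 := u3.trans u4
  have u45 := u4
  clear t1 t2 t3 t4 u1 u2 u3 u4
  simp only [M, rtag, ctag, not_true_eq_false, not_false_eq_true] at t12 t13 t14 t15 t23 t24 t25
  cases r3 with
  | pad i_r3 =>
    exact (h35 (M_pad_row _ _ _)).elim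
  | rs1 i_r3 =>
    simp only [M, rtag, ctag, not_true_eq_false, not_false_eq_true] at t13 t23 t34 t35 <;> omega
  | thin j_r3 v_r3 q_r3 i_r3 =>
    simp only [M, rtag, ctag, not_true_eq_false, not_false_eq_true] at t13 t23 t34 t35 <;> omega
  | rs2 i_r3 =>
    simp only [M, rtag, ctag, not_true_eq_false, not_false_eq_true] at t13 t23 t34 t35 <;> omega
  | zs i_r3 =>
    simp only [M, rtag, ctag, not_true_eq_false, not_false_eq_true] at t13 t23 t34 t35 <;> omega
  | f j_r3 i_r3 =>
    simp only [M, rtag, ctag, not_true_eq_false, not_false_eq_true] at t13 t23 t34 t35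
    cases w1 with
    | pad i_w1 =>
      exact (h42 (M_pad_row _ _ _)).elim
    | rs1 i_w1 =>
      simp only [M, rtag, ctag, not_true_eq_false, not_false_eq_true] at t14 t24 t34 t45 <;> omega
    | thin j_w1 v_w1 q_w1 i_w1 =>
      simp only [M, rtag, ctag, not_true_eq_false, not_false_eq_true] at t14 t24 t34 t45 <;> omega
    | rs2 i_w1 =>
      simp only [M, rtag, ctag, not_true_eq_false, not_false_eq_true] at t14 t24 t34 t45 <;> omega
    | zs i_w1 =>
      simp only [M, rtag, ctag, not_true_eq_false, not_false_eq_true] at t14 t24 t34 t45 <;> omega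
    | f j_w1 i_w1 =>
      simp only [M, rtag, ctag, not_true_eq_false, not_false_eq_true] at t14 t24 t34 t45
      cases w2 with
      | pad i_w2 =>
        exact (h51 (M_pad_row _ _ _)).elim
      | rs1 i_w2 =>
        simp only [M, rtag, ctag, not_true_eq_false, not_false_eq_true] at t15 t25 t35 t45 <;> omega
      | thin j_w2 v_w2 q_w2 i_w2 =>
        simp only [M, rtag, ctag, not_true_eq_false, not_false_eq_true] at t15 t25 t35 t45 <;> omega
      | rs2 i_w2 =>
        simp only [M, rtag, ctag, not_true_eq_false, not_false_eq_true] at t15 t25 t35 t45 <;> omega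
      | zs i_w2 =>
        simp only [M, rtag, ctag, not_true_eq_false, not_false_eq_true] at t15 t25 t35 t45 <;> omega
      | f j_w2 i_w2 =>
        simp only [M, rtag, ctag, not_true_eq_false, not_false_eq_true] at t15 t25 t35 t45
        cases s1 with
        | pad i_s1 =>
          exact (h51 (M_pad_col _ _ _)).elim
        | cs1 i_s1 =>
          simp only [M, rtag, ctag, not_true_eq_false, not_false_eq_true] at h11 h21 h31 h41 h51 u12 u13 u14 u15 <;> first | (clear * - h41; omega) | omega -- ('thin', 'f', 'f', 'f', 'f')|('cs1', None, None, None, None)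
        | thin j_s1 v_s1 q_s1 i_s1 =>
          simp only [M, rtag, ctag, not_true_eq_false, not_false_eq_true] at h11 h21 h31 h41 h51 u12 u13 u14 u15
          cases y with
          | pad i_y =>
            exact (h22 (M_pad_col _ _ _)).elim
          | cs1 i_y =>
            simp only [M, rtag, ctag, not_true_eq_false, not_false_eq_true] at h12 h22 h32 h42 h52 u12 u23 u24 u25 <;> omega
          | thin j_y v_y q_y i_y =>
            simp only [M, rtag, ctag, not_true_eq_false, not_false_eq_true] at h12 h22 h32 h42 h52 u12 u23 u24 u25 <;> first | (clear * - h31 h32 h51 h52; omega) | omega -- ('thin', 'f', 'f', 'f', 'f')|('thin', 'thin', None, None, None)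
          | w c_y i_y =>
            simp only [M, rtag, ctag, not_true_eq_false, not_false_eq_true] at h12 h22 h32 h42 h52 u12 u23 u24 u25 <;> first | (clear * - h52; omega) | omega -- ('thin', 'f', 'f', 'f', 'f')|('thin', 'w', None, None, None)
          | anc i_y =>
            simp only [M, rtag, ctag, not_true_eq_false, not_false_eq_true] at h12 h22 h32 h42 h52 u12 u23 u24 u25 <;> first | (clear * - h31 h32 h51 h52; omega) | omega -- ('thin', 'f', 'f', 'f', 'f')|('thin', 'anc', None, None, None)
          | cs2 i_y =>
            simp only [M, rtag, ctag, not_true_eq_false, not_false_eq_true] at h12 h22 h32 h42 h52 u12 u23 u24 u25 <;> first | (clear * - h52; omega) | omega -- ('thin', 'f', 'f', 'f', 'f')|('thin', 'cs2', None, None, None)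
          | zs i_y =>
            simp only [M, rtag, ctag, not_true_eq_false, not_false_eq_true] at h12 h22 h32 h42 h52 u12 u23 u24 u25 <;> first | (clear * - h42; omega) | omega -- ('thin', 'f', 'f', 'f', 'f')|('thin', 'zs', None, None, None)
          | f j_y i_y =>
            simp only [M, rtag, ctag, not_true_eq_false, not_false_eq_true] at h12 h22 h32 h42 h52 u12 u23 u24 u25 <;> first | (clear * - h52; omega) | omega -- ('thin', 'f', 'f', 'f', 'f')|('thin', 'f', None, None, None)
          | g j_y c_y i_y =>
            simp only [M, rtag, ctag, not_true_eq_false, not_false_eq_true] at h12 h22 h32 h42 h52 u12 u23 u24 u25 <;> first | (clear * - h31 h32 h51 h52; omega) | omega -- ('thin', 'f', 'f', 'f', 'f')|('thin', 'g', None, None, None)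
          | k j_y c_y i_y =>
            simp only [M, rtag, ctag, not_true_eq_false, not_false_eq_true] at h12 h22 h32 h42 h52 u12 u23 u24 u25 <;> first | (clear * - h52; omega) | omega -- ('thin', 'f', 'f', 'f', 'f')|('thin', 'k', None, None, None)
        | w c_s1 i_s1 =>
          simp only [M, rtag, ctag, not_true_eq_false, not_false_eq_true] at h11 h21 h31 h41 h51 u12 u13 u14 u15 <;> first | (clear * - h41; omega) | omega -- ('thin', 'f', 'f', 'f', 'f')|('w', None, None, None, None)
        | anc i_s1 =>
          simp only [M, rtag, ctag, not_true_eq_false, not_false_eq_true] at h11 h21 h31 h41 h51 u12 u13 u14 u15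
          cases y with
          | pad i_y =>
            exact (h22 (M_pad_col _ _ _)).elim
          | cs1 i_y =>
            simp only [M, rtag, ctag, not_true_eq_false, not_false_eq_true] at h12 h22 h32 h42 h52 u12 u23 u24 u25 <;> omega
          | thin j_y v_y q_y i_y =>
            simp only [M, rtag, ctag, not_true_eq_false, not_false_eq_true] at h12 h22 h32 h42 h52 u12 u23 u24 u25 <;> omega
          | w c_y i_y =>
            simp only [M, rtag, ctag, not_true_eq_false, not_false_eq_true] at h12 h22 h32 h42 h52 u12 u23 u24 u25 <;> omega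
          | anc i_y =>
            simp only [M, rtag, ctag, not_true_eq_false, not_false_eq_true] at h12 h22 h32 h42 h52 u12 u23 u24 u25 <;> first | (clear * - h51 h52; omega) | omega -- ('thin', 'f', 'f', 'f', 'f')|('anc', 'anc', None, None, None)
          | cs2 i_y =>
            simp only [M, rtag, ctag, not_true_eq_false, not_false_eq_true] at h12 h22 h32 h42 h52 u12 u23 u24 u25 <;> first | (clear * - h52; omega) | omega -- ('thin', 'f', 'f', 'f', 'f')|('anc', 'cs2', None, None, None)
          | zs i_y =>
            simp only [M, rtag, ctag, not_true_eq_false, not_false_eq_true] at h12 h22 h32 h42 h52 u12 u23 u24 u25 <;> first | (clear * - h42; omega) | omega -- ('thin', 'f', 'f', 'f', 'f')|('anc', 'zs', None, None, None)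
          | f j_y i_y =>
            simp only [M, rtag, ctag, not_true_eq_false, not_false_eq_true] at h12 h22 h32 h42 h52 u12 u23 u24 u25 <;> first | (clear * - h52; omega) | omega -- ('thin', 'f', 'f', 'f', 'f')|('anc', 'f', None, None, None)
          | g j_y c_y i_y =>
            simp only [M, rtag, ctag, not_true_eq_false, not_false_eq_true] at h12 h22 h32 h42 h52 u12 u23 u24 u25 <;> first | (clear * - h31 h32 h51 h52; omega) | omega -- ('thin', 'f', 'f', 'f', 'f')|('anc', 'g', None, None, None)
          | k j_y c_y i_y =>
            simp only [M, rtag, ctag, not_true_eq_false, not_false_eq_true] at h12 h22 h32 h42 h52 u12 u23 u24 u25 <;> first | (clear * - h52; omega) | omega -- ('thin', 'f', 'f', 'f', 'f')|('anc', 'k', None, None, None)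
        | cs2 i_s1 =>
          simp only [M, rtag, ctag, not_true_eq_false, not_false_eq_true] at h11 h21 h31 h41 h51 u12 u13 u14 u15 <;> first | (clear * - h41; omega) | omega -- ('thin', 'f', 'f', 'f', 'f')|('cs2', None, None, None, None)
        | zs i_s1 =>
          simp only [M, rtag, ctag, not_true_eq_false, not_false_eq_true] at h11 h21 h31 h41 h51 u12 u13 u14 u15 <;> first | (clear * - h51; omega) | omega -- ('thin', 'f', 'f', 'f', 'f')|('zs', None, None, None, None)
        | f j_s1 i_s1 =>
          simp only [M, rtag, ctag, not_true_eq_false, not_false_eq_true] at h11 h21 h31 h41 h51 u12 u13 u14 u15 <;> first | (clear * - h41; omega) | omega -- ('thin', 'f', 'f', 'f', 'f')|('f', None, None, None, None)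
        | g j_s1 c_s1 i_s1 =>
          simp only [M, rtag, ctag, not_true_eq_false, not_false_eq_true] at h11 h21 h31 h41 h51 u12 u13 u14 u15
          cases y with
          | pad i_y =>
            exact (h22 (M_pad_col _ _ _)).elim
          | cs1 i_y =>
            simp only [M, rtag, ctag, not_true_eq_false, not_false_eq_true] at h12 h22 h32 h42 h52 u12 u23 u24 u25 <;> omega
          | thin j_y v_y q_y i_y =>
            simp only [M, rtag, ctag, not_true_eq_false, not_false_eq_true] at h12 h22 h32 h42 h52 u12 u23 u24 u25 <;> omega
          | w c_y i_y =>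
            simp only [M, rtag, ctag, not_true_eq_false, not_false_eq_true] at h12 h22 h32 h42 h52 u12 u23 u24 u25 <;> omega
          | anc i_y =>
            simp only [M, rtag, ctag, not_true_eq_false, not_false_eq_true] at h12 h22 h32 h42 h52 u12 u23 u24 u25 <;> omega
          | cs2 i_y =>
            simp only [M, rtag, ctag, not_true_eq_false, not_false_eq_true] at h12 h22 h32 h42 h52 u12 u23 u24 u25 <;> omega
          | zs i_y =>
            simp only [M, rtag, ctag, not_true_eq_false, not_false_eq_true] at h12 h22 h32 h42 h52 u12 u23 u24 u25 <;> omega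
          | f j_y i_y =>
            simp only [M, rtag, ctag, not_true_eq_false, not_false_eq_true] at h12 h22 h32 h42 h52 u12 u23 u24 u25 <;> omega
          | g j_y c_y i_y =>
            simp only [M, rtag, ctag, not_true_eq_false, not_false_eq_true] at h12 h22 h32 h42 h52 u12 u23 u24 u25 <;> first | (clear * - h31 h32 h51 h52; omega) | omega -- ('thin', 'f', 'f', 'f', 'f')|('g', 'g', None, None, None)
          | k j_y c_y i_y =>
            simp only [M, rtag, ctag, not_true_eq_false, not_false_eq_true] at h12 h22 h32 h42 h52 u12 u23 u24 u25 <;> first | (clear * - h52; omega) | omega -- ('thin', 'f', 'f', 'f', 'f')|('g', 'k', None, None, None)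
        | k j_s1 c_s1 i_s1 =>
          simp only [M, rtag, ctag, not_true_eq_false, not_false_eq_true] at h11 h21 h31 h41 h51 u12 u13 u14 u15 <;> first | (clear * - h41; omega) | omega -- ('thin', 'f', 'f', 'f', 'f')|('k', None, None, None, None)
      | g j_w2 c_w2 i_w2 =>
        simp only [M, rtag, ctag, not_true_eq_false, not_false_eq_true] at t15 t25 t35 t45
        cases y with
        | pad i_y =>
          exact (h22 (M_pad_col _ _ _)).elim
        | cs1 i_y =>
          simp only [M, rtag, ctag, not_true_eq_false, not_false_eq_true] at h12 h22 h32 h42 h52 u12 u23 u24 u25 <;> first | (clear * - h52; omega) | omega -- ('thin', 'f', 'f', 'f', 'g')|(None, 'cs1', None, None, None)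
        | thin j_y v_y q_y i_y =>
          simp only [M, rtag, ctag, not_true_eq_false, not_false_eq_true] at h12 h22 h32 h42 h52 u12 u23 u24 u25
          cases s1 with
          | pad i_s1 =>
            exact (h51 (M_pad_col _ _ _)).elim
          | cs1 i_s1 =>
            simp only [M, rtag, ctag, not_true_eq_false, not_false_eq_true] at h11 h21 h31 h41 h51 u12 u13 u14 u15 <;> first | (clear * - h41; omega) | omega -- ('thin', 'f', 'f', 'f', 'g')|('cs1', 'thin', None, None, None)
          | thin j_s1 v_s1 q_s1 i_s1 =>
            simp only [M, rtag, ctag, not_true_eq_false, not_false_eq_true] at h11 h21 h31 h41 h51 u12 u13 u14 u15 <;> first | (clear * - h31 h32 h41 h42; omega) | omega -- ('thin', 'f', 'f', 'f', 'g')|('thin', 'thin', None, None, None)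
          | w c_s1 i_s1 =>
            simp only [M, rtag, ctag, not_true_eq_false, not_false_eq_true] at h11 h21 h31 h41 h51 u12 u13 u14 u15 <;> omega
          | anc i_s1 =>
            simp only [M, rtag, ctag, not_true_eq_false, not_false_eq_true] at h11 h21 h31 h41 h51 u12 u13 u14 u15 <;> omega
          | cs2 i_s1 =>
            simp only [M, rtag, ctag, not_true_eq_false, not_false_eq_true] at h11 h21 h31 h41 h51 u12 u13 u14 u15 <;> omega
          | zs i_s1 =>
            simp only [M, rtag, ctag, not_true_eq_false, not_false_eq_true] at h11 h21 h31 h41 h51 u12 u13 u14 u15 <;> omega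
          | f j_s1 i_s1 =>
            simp only [M, rtag, ctag, not_true_eq_false, not_false_eq_true] at h11 h21 h31 h41 h51 u12 u13 u14 u15 <;> omega
          | g j_s1 c_s1 i_s1 =>
            simp only [M, rtag, ctag, not_true_eq_false, not_false_eq_true] at h11 h21 h31 h41 h51 u12 u13 u14 u15 <;> omega
          | k j_s1 c_s1 i_s1 =>
            simp only [M, rtag, ctag, not_true_eq_false, not_false_eq_true] at h11 h21 h31 h41 h51 u12 u13 u14 u15 <;> omega
        | w c_y i_y =>
          simp only [M, rtag, ctag, not_true_eq_false, not_false_eq_true] at h12 h22 h32 h42 h52 u12 u23 u24 u25 <;> first | (clear * - h52; omega) | omega -- ('thin', 'f', 'f', 'f', 'g')|(None, 'w', None, None, None)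
        | anc i_y =>
          simp only [M, rtag, ctag, not_true_eq_false, not_false_eq_true] at h12 h22 h32 h42 h52 u12 u23 u24 u25 <;> first | (clear * - h52; omega) | omega -- ('thin', 'f', 'f', 'f', 'g')|(None, 'anc', None, None, None)
        | cs2 i_y =>
          simp only [M, rtag, ctag, not_true_eq_false, not_false_eq_true] at h12 h22 h32 h42 h52 u12 u23 u24 u25 <;> first | (clear * - h52; omega) | omega -- ('thin', 'f', 'f', 'f', 'g')|(None, 'cs2', None, None, None)
        | zs i_y =>
          simp only [M, rtag, ctag, not_true_eq_false, not_false_eq_true] at h12 h22 h32 h42 h52 u12 u23 u24 u25 <;> first | (clear * - h52; omega) | omega -- ('thin', 'f', 'f', 'f', 'g')|(None, 'zs', None, None, None)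
        | f j_y i_y =>
          simp only [M, rtag, ctag, not_true_eq_false, not_false_eq_true] at h12 h22 h32 h42 h52 u12 u23 u24 u25 <;> first | (clear * - h32; omega) | omega -- ('thin', 'f', 'f', 'f', 'g')|(None, 'f', None, None, None)
        | g j_y c_y i_y =>
          simp only [M, rtag, ctag, not_true_eq_false, not_false_eq_true] at h12 h22 h32 h42 h52 u12 u23 u24 u25 <;> first | (clear * - h52; omega) | omega -- ('thin', 'f', 'f', 'f', 'g')|(None, 'g', None, None, None)
        | k j_y c_y i_y =>
          simp only [M, rtag, ctag, not_true_eq_false, not_false_eq_true] at h12 h22 h32 h42 h52 u12 u23 u24 u25 <;> first | (clear * - h32; omega) | omega -- ('thin', 'f', 'f', 'f', 'g')|(None, 'k', None, None, None)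
      | k j_w2 c_w2 i_w2 =>
        simp only [M, rtag, ctag, not_true_eq_false, not_false_eq_true] at t15 t25 t35 t45
        cases y with
        | pad i_y =>
          exact (h22 (M_pad_col _ _ _)).elim
        | cs1 i_y =>
          simp only [M, rtag, ctag, not_true_eq_false, not_false_eq_true] at h12 h22 h32 h42 h52 u12 u23 u24 u25 <;> first | (clear * - h52; omega) | omega -- ('thin', 'f', 'f', 'f', 'k')|(None, 'cs1', None, None, None)
        | thin j_y v_y q_y i_y =>
          simp only [M, rtag, ctag, not_true_eq_false, not_false_eq_true] at h12 h22 h32 h42 h52 u12 u23 u24 u25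
          cases s1 with
          | pad i_s1 =>
            exact (h51 (M_pad_col _ _ _)).elim
          | cs1 i_s1 =>
            simp only [M, rtag, ctag, not_true_eq_false, not_false_eq_true] at h11 h21 h31 h41 h51 u12 u13 u14 u15 <;> first | (clear * - h41; omega) | omega -- ('thin', 'f', 'f', 'f', 'k')|('cs1', 'thin', None, None, None)
          | thin j_s1 v_s1 q_s1 i_s1 =>
            simp only [M, rtag, ctag, not_true_eq_false, not_false_eq_true] at h11 h21 h31 h41 h51 u12 u13 u14 u15 <;> first | (clear * - h31 h32 h41 h42; omega) | omega -- ('thin', 'f', 'f', 'f', 'k')|('thin', 'thin', None, None, None)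
          | w c_s1 i_s1 =>
            simp only [M, rtag, ctag, not_true_eq_false, not_false_eq_true] at h11 h21 h31 h41 h51 u12 u13 u14 u15 <;> omega
          | anc i_s1 =>
            simp only [M, rtag, ctag, not_true_eq_false, not_false_eq_true] at h11 h21 h31 h41 h51 u12 u13 u14 u15 <;> omega
          | cs2 i_s1 =>
            simp only [M, rtag, ctag, not_true_eq_false, not_false_eq_true] at h11 h21 h31 h41 h51 u12 u13 u14 u15 <;> omega
          | zs i_s1 =>
            simp only [M, rtag, ctag, not_true_eq_false, not_false_eq_true] at h11 h21 h31 h41 h51 u12 u13 u14 u15 <;> omega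
          | f j_s1 i_s1 =>
            simp only [M, rtag, ctag, not_true_eq_false, not_false_eq_true] at h11 h21 h31 h41 h51 u12 u13 u14 u15 <;> omega
          | g j_s1 c_s1 i_s1 =>
            simp only [M, rtag, ctag, not_true_eq_false, not_false_eq_true] at h11 h21 h31 h41 h51 u12 u13 u14 u15 <;> omega
          | k j_s1 c_s1 i_s1 =>
            simp only [M, rtag, ctag, not_true_eq_false, not_false_eq_true] at h11 h21 h31 h41 h51 u12 u13 u14 u15 <;> omega
        | w c_y i_y =>
          simp only [M, rtag, ctag, not_true_eq_false, not_false_eq_true] at h12 h22 h32 h42 h52 u12 u23 u24 u25 <;> first | (clear * - h32; omega) | omega -- ('thin', 'f', 'f', 'f', 'k')|(None, 'w', None, None, None)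
        | anc i_y =>
          simp only [M, rtag, ctag, not_true_eq_false, not_false_eq_true] at h12 h22 h32 h42 h52 u12 u23 u24 u25 <;> first | (clear * - h52; omega) | omega -- ('thin', 'f', 'f', 'f', 'k')|(None, 'anc', None, None, None)
        | cs2 i_y =>
          simp only [M, rtag, ctag, not_true_eq_false, not_false_eq_true] at h12 h22 h32 h42 h52 u12 u23 u24 u25 <;> first | (clear * - h52; omega) | omega -- ('thin', 'f', 'f', 'f', 'k')|(None, 'cs2', None, None, None)
        | zs i_y =>
          simp only [M, rtag, ctag, not_true_eq_false, not_false_eq_true] at h12 h22 h32 h42 h52 u12 u23 u24 u25 <;> first | (clear * - h42; omega) | omega -- ('thin', 'f', 'f', 'f', 'k')|(None, 'zs', None, None, None)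
        | f j_y i_y =>
          simp only [M, rtag, ctag, not_true_eq_false, not_false_eq_true] at h12 h22 h32 h42 h52 u12 u23 u24 u25 <;> first | (clear * - h52; omega) | omega -- ('thin', 'f', 'f', 'f', 'k')|(None, 'f', None, None, None)
        | g j_y c_y i_y =>
          simp only [M, rtag, ctag, not_true_eq_false, not_false_eq_true] at h12 h22 h32 h42 h52 u12 u23 u24 u25
          cases s1 with
          | pad i_s1 =>
            exact (h51 (M_pad_col _ _ _)).elim
          | cs1 i_s1 =>
            simp only [M, rtag, ctag, not_true_eq_false, not_false_eq_true] at h11 h21 h31 h41 h51 u12 u13 u14 u15 <;> first | (clear * - h41; omega) | omega -- ('thin', 'f', 'f', 'f', 'k')|('cs1', 'g', None, None, None)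
          | thin j_s1 v_s1 q_s1 i_s1 =>
            simp only [M, rtag, ctag, not_true_eq_false, not_false_eq_true] at h11 h21 h31 h41 h51 u12 u13 u14 u15 <;> first | (clear * - h31 h32 h41 h42; omega) | omega -- ('thin', 'f', 'f', 'f', 'k')|('thin', 'g', None, None, None)
          | w c_s1 i_s1 =>
            simp only [M, rtag, ctag, not_true_eq_false, not_false_eq_true] at h11 h21 h31 h41 h51 u12 u13 u14 u15 <;> first | (clear * - h41; omega) | omega -- ('thin', 'f', 'f', 'f', 'k')|('w', 'g', None, None, None)
          | anc i_s1 =>
            simp only [M, rtag, ctag, not_true_eq_false, not_false_eq_true] at h11 h21 h31 h41 h51 u12 u13 u14 u15 <;> first | (clear * - h31 h32 h41 h42; omega) | omega -- ('thin', 'f', 'f', 'f', 'k')|('anc', 'g', None, None, None)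
          | cs2 i_s1 =>
            simp only [M, rtag, ctag, not_true_eq_false, not_false_eq_true] at h11 h21 h31 h41 h51 u12 u13 u14 u15 <;> first | (clear * - h41; omega) | omega -- ('thin', 'f', 'f', 'f', 'k')|('cs2', 'g', None, None, None)
          | zs i_s1 =>
            simp only [M, rtag, ctag, not_true_eq_false, not_false_eq_true] at h11 h21 h31 h41 h51 u12 u13 u14 u15 <;> first | (clear * - h51; omega) | omega -- ('thin', 'f', 'f', 'f', 'k')|('zs', 'g', None, None, None)
          | f j_s1 i_s1 =>
            simp only [M, rtag, ctag, not_true_eq_false, not_false_eq_true] at h11 h21 h31 h41 h51 u12 u13 u14 u15 <;> first | (clear * - h41; omega) | omega -- ('thin', 'f', 'f', 'f', 'k')|('f', 'g', None, None, None)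
          | g j_s1 c_s1 i_s1 =>
            simp only [M, rtag, ctag, not_true_eq_false, not_false_eq_true] at h11 h21 h31 h41 h51 u12 u13 u14 u15 <;> first | (clear * - h31 h32 h41 h42; omega) | omega -- ('thin', 'f', 'f', 'f', 'k')|('g', 'g', None, None, None)
          | k j_s1 c_s1 i_s1 =>
            simp only [M, rtag, ctag, not_true_eq_false, not_false_eq_true] at h11 h21 h31 h41 h51 u12 u13 u14 u15 <;> omega
        | k j_y c_y i_y =>
          simp only [M, rtag, ctag, not_true_eq_false, not_false_eq_true] at h12 h22 h32 h42 h52 u12 u23 u24 u25 <;> first | (clear * - h52; omega) | omega -- ('thin', 'f', 'f', 'f', 'k')|(None, 'k', None, None, None)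
    | g j_w1 c_w1 i_w1 =>
      simp only [M, rtag, ctag, not_true_eq_false, not_false_eq_true] at t14 t24 t34 t45
      cases s1 with
      | pad i_s1 =>
        exact (h51 (M_pad_col _ _ _)).elim
      | cs1 i_s1 =>
        simp only [M, rtag, ctag, not_true_eq_false, not_false_eq_true] at h11 h21 h31 h41 u12 u13 u14 u15 <;> first | (clear * - h41; omega) | omega -- ('thin', 'f', 'f', 'g', None)|('cs1', None, None, None, None)
      | thin j_s1 v_s1 q_s1 i_s1 =>
        simp only [M, rtag, ctag, not_true_eq_false, not_false_eq_true] at h11 h21 h31 h41 u12 u13 u14 u15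
        cases y with
        | pad i_y =>
          exact (h22 (M_pad_col _ _ _)).elim
        | cs1 i_y =>
          simp only [M, rtag, ctag, not_true_eq_false, not_false_eq_true] at h12 h22 h32 h42 u12 u23 u24 u25 <;> omega
        | thin j_y v_y q_y i_y =>
          simp only [M, rtag, ctag, not_true_eq_false, not_false_eq_true] at h12 h22 h32 h42 u12 u23 u24 u25 <;> first | (clear * - h21 h22 h31 h32; omega) | omega -- ('thin', 'f', 'f', 'g', None)|('thin', 'thin', None, None, None)
        | w c_y i_y =>
          simp only [M, rtag, ctag, not_true_eq_false, not_false_eq_true] at h12 h22 h32 h42 u12 u23 u24 u25 <;> first | (clear * - h32; omega) | omega -- ('thin', 'f', 'f', 'g', None)|('thin', 'w', None, None, None)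
        | anc i_y =>
          simp only [M, rtag, ctag, not_true_eq_false, not_false_eq_true] at h12 h22 h32 h42 u12 u23 u24 u25 <;> first | (clear * - h21 h22 h31 h32; omega) | omega -- ('thin', 'f', 'f', 'g', None)|('thin', 'anc', None, None, None)
        | cs2 i_y =>
          simp only [M, rtag, ctag, not_true_eq_false, not_false_eq_true] at h12 h22 h32 h42 u12 u23 u24 u25 <;> first | (clear * - h32; omega) | omega -- ('thin', 'f', 'f', 'g', None)|('thin', 'cs2', None, None, None)
        | zs i_y =>
          simp only [M, rtag, ctag, not_true_eq_false, not_false_eq_true] at h12 h22 h32 h42 u12 u23 u24 u25 <;> first | (clear * - h22; omega) | omega -- ('thin', 'f', 'f', 'g', None)|('thin', 'zs', None, None, None)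
        | f j_y i_y =>
          simp only [M, rtag, ctag, not_true_eq_false, not_false_eq_true] at h12 h22 h32 h42 u12 u23 u24 u25 <;> first | (clear * - h32; omega) | omega -- ('thin', 'f', 'f', 'g', None)|('thin', 'f', None, None, None)
        | g j_y c_y i_y =>
          simp only [M, rtag, ctag, not_true_eq_false, not_false_eq_true] at h12 h22 h32 h42 u12 u23 u24 u25 <;> first | (clear * - h21 h22 h31 h32; omega) | omega -- ('thin', 'f', 'f', 'g', None)|('thin', 'g', None, None, None)
        | k j_y c_y i_y =>
          simp only [M, rtag, ctag, not_true_eq_false, not_false_eq_true] at h12 h22 h32 h42 u12 u23 u24 u25 <;> first | (clear * - h32; omega) | omega -- ('thin', 'f', 'f', 'g', None)|('thin', 'k', None, None, None)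
      | w c_s1 i_s1 =>
        simp only [M, rtag, ctag, not_true_eq_false, not_false_eq_true] at h11 h21 h31 h41 u12 u13 u14 u15 <;> first | (clear * - h41; omega) | omega -- ('thin', 'f', 'f', 'g', None)|('w', None, None, None, None)
      | anc i_s1 =>
        simp only [M, rtag, ctag, not_true_eq_false, not_false_eq_true] at h11 h21 h31 h41 u12 u13 u14 u15 <;> first | (clear * - h41; omega) | omega -- ('thin', 'f', 'f', 'g', None)|('anc', None, None, None, None)
      | cs2 i_s1 =>
        simp only [M, rtag, ctag, not_true_eq_false, not_false_eq_true] at h11 h21 h31 h41 u12 u13 u14 u15 <;> first | (clear * - h41; omega) | omega -- ('thin', 'f', 'f', 'g', None)|('cs2', None, None, None, None)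
      | zs i_s1 =>
        simp only [M, rtag, ctag, not_true_eq_false, not_false_eq_true] at h11 h21 h31 h41 u12 u13 u14 u15 <;> first | (clear * - h41; omega) | omega -- ('thin', 'f', 'f', 'g', None)|('zs', None, None, None, None)
      | f j_s1 i_s1 =>
        simp only [M, rtag, ctag, not_true_eq_false, not_false_eq_true] at h11 h21 h31 h41 u12 u13 u14 u15 <;> first | (clear * - h31; omega) | omega -- ('thin', 'f', 'f', 'g', None)|('f', None, None, None, None)
      | g j_s1 c_s1 i_s1 =>
        simp only [M, rtag, ctag, not_true_eq_false, not_false_eq_true] at h11 h21 h31 h41 u12 u13 u14 u15 <;> first | (clear * - h41; omega) | omega -- ('thin', 'f', 'f', 'g', None)|('g', None, None, None, None)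
      | k j_s1 c_s1 i_s1 =>
        simp only [M, rtag, ctag, not_true_eq_false, not_false_eq_true] at h11 h21 h31 h41 u12 u13 u14 u15 <;> first | (clear * - h31; omega) | omega -- ('thin', 'f', 'f', 'g', None)|('k', None, None, None, None)
    | k j_w1 c_w1 i_w1 =>
      simp only [M, rtag, ctag, not_true_eq_false, not_false_eq_true] at t14 t24 t34 t45
      cases w2 with
      | pad i_w2 =>
        exact (h51 (M_pad_row _ _ _)).elim
      | rs1 i_w2 =>
        simp only [M, rtag, ctag, not_true_eq_false, not_false_eq_true] at t15 t25 t35 t45 <;> omega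
      | thin j_w2 v_w2 q_w2 i_w2 =>
        simp only [M, rtag, ctag, not_true_eq_false, not_false_eq_true] at t15 t25 t35 t45 <;> omega
      | rs2 i_w2 =>
        simp only [M, rtag, ctag, not_true_eq_false, not_false_eq_true] at t15 t25 t35 t45 <;> omega
      | zs i_w2 =>
        simp only [M, rtag, ctag, not_true_eq_false, not_false_eq_true] at t15 t25 t35 t45 <;> omega
      | f j_w2 i_w2 =>
        simp only [M, rtag, ctag, not_true_eq_false, not_false_eq_true] at t15 t25 t35 t45 <;> omega
      | g j_w2 c_w2 i_w2 =>
        simp only [M, rtag, ctag, not_true_eq_false, not_false_eq_true] at t15 t25 t35 t45 <;> omega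
      | k j_w2 c_w2 i_w2 =>
        simp only [M, rtag, ctag, not_true_eq_false, not_false_eq_true] at t15 t25 t35 t45
        cases s1 with
        | pad i_s1 =>
          exact (h51 (M_pad_col _ _ _)).elim
        | cs1 i_s1 =>
          simp only [M, rtag, ctag, not_true_eq_false, not_false_eq_true] at h11 h21 h31 h41 h51 u12 u13 u14 u15 <;> first | (clear * - h41; omega) | omega -- ('thin', 'f', 'f', 'k', 'k')|('cs1', None, None, None, None)
        | thin j_s1 v_s1 q_s1 i_s1 =>
          simp only [M, rtag, ctag, not_true_eq_false, not_false_eq_true] at h11 h21 h31 h41 h51 u12 u13 u14 u15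
          cases y with
          | pad i_y =>
            exact (h22 (M_pad_col _ _ _)).elim
          | cs1 i_y =>
            simp only [M, rtag, ctag, not_true_eq_false, not_false_eq_true] at h12 h22 h32 h42 h52 u12 u23 u24 u25 <;> omega
          | thin j_y v_y q_y i_y =>
            simp only [M, rtag, ctag, not_true_eq_false, not_false_eq_true] at h12 h22 h32 h42 h52 u12 u23 u24 u25 <;> first | (clear * - h21 h22 h31 h32; omega) | omega -- ('thin', 'f', 'f', 'k', 'k')|('thin', 'thin', None, None, None)
          | w c_y i_y =>
            simp only [M, rtag, ctag, not_true_eq_false, not_false_eq_true] at h12 h22 h32 h42 h52 u12 u23 u24 u25 <;> first | (clear * - h32; omega) | omega -- ('thin', 'f', 'f', 'k', 'k')|('thin', 'w', None, None, None)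
          | anc i_y =>
            simp only [M, rtag, ctag, not_true_eq_false, not_false_eq_true] at h12 h22 h32 h42 h52 u12 u23 u24 u25 <;> first | (clear * - h52; omega) | omega -- ('thin', 'f', 'f', 'k', 'k')|('thin', 'anc', None, None, None)
          | cs2 i_y =>
            simp only [M, rtag, ctag, not_true_eq_false, not_false_eq_true] at h12 h22 h32 h42 h52 u12 u23 u24 u25 <;> first | (clear * - h52; omega) | omega -- ('thin', 'f', 'f', 'k', 'k')|('thin', 'cs2', None, None, None)
          | zs i_y =>
            simp only [M, rtag, ctag, not_true_eq_false, not_false_eq_true] at h12 h22 h32 h42 h52 u12 u23 u24 u25 <;> first | (clear * - h42; omega) | omega -- ('thin', 'f', 'f', 'k', 'k')|('thin', 'zs', None, None, None)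
          | f j_y i_y =>
            simp only [M, rtag, ctag, not_true_eq_false, not_false_eq_true] at h12 h22 h32 h42 h52 u12 u23 u24 u25 <;> first | (clear * - h52; omega) | omega -- ('thin', 'f', 'f', 'k', 'k')|('thin', 'f', None, None, None)
          | g j_y c_y i_y =>
            simp only [M, rtag, ctag, not_true_eq_false, not_false_eq_true] at h12 h22 h32 h42 h52 u12 u23 u24 u25 <;> first | (clear * - h21 h22 h31 h32; omega) | omega -- ('thin', 'f', 'f', 'k', 'k')|('thin', 'g', None, None, None)
          | k j_y c_y i_y =>
            simp only [M, rtag, ctag, not_true_eq_false, not_false_eq_true] at h12 h22 h32 h42 h52 u12 u23 u24 u25 <;> first | (clear * - h52; omega) | omega -- ('thin', 'f', 'f', 'k', 'k')|('thin', 'k', None, None, None)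
        | w c_s1 i_s1 =>
          simp only [M, rtag, ctag, not_true_eq_false, not_false_eq_true] at h11 h21 h31 h41 h51 u12 u13 u14 u15 <;> first | (clear * - h31; omega) | omega -- ('thin', 'f', 'f', 'k', 'k')|('w', None, None, None, None)
        | anc i_s1 =>
          simp only [M, rtag, ctag, not_true_eq_false, not_false_eq_true] at h11 h21 h31 h41 h51 u12 u13 u14 u15 <;> first | (clear * - h41; omega) | omega -- ('thin', 'f', 'f', 'k', 'k')|('anc', None, None, None, None)
        | cs2 i_s1 =>
          simp only [M, rtag, ctag, not_true_eq_false, not_false_eq_true] at h11 h21 h31 h41 h51 u12 u13 u14 u15 <;> first | (clear * - h41; omega) | omega -- ('thin', 'f', 'f', 'k', 'k')|('cs2', None, None, None, None)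
        | zs i_s1 =>
          simp only [M, rtag, ctag, not_true_eq_false, not_false_eq_true] at h11 h21 h31 h41 h51 u12 u13 u14 u15 <;> first | (clear * - h51; omega) | omega -- ('thin', 'f', 'f', 'k', 'k')|('zs', None, None, None, None)
        | f j_s1 i_s1 =>
          simp only [M, rtag, ctag, not_true_eq_false, not_false_eq_true] at h11 h21 h31 h41 h51 u12 u13 u14 u15 <;> first | (clear * - h41; omega) | omega -- ('thin', 'f', 'f', 'k', 'k')|('f', None, None, None, None)
        | g j_s1 c_s1 i_s1 =>
          simp only [M, rtag, ctag, not_true_eq_false, not_false_eq_true] at h11 h21 h31 h41 h51 u12 u13 u14 u15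
          cases y with
          | pad i_y =>
            exact (h22 (M_pad_col _ _ _)).elim
          | cs1 i_y =>
            simp only [M, rtag, ctag, not_true_eq_false, not_false_eq_true] at h12 h22 h32 h42 h52 u12 u23 u24 u25 <;> omega
          | thin j_y v_y q_y i_y =>
            simp only [M, rtag, ctag, not_true_eq_false, not_false_eq_true] at h12 h22 h32 h42 h52 u12 u23 u24 u25 <;> omega
          | w c_y i_y =>
            simp only [M, rtag, ctag, not_true_eq_false, not_false_eq_true] at h12 h22 h32 h42 h52 u12 u23 u24 u25 <;> omega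
          | anc i_y =>
            simp only [M, rtag, ctag, not_true_eq_false, not_false_eq_true] at h12 h22 h32 h42 h52 u12 u23 u24 u25 <;> omega
          | cs2 i_y =>
            simp only [M, rtag, ctag, not_true_eq_false, not_false_eq_true] at h12 h22 h32 h42 h52 u12 u23 u24 u25 <;> omega
          | zs i_y =>
            simp only [M, rtag, ctag, not_true_eq_false, not_false_eq_true] at h12 h22 h32 h42 h52 u12 u23 u24 u25 <;> omega
          | f j_y i_y =>
            simp only [M, rtag, ctag, not_true_eq_false, not_false_eq_true] at h12 h22 h32 h42 h52 u12 u23 u24 u25 <;> omega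
          | g j_y c_y i_y =>
            simp only [M, rtag, ctag, not_true_eq_false, not_false_eq_true] at h12 h22 h32 h42 h52 u12 u23 u24 u25 <;> first | (clear * - h21 h22 h31 h32; omega) | omega -- ('thin', 'f', 'f', 'k', 'k')|('g', 'g', None, None, None)
          | k j_y c_y i_y =>
            simp only [M, rtag, ctag, not_true_eq_false, not_false_eq_true] at h12 h22 h32 h42 h52 u12 u23 u24 u25 <;> first | (clear * - h52; omega) | omega -- ('thin', 'f', 'f', 'k', 'k')|('g', 'k', None, None, None)
        | k j_s1 c_s1 i_s1 =>
          simp only [M, rtag, ctag, not_true_eq_false, not_false_eq_true] at h11 h21 h31 h41 h51 u12 u13 u14 u15 <;> first | (clear * - h41; omega) | omega -- ('thin', 'f', 'f', 'k', 'k')|('k', None, None, None, None)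
  | g j_r3 c_r3 i_r3 =>
    simp only [M, rtag, ctag, not_true_eq_false, not_false_eq_true] at t13 t23 t34 t35
    cases s1 with
    | pad i_s1 =>
      exact (h51 (M_pad_col _ _ _)).elim
    | cs1 i_s1 =>
      simp only [M, rtag, ctag, not_true_eq_false, not_false_eq_true] at h11 h21 h31 u12 u13 u14 u15 <;> first | (clear * - h31; omega) | omega -- ('thin', 'f', 'g', None, None)|('cs1', None, None, None, None)
    | thin j_s1 v_s1 q_s1 i_s1 =>
      simp only [M, rtag, ctag, not_true_eq_false, not_false_eq_true] at h11 h21 h31 u12 u13 u14 u15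
      cases s3 with
      | pad i_s3 =>
        exact (h53 (M_pad_col _ _ _)).elim
      | cs1 i_s3 =>
        simp only [M, rtag, ctag, not_true_eq_false, not_false_eq_true] at h13 h23 h33 u13 u23 u34 u35 <;> omega
      | thin j_s3 v_s3 q_s3 i_s3 =>
        simp only [M, rtag, ctag, not_true_eq_false, not_false_eq_true] at h13 h23 h33 u13 u23 u34 u35
        cases y with
        | pad i_y =>
          exact (h22 (M_pad_col _ _ _)).elim
        | cs1 i_y =>
          simp only [M, rtag, ctag, not_true_eq_false, not_false_eq_true] at h12 h22 h32 u12 u23 u24 u25 <;> omega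
        | thin j_y v_y q_y i_y =>
          simp only [M, rtag, ctag, not_true_eq_false, not_false_eq_true] at h12 h22 h32 u12 u23 u24 u25 <;> first | (clear * - h22 h23 h32 h33; omega) | omega -- ('thin', 'f', 'g', None, None)|('thin', 'thin', 'thin', None, None)
        | w c_y i_y =>
          simp only [M, rtag, ctag, not_true_eq_false, not_false_eq_true] at h12 h22 h32 u12 u23 u24 u25 <;> omega
        | anc i_y =>
          simp only [M, rtag, ctag, not_true_eq_false, not_false_eq_true] at h12 h22 h32 u12 u23 u24 u25 <;> omega
        | cs2 i_y =>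
          simp only [M, rtag, ctag, not_true_eq_false, not_false_eq_true] at h12 h22 h32 u12 u23 u24 u25 <;> omega
        | zs i_y =>
          simp only [M, rtag, ctag, not_true_eq_false, not_false_eq_true] at h12 h22 h32 u12 u23 u24 u25 <;> omega
        | f j_y i_y =>
          simp only [M, rtag, ctag, not_true_eq_false, not_false_eq_true] at h12 h22 h32 u12 u23 u24 u25 <;> omega
        | g j_y c_y i_y =>
          simp only [M, rtag, ctag, not_true_eq_false, not_false_eq_true] at h12 h22 h32 u12 u23 u24 u25 <;> omega
        | k j_y c_y i_y =>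
          simp only [M, rtag, ctag, not_true_eq_false, not_false_eq_true] at h12 h22 h32 u12 u23 u24 u25 <;> omega
      | w c_s3 i_s3 =>
        simp only [M, rtag, ctag, not_true_eq_false, not_false_eq_true] at h13 h23 h33 u13 u23 u34 u35 <;> first | (clear * - h33; omega) | omega -- ('thin', 'f', 'g', None, None)|('thin', None, 'w', None, None)
      | anc i_s3 =>
        simp only [M, rtag, ctag, not_true_eq_false, not_false_eq_true] at h13 h23 h33 u13 u23 u34 u35 <;> first | (clear * - h33; omega) | omega -- ('thin', 'f', 'g', None, None)|('thin', None, 'anc', None, None)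
      | cs2 i_s3 =>
        simp only [M, rtag, ctag, not_true_eq_false, not_false_eq_true] at h13 h23 h33 u13 u23 u34 u35 <;> first | (clear * - h33; omega) | omega -- ('thin', 'f', 'g', None, None)|('thin', None, 'cs2', None, None)
      | zs i_s3 =>
        simp only [M, rtag, ctag, not_true_eq_false, not_false_eq_true] at h13 h23 h33 u13 u23 u34 u35 <;> first | (clear * - h33; omega) | omega -- ('thin', 'f', 'g', None, None)|('thin', None, 'zs', None, None)
      | f j_s3 i_s3 =>
        simp only [M, rtag, ctag, not_true_eq_false, not_false_eq_true] at h13 h23 h33 u13 u23 u34 u35 <;> first | (clear * - h23; omega) | omega -- ('thin', 'f', 'g', None, None)|('thin', None, 'f', None, None)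
      | g j_s3 c_s3 i_s3 =>
        simp only [M, rtag, ctag, not_true_eq_false, not_false_eq_true] at h13 h23 h33 u13 u23 u34 u35 <;> first | (clear * - h33; omega) | omega -- ('thin', 'f', 'g', None, None)|('thin', None, 'g', None, None)
      | k j_s3 c_s3 i_s3 =>
        simp only [M, rtag, ctag, not_true_eq_false, not_false_eq_true] at h13 h23 h33 u13 u23 u34 u35 <;> first | (clear * - h23; omega) | omega -- ('thin', 'f', 'g', None, None)|('thin', None, 'k', None, None)
    | w c_s1 i_s1 =>
      simp only [M, rtag, ctag, not_true_eq_false, not_false_eq_true] at h11 h21 h31 u12 u13 u14 u15 <;> first | (clear * - h31; omega) | omega -- ('thin', 'f', 'g', None, None)|('w', None, None, None, None)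
    | anc i_s1 =>
      simp only [M, rtag, ctag, not_true_eq_false, not_false_eq_true] at h11 h21 h31 u12 u13 u14 u15 <;> first | (clear * - h31; omega) | omega -- ('thin', 'f', 'g', None, None)|('anc', None, None, None, None)
    | cs2 i_s1 =>
      simp only [M, rtag, ctag, not_true_eq_false, not_false_eq_true] at h11 h21 h31 u12 u13 u14 u15 <;> first | (clear * - h31; omega) | omega -- ('thin', 'f', 'g', None, None)|('cs2', None, None, None, None)
    | zs i_s1 =>
      simp only [M, rtag, ctag, not_true_eq_false, not_false_eq_true] at h11 h21 h31 u12 u13 u14 u15 <;> first | (clear * - h31; omega) | omega -- ('thin', 'f', 'g', None, None)|('zs', None, None, None, None)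
    | f j_s1 i_s1 =>
      simp only [M, rtag, ctag, not_true_eq_false, not_false_eq_true] at h11 h21 h31 u12 u13 u14 u15 <;> first | (clear * - h21; omega) | omega -- ('thin', 'f', 'g', None, None)|('f', None, None, None, None)
    | g j_s1 c_s1 i_s1 =>
      simp only [M, rtag, ctag, not_true_eq_false, not_false_eq_true] at h11 h21 h31 u12 u13 u14 u15 <;> first | (clear * - h31; omega) | omega -- ('thin', 'f', 'g', None, None)|('g', None, None, None, None)
    | k j_s1 c_s1 i_s1 =>
      simp only [M, rtag, ctag, not_true_eq_false, not_false_eq_true] at h11 h21 h31 u12 u13 u14 u15 <;> first | (clear * - h21; omega) | omega -- ('thin', 'f', 'g', None, None)|('k', None, None, None, None)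
  | k j_r3 c_r3 i_r3 =>
    simp only [M, rtag, ctag, not_true_eq_false, not_false_eq_true] at t13 t23 t34 t35
    cases w1 with
    | pad i_w1 =>
      exact (h42 (M_pad_row _ _ _)).elim
    | rs1 i_w1 =>
      simp only [M, rtag, ctag, not_true_eq_false, not_false_eq_true] at t14 t24 t34 t45 <;> omega
    | thin j_w1 v_w1 q_w1 i_w1 =>
      simp only [M, rtag, ctag, not_true_eq_false, not_false_eq_true] at t14 t24 t34 t45 <;> omega
    | rs2 i_w1 =>
      simp only [M, rtag, ctag, not_true_eq_false, not_false_eq_true] at t14 t24 t34 t45 <;> omega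
    | zs i_w1 =>
      simp only [M, rtag, ctag, not_true_eq_false, not_false_eq_true] at t14 t24 t34 t45 <;> omega
    | f j_w1 i_w1 =>
      simp only [M, rtag, ctag, not_true_eq_false, not_false_eq_true] at t14 t24 t34 t45 <;> omega
    | g j_w1 c_w1 i_w1 =>
      simp only [M, rtag, ctag, not_true_eq_false, not_false_eq_true] at t14 t24 t34 t45 <;> omega
    | k j_w1 c_w1 i_w1 =>
      simp only [M, rtag, ctag, not_true_eq_false, not_false_eq_true] at t14 t24 t34 t45
      cases w2 with
      | pad i_w2 =>
        exact (h51 (M_pad_row _ _ _)).elim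
      | rs1 i_w2 =>
        simp only [M, rtag, ctag, not_true_eq_false, not_false_eq_true] at t15 t25 t35 t45 <;> omega
      | thin j_w2 v_w2 q_w2 i_w2 =>
        simp only [M, rtag, ctag, not_true_eq_false, not_false_eq_true] at t15 t25 t35 t45 <;> omega
      | rs2 i_w2 =>
        simp only [M, rtag, ctag, not_true_eq_false, not_false_eq_true] at t15 t25 t35 t45 <;> omega
      | zs i_w2 =>
        simp only [M, rtag, ctag, not_true_eq_false, not_false_eq_true] at t15 t25 t35 t45 <;> omega
      | f j_w2 i_w2 =>
        simp only [M, rtag, ctag, not_true_eq_false, not_false_eq_true] at t15 t25 t35 t45 <;> omega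
      | g j_w2 c_w2 i_w2 =>
        simp only [M, rtag, ctag, not_true_eq_false, not_false_eq_true] at t15 t25 t35 t45 <;> omega
      | k j_w2 c_w2 i_w2 =>
        simp only [M, rtag, ctag, not_true_eq_false, not_false_eq_true] at t15 t25 t35 t45
        cases s1 with
        | pad i_s1 =>
          exact (h51 (M_pad_col _ _ _)).elim
        | cs1 i_s1 =>
          simp only [M, rtag, ctag, not_true_eq_false, not_false_eq_true] at h11 h21 h31 h41 h51 u12 u13 u14 u15 <;> first | (clear * - h41; omega) | omega -- ('thin', 'f', 'k', 'k', 'k')|('cs1', None, None, None, None)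
        | thin j_s1 v_s1 q_s1 i_s1 =>
          simp only [M, rtag, ctag, not_true_eq_false, not_false_eq_true] at h11 h21 h31 h41 h51 u12 u13 u14 u15
          cases y with
          | pad i_y =>
            exact (h22 (M_pad_col _ _ _)).elim
          | cs1 i_y =>
            simp only [M, rtag, ctag, not_true_eq_false, not_false_eq_true] at h12 h22 h32 h42 h52 u12 u23 u24 u25 <;> omega
          | thin j_y v_y q_y i_y =>
            simp only [M, rtag, ctag, not_true_eq_false, not_false_eq_true] at h12 h22 h32 h42 h52 u12 u23 u24 u25 <;> first | (clear * - h31 h32 h51 h52; omega) | omega -- ('thin', 'f', 'k', 'k', 'k')|('thin', 'thin', None, None, None)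
          | w c_y i_y =>
            simp only [M, rtag, ctag, not_true_eq_false, not_false_eq_true] at h12 h22 h32 h42 h52 u12 u23 u24 u25 <;> first | (clear * - h31 h32; omega) | omega -- ('thin', 'f', 'k', 'k', 'k')|('thin', 'w', None, None, None)
          | anc i_y =>
            simp only [M, rtag, ctag, not_true_eq_false, not_false_eq_true] at h12 h22 h32 h42 h52 u12 u23 u24 u25 <;> first | (clear * - h52; omega) | omega -- ('thin', 'f', 'k', 'k', 'k')|('thin', 'anc', None, None, None)
          | cs2 i_y =>
            simp only [M, rtag, ctag, not_true_eq_false, not_false_eq_true] at h12 h22 h32 h42 h52 u12 u23 u24 u25 <;> first | (clear * - h52; omega) | omega -- ('thin', 'f', 'k', 'k', 'k')|('thin', 'cs2', None, None, None)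
          | zs i_y =>
            simp only [M, rtag, ctag, not_true_eq_false, not_false_eq_true] at h12 h22 h32 h42 h52 u12 u23 u24 u25 <;> first | (clear * - h42; omega) | omega -- ('thin', 'f', 'k', 'k', 'k')|('thin', 'zs', None, None, None)
          | f j_y i_y =>
            simp only [M, rtag, ctag, not_true_eq_false, not_false_eq_true] at h12 h22 h32 h42 h52 u12 u23 u24 u25 <;> first | (clear * - h52; omega) | omega -- ('thin', 'f', 'k', 'k', 'k')|('thin', 'f', None, None, None)
          | g j_y c_y i_y =>
            simp only [M, rtag, ctag, not_true_eq_false, not_false_eq_true] at h12 h22 h32 h42 h52 u12 u23 u24 u25 <;> first | (clear * - h31 h32 h51 h52; omega) | omega -- ('thin', 'f', 'k', 'k', 'k')|('thin', 'g', None, None, None)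
          | k j_y c_y i_y =>
            simp only [M, rtag, ctag, not_true_eq_false, not_false_eq_true] at h12 h22 h32 h42 h52 u12 u23 u24 u25 <;> first | (clear * - h52; omega) | omega -- ('thin', 'f', 'k', 'k', 'k')|('thin', 'k', None, None, None)
        | w c_s1 i_s1 =>
          simp only [M, rtag, ctag, not_true_eq_false, not_false_eq_true] at h11 h21 h31 h41 h51 u12 u13 u14 u15 <;> first | (clear * - h21; omega) | omega -- ('thin', 'f', 'k', 'k', 'k')|('w', None, None, None, None)
        | anc i_s1 =>
          simp only [M, rtag, ctag, not_true_eq_false, not_false_eq_true] at h11 h21 h31 h41 h51 u12 u13 u14 u15 <;> first | (clear * - h41; omega) | omega -- ('thin', 'f', 'k', 'k', 'k')|('anc', None, None, None, None)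
        | cs2 i_s1 =>
          simp only [M, rtag, ctag, not_true_eq_false, not_false_eq_true] at h11 h21 h31 h41 h51 u12 u13 u14 u15 <;> first | (clear * - h41; omega) | omega -- ('thin', 'f', 'k', 'k', 'k')|('cs2', None, None, None, None)
        | zs i_s1 =>
          simp only [M, rtag, ctag, not_true_eq_false, not_false_eq_true] at h11 h21 h31 h41 h51 u12 u13 u14 u15 <;> first | (clear * - h51; omega) | omega -- ('thin', 'f', 'k', 'k', 'k')|('zs', None, None, None, None)
        | f j_s1 i_s1 =>
          simp only [M, rtag, ctag, not_true_eq_false, not_false_eq_true] at h11 h21 h31 h41 h51 u12 u13 u14 u15 <;> first | (clear * - h41; omega) | omega -- ('thin', 'f', 'k', 'k', 'k')|('f', None, None, None, None)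
        | g j_s1 c_s1 i_s1 =>
          simp only [M, rtag, ctag, not_true_eq_false, not_false_eq_true] at h11 h21 h31 h41 h51 u12 u13 u14 u15
          cases y with
          | pad i_y =>
            exact (h22 (M_pad_col _ _ _)).elim
          | cs1 i_y =>
            simp only [M, rtag, ctag, not_true_eq_false, not_false_eq_true] at h12 h22 h32 h42 h52 u12 u23 u24 u25 <;> omega
          | thin j_y v_y q_y i_y =>
            simp only [M, rtag, ctag, not_true_eq_false, not_false_eq_true] at h12 h22 h32 h42 h52 u12 u23 u24 u25 <;> omega
          | w c_y i_y =>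
            simp only [M, rtag, ctag, not_true_eq_false, not_false_eq_true] at h12 h22 h32 h42 h52 u12 u23 u24 u25 <;> omega
          | anc i_y =>
            simp only [M, rtag, ctag, not_true_eq_false, not_false_eq_true] at h12 h22 h32 h42 h52 u12 u23 u24 u25 <;> omega
          | cs2 i_y =>
            simp only [M, rtag, ctag, not_true_eq_false, not_false_eq_true] at h12 h22 h32 h42 h52 u12 u23 u24 u25 <;> omega
          | zs i_y =>
            simp only [M, rtag, ctag, not_true_eq_false, not_false_eq_true] at h12 h22 h32 h42 h52 u12 u23 u24 u25 <;> omega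
          | f j_y i_y =>
            simp only [M, rtag, ctag, not_true_eq_false, not_false_eq_true] at h12 h22 h32 h42 h52 u12 u23 u24 u25 <;> omega
          | g j_y c_y i_y =>
            simp only [M, rtag, ctag, not_true_eq_false, not_false_eq_true] at h12 h22 h32 h42 h52 u12 u23 u24 u25 <;> first | (clear * - h31 h32 h51 h52; omega) | omega -- ('thin', 'f', 'k', 'k', 'k')|('g', 'g', None, None, None)
          | k j_y c_y i_y =>
            simp only [M, rtag, ctag, not_true_eq_false, not_false_eq_true] at h12 h22 h32 h42 h52 u12 u23 u24 u25 <;> first | (clear * - h52; omega) | omega -- ('thin', 'f', 'k', 'k', 'k')|('g', 'k', None, None, None)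
        | k j_s1 c_s1 i_s1 =>
          simp only [M, rtag, ctag, not_true_eq_false, not_false_eq_true] at h11 h21 h31 h41 h51 u12 u13 u14 u15 <;> first | (clear * - h41; omega) | omega -- ('thin', 'f', 'k', 'k', 'k')|('k', None, None, None, None)

theorem cls_thin_zs_n_n_n__n_n_n_n_n (J : ℕ) (j_r1 : ℕ) (v_r1 : ℕ) (q_r1 : Bool) (i_r1 : ℕ) (i_x : ℕ) (r3 : Rw) (w1 : Rw) (w2 : Rw) (s1 : Cl) (y : Cl) (s3 : Cl) (z1 : Cl) (z2 : Cl)
    (t1 : rtag (.thin j_r1 v_r1 q_r1 i_r1) ≤ rtag (.zs i_x)) (t2 : rtag (.zs i_x) ≤ rtag r3) (t3 : rtag r3 ≤ rtag w1) (t4 : rtag w1 ≤ rtag w2)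
    (u1 : ctag s1 ≤ ctag y) (u2 : ctag y ≤ ctag s3) (u3 : ctag s3 ≤ ctag z1) (u4 : ctag z1 ≤ ctag z2)
    (h : CoreCopy J (.thin j_r1 v_r1 q_r1 i_r1) (.zs i_x) r3 w1 w2 s1 y s3 z1 z2) : IsA (.thin j_r1 v_r1 q_r1 i_r1) (.zs i_x) r3 y ∨ IsB J (.zs i_x) s1 s3 y := by
  obtain ⟨h11,h12,h13,h14,h15,h21,h22,h23,h24,h25,h31,h32,h33,h34,h35,h41,h42,h43,h44,h45,h51,h52,h53,h54,h55⟩ := h
  have t12 := t1
  have t13 := t1.trans t2
  have t14 := (t1.trans t2).trans t3
  have t15 := ((t1.trans t2).trans t3).trans t4
  have t23 := t2
  have t24 := t2.trans t3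
  have t25 := (t2.trans t3).trans t4
  have t34 := t3
  have t35 := t3.trans t4
  have t45 := t4
  have u12 := u1
  have u13 := u1.trans u2
  have u14 := (u1.trans u2).trans u3
  have u15 := ((u1.trans u2).trans u3).trans u4
  have u23 := u2
  have u24 := u2.trans u3
  have u25 := (u2.trans u3).trans u4
  have u34 := u3
  have u35 := u3.trans u4
  have u45 := u4
  clear t1 t2 t3 t4 u1 u2 u3 u4
  simp only [M, rtag, ctag, not_true_eq_false, not_false_eq_true] at t12 t13 t14 t15 t23 t24 t25
  cases z2 with
  | pad i_z2 =>
    exact (h15 (M_pad_col _ _ _)).elim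
  | cs1 i_z2 =>
    simp only [M, rtag, ctag, not_true_eq_false, not_false_eq_true] at h15 h25 u15 u25 u35 u45 <;> first | (clear * - h15; omega) | omega -- ('thin', 'zs', None, None, None)|(None, None, None, None, 'cs1')
  | thin j_z2 v_z2 q_z2 i_z2 =>
    simp only [M, rtag, ctag, not_true_eq_false, not_false_eq_true] at h15 h25 u15 u25 u35 u45 <;> first | (clear * - h25; omega) | omega -- ('thin', 'zs', None, None, None)|(None, None, None, None, 'thin')
  | w c_z2 i_z2 =>
    simp only [M, rtag, ctag, not_true_eq_false, not_false_eq_true] at h15 h25 u15 u25 u35 u45 <;> first | (clear * - h25; omega) | omega -- ('thin', 'zs', None, None, None)|(None, None, None, None, 'w')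
  | anc i_z2 =>
    simp only [M, rtag, ctag, not_true_eq_false, not_false_eq_true] at h15 h25 u15 u25 u35 u45 <;> first | (clear * - h25; omega) | omega -- ('thin', 'zs', None, None, None)|(None, None, None, None, 'anc')
  | cs2 i_z2 =>
    simp only [M, rtag, ctag, not_true_eq_false, not_false_eq_true] at h15 h25 u15 u25 u35 u45 <;> first | (clear * - h15; omega) | omega -- ('thin', 'zs', None, None, None)|(None, None, None, None, 'cs2')
  | zs i_z2 =>
    simp only [M, rtag, ctag, not_true_eq_false, not_false_eq_true] at h15 h25 u15 u25 u35 u45 <;> first | (clear * - h25; omega) | omega -- ('thin', 'zs', None, None, None)|(None, None, None, None, 'zs')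
  | f j_z2 i_z2 =>
    simp only [M, rtag, ctag, not_true_eq_false, not_false_eq_true] at h15 h25 u15 u25 u35 u45
    cases w1 with
    | pad i_w1 =>
      exact (h42 (M_pad_row _ _ _)).elim
    | rs1 i_w1 =>
      simp only [M, rtag, ctag, not_true_eq_false, not_false_eq_true] at h45 t14 t24 t34 t45 <;> omega
    | thin j_w1 v_w1 q_w1 i_w1 =>
      simp only [M, rtag, ctag, not_true_eq_false, not_false_eq_true] at h45 t14 t24 t34 t45 <;> omega
    | rs2 i_w1 =>
      simp only [M, rtag, ctag, not_true_eq_false, not_false_eq_true] at h45 t14 t24 t34 t45 <;> omega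
    | zs i_w1 =>
      simp only [M, rtag, ctag, not_true_eq_false, not_false_eq_true] at h45 t14 t24 t34 t45
      cases r3 with
      | pad i_r3 =>
        exact (h35 (M_pad_row _ _ _)).elim
      | rs1 i_r3 =>
        simp only [M, rtag, ctag, not_true_eq_false, not_false_eq_true] at h35 t13 t23 t34 t35 <;> omega
      | thin j_r3 v_r3 q_r3 i_r3 =>
        simp only [M, rtag, ctag, not_true_eq_false, not_false_eq_true] at h35 t13 t23 t34 t35 <;> omega
      | rs2 i_r3 =>
        simp only [M, rtag, ctag, not_true_eq_false, not_false_eq_true] at h35 t13 t23 t34 t35 <;> omega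
      | zs i_r3 =>
        simp only [M, rtag, ctag, not_true_eq_false, not_false_eq_true] at h35 t13 t23 t34 t35 <;> first | (clear * - h35; omega) | omega -- ('thin', 'zs', 'zs', 'zs', None)|(None, None, None, None, 'f')
      | f j_r3 i_r3 =>
        simp only [M, rtag, ctag, not_true_eq_false, not_false_eq_true] at h35 t13 t23 t34 t35 <;> omega
      | g j_r3 c_r3 i_r3 =>
        simp only [M, rtag, ctag, not_true_eq_false, not_false_eq_true] at h35 t13 t23 t34 t35 <;> omega
      | k j_r3 c_r3 i_r3 =>
        simp only [M, rtag, ctag, not_true_eq_false, not_false_eq_true] at h35 t13 t23 t34 t35 <;> omega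
    | f j_w1 i_w1 =>
      simp only [M, rtag, ctag, not_true_eq_false, not_false_eq_true] at h45 t14 t24 t34 t45 <;> first | (clear * - h45; omega) | omega -- ('thin', 'zs', None, 'f', None)|(None, None, None, None, 'f')
    | g j_w1 c_w1 i_w1 =>
      simp only [M, rtag, ctag, not_true_eq_false, not_false_eq_true] at h45 t14 t24 t34 t45
      cases s1 with
      | pad i_s1 =>
        exact (h51 (M_pad_col _ _ _)).elim
      | cs1 i_s1 =>
        simp only [M, rtag, ctag, not_true_eq_false, not_false_eq_true] at h11 h21 h41 u12 u13 u14 u15 <;> first | (clear * - h41; omega) | omega -- ('thin', 'zs', None, 'g', None)|('cs1', None, None, None, 'f')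
      | thin j_s1 v_s1 q_s1 i_s1 =>
        simp only [M, rtag, ctag, not_true_eq_false, not_false_eq_true] at h11 h21 h41 u12 u13 u14 u15 <;> first | (clear * - h21; omega) | omega -- ('thin', 'zs', None, 'g', None)|('thin', None, None, None, 'f')
      | w c_s1 i_s1 =>
        simp only [M, rtag, ctag, not_true_eq_false, not_false_eq_true] at h11 h21 h41 u12 u13 u14 u15 <;> first | (clear * - h41; omega) | omega -- ('thin', 'zs', None, 'g', None)|('w', None, None, None, 'f')
      | anc i_s1 =>
        simp only [M, rtag, ctag, not_true_eq_false, not_false_eq_true] at h11 h21 h41 u12 u13 u14 u15 <;> first | (clear * - h41; omega) | omega -- ('thin', 'zs', None, 'g', None)|('anc', None, None, None, 'f')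
      | cs2 i_s1 =>
        simp only [M, rtag, ctag, not_true_eq_false, not_false_eq_true] at h11 h21 h41 u12 u13 u14 u15 <;> first | (clear * - h41; omega) | omega -- ('thin', 'zs', None, 'g', None)|('cs2', None, None, None, 'f')
      | zs i_s1 =>
        simp only [M, rtag, ctag, not_true_eq_false, not_false_eq_true] at h11 h21 h41 u12 u13 u14 u15 <;> first | (clear * - h41; omega) | omega -- ('thin', 'zs', None, 'g', None)|('zs', None, None, None, 'f')
      | f j_s1 i_s1 =>
        simp only [M, rtag, ctag, not_true_eq_false, not_false_eq_true] at h11 h21 h41 u12 u13 u14 u15 <;> first | (clear * - h11 h15 h41 h45; omega) | omega -- ('thin', 'zs', None, 'g', None)|('f', None, None, None, 'f')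
      | g j_s1 c_s1 i_s1 =>
        simp only [M, rtag, ctag, not_true_eq_false, not_false_eq_true] at h11 h21 h41 u12 u13 u14 u15 <;> omega
      | k j_s1 c_s1 i_s1 =>
        simp only [M, rtag, ctag, not_true_eq_false, not_false_eq_true] at h11 h21 h41 u12 u13 u14 u15 <;> omega
    | k j_w1 c_w1 i_w1 =>
      simp only [M, rtag, ctag, not_true_eq_false, not_false_eq_true] at h45 t14 t24 t34 t45 <;> first | (clear * - h45; omega) | omega -- ('thin', 'zs', None, 'k', None)|(None, None, None, None, 'f')
  | g j_z2 c_z2 i_z2 =>
    simp only [M, rtag, ctag, not_true_eq_false, not_false_eq_true] at h15 h25 u15 u25 u35 u45 <;> first | (clear * - h25; omega) | omega -- ('thin', 'zs', None, None, None)|(None, None, None, None, 'g')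
  | k j_z2 c_z2 i_z2 =>
    simp only [M, rtag, ctag, not_true_eq_false, not_false_eq_true] at h15 h25 u15 u25 u35 u45
    cases w1 with
    | pad i_w1 =>
      exact (h42 (M_pad_row _ _ _)).elim
    | rs1 i_w1 =>
      simp only [M, rtag, ctag, not_true_eq_false, not_false_eq_true] at h45 t14 t24 t34 t45 <;> omega
    | thin j_w1 v_w1 q_w1 i_w1 =>
      simp only [M, rtag, ctag, not_true_eq_false, not_false_eq_true] at h45 t14 t24 t34 t45 <;> omega
    | rs2 i_w1 =>
      simp only [M, rtag, ctag, not_true_eq_false, not_false_eq_true] at h45 t14 t24 t34 t45 <;> omega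
    | zs i_w1 =>
      simp only [M, rtag, ctag, not_true_eq_false, not_false_eq_true] at h45 t14 t24 t34 t45
      cases r3 with
      | pad i_r3 =>
        exact (h35 (M_pad_row _ _ _)).elim
      | rs1 i_r3 =>
        simp only [M, rtag, ctag, not_true_eq_false, not_false_eq_true] at h35 t13 t23 t34 t35 <;> omega
      | thin j_r3 v_r3 q_r3 i_r3 =>
        simp only [M, rtag, ctag, not_true_eq_false, not_false_eq_true] at h35 t13 t23 t34 t35 <;> omega
      | rs2 i_r3 =>
        simp only [M, rtag, ctag, not_true_eq_false, not_false_eq_true] at h35 t13 t23 t34 t35 <;> omega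
      | zs i_r3 =>
        simp only [M, rtag, ctag, not_true_eq_false, not_false_eq_true] at h35 t13 t23 t34 t35 <;> first | (clear * - h35; omega) | omega -- ('thin', 'zs', 'zs', 'zs', None)|(None, None, None, None, 'k')
      | f j_r3 i_r3 =>
        simp only [M, rtag, ctag, not_true_eq_false, not_false_eq_true] at h35 t13 t23 t34 t35 <;> omega
      | g j_r3 c_r3 i_r3 =>
        simp only [M, rtag, ctag, not_true_eq_false, not_false_eq_true] at h35 t13 t23 t34 t35 <;> omega
      | k j_r3 c_r3 i_r3 =>
        simp only [M, rtag, ctag, not_true_eq_false, not_false_eq_true] at h35 t13 t23 t34 t35 <;> omega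
    | f j_w1 i_w1 =>
      simp only [M, rtag, ctag, not_true_eq_false, not_false_eq_true] at h45 t14 t24 t34 t45 <;> first | (clear * - h45; omega) | omega -- ('thin', 'zs', None, 'f', None)|(None, None, None, None, 'k')
    | g j_w1 c_w1 i_w1 =>
      simp only [M, rtag, ctag, not_true_eq_false, not_false_eq_true] at h45 t14 t24 t34 t45
      cases w2 with
      | pad i_w2 =>
        exact (h51 (M_pad_row _ _ _)).elim
      | rs1 i_w2 =>
        simp only [M, rtag, ctag, not_true_eq_false, not_false_eq_true] at h55 t15 t25 t35 t45 <;> omega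
      | thin j_w2 v_w2 q_w2 i_w2 =>
        simp only [M, rtag, ctag, not_true_eq_false, not_false_eq_true] at h55 t15 t25 t35 t45 <;> omega
      | rs2 i_w2 =>
        simp only [M, rtag, ctag, not_true_eq_false, not_false_eq_true] at h55 t15 t25 t35 t45 <;> omega
      | zs i_w2 =>
        simp only [M, rtag, ctag, not_true_eq_false, not_false_eq_true] at h55 t15 t25 t35 t45 <;> omega
      | f j_w2 i_w2 =>
        simp only [M, rtag, ctag, not_true_eq_false, not_false_eq_true] at h55 t15 t25 t35 t45 <;> omega
      | g j_w2 c_w2 i_w2 =>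
        simp only [M, rtag, ctag, not_true_eq_false, not_false_eq_true] at h55 t15 t25 t35 t45
        cases s1 with
        | pad i_s1 =>
          exact (h51 (M_pad_col _ _ _)).elim
        | cs1 i_s1 =>
          simp only [M, rtag, ctag, not_true_eq_false, not_false_eq_true] at h11 h21 h41 h51 u12 u13 u14 u15 <;> first | (clear * - h41; omega) | omega -- ('thin', 'zs', None, 'g', 'g')|('cs1', None, None, None, 'k')
        | thin j_s1 v_s1 q_s1 i_s1 =>
          simp only [M, rtag, ctag, not_true_eq_false, not_false_eq_true] at h11 h21 h41 h51 u12 u13 u14 u15 <;> first | (clear * - h41 h45 h51 h55; omega) | omega -- ('thin', 'zs', None, 'g', 'g')|('thin', None, None, None, 'k')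
        | w c_s1 i_s1 =>
          simp only [M, rtag, ctag, not_true_eq_false, not_false_eq_true] at h11 h21 h41 h51 u12 u13 u14 u15 <;> first | (clear * - h41; omega) | omega -- ('thin', 'zs', None, 'g', 'g')|('w', None, None, None, 'k')
        | anc i_s1 =>
          simp only [M, rtag, ctag, not_true_eq_false, not_false_eq_true] at h11 h21 h41 h51 u12 u13 u14 u15 <;> first | (clear * - h41; omega) | omega -- ('thin', 'zs', None, 'g', 'g')|('anc', None, None, None, 'k')
        | cs2 i_s1 =>
          simp only [M, rtag, ctag, not_true_eq_false, not_false_eq_true] at h11 h21 h41 h51 u12 u13 u14 u15 <;> first | (clear * - h41; omega) | omega -- ('thin', 'zs', None, 'g', 'g')|('cs2', None, None, None, 'k')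
        | zs i_s1 =>
          simp only [M, rtag, ctag, not_true_eq_false, not_false_eq_true] at h11 h21 h41 h51 u12 u13 u14 u15 <;> first | (clear * - h41; omega) | omega -- ('thin', 'zs', None, 'g', 'g')|('zs', None, None, None, 'k')
        | f j_s1 i_s1 =>
          simp only [M, rtag, ctag, not_true_eq_false, not_false_eq_true] at h11 h21 h41 h51 u12 u13 u14 u15 <;> first | (clear * - h41 h45 h51 h55; omega) | omega -- ('thin', 'zs', None, 'g', 'g')|('f', None, None, None, 'k')
        | g j_s1 c_s1 i_s1 =>
          simp only [M, rtag, ctag, not_true_eq_false, not_false_eq_true] at h11 h21 h41 h51 u12 u13 u14 u15 <;> first | (clear * - h41; omega) | omega -- ('thin', 'zs', None, 'g', 'g')|('g', None, None, None, 'k')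
        | k j_s1 c_s1 i_s1 =>
          simp only [M, rtag, ctag, not_true_eq_false, not_false_eq_true] at h11 h21 h41 h51 u12 u13 u14 u15 <;> first | (clear * - h41 h45 h51 h55; omega) | omega -- ('thin', 'zs', None, 'g', 'g')|('k', None, None, None, 'k')
      | k j_w2 c_w2 i_w2 =>
        simp only [M, rtag, ctag, not_true_eq_false, not_false_eq_true] at h55 t15 t25 t35 t45 <;> first | (clear * - h55; omega) | omega -- ('thin', 'zs', None, 'g', 'k')|(None, None, None, None, 'k')
    | k j_w1 c_w1 i_w1 =>
      simp only [M, rtag, ctag, not_true_eq_false, not_false_eq_true] at h45 t14 t24 t34 t45 <;> first | (clear * - h45; omega) | omega -- ('thin', 'zs', None, 'k', None)|(None, None, None, None, 'k')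

theorem cls_zs_n_n_n_n__n_n_n_n_n (J : ℕ) (i_r1 : ℕ) (x : Rw) (r3 : Rw) (w1 : Rw) (w2 : Rw) (s1 : Cl) (y : Cl) (s3 : Cl) (z1 : Cl) (z2 : Cl)
    (t1 : rtag (.zs i_r1) ≤ rtag x) (t2 : rtag x ≤ rtag r3) (t3 : rtag r3 ≤ rtag w1) (t4 : rtag w1 ≤ rtag w2)
    (u1 : ctag s1 ≤ ctag y) (u2 : ctag y ≤ ctag s3) (u3 : ctag s3 ≤ ctag z1) (u4 : ctag z1 ≤ ctag z2)
    (h : CoreCopy J (.zs i_r1) x r3 w1 w2 s1 y s3 z1 z2) : IsA (.zs i_r1) x r3 y ∨ IsB J x s1 s3 y := by
  obtain ⟨h11,h12,h13,h14,h15,h21,h22,h23,h24,h25,h31,h32,h33,h34,h35,h41,h42,h43,h44,h45,h51,h52,h53,h54,h55⟩ := h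
  have t12 := t1
  have t13 := t1.trans t2
  have t14 := (t1.trans t2).trans t3
  have t15 := ((t1.trans t2).trans t3).trans t4
  have t23 := t2
  have t24 := t2.trans t3
  have t25 := (t2.trans t3).trans t4
  have t34 := t3
  have t35 := t3.trans t4
  have t45 := t4
  have u12 := u1
  have u13 := u1.trans u2
  have u14 := (u1.trans u2).trans u3
  have u15 := ((u1.trans u2).trans u3).trans u4
  have u23 := u2
  have u24 := u2.trans u3
  have u25 := (u2.trans u3).trans u4
  have u34 := u3
  have u35 := u3.trans u4
  have u45 := u4
  clear t1 t2 t3 t4 u1 u2 u3 u4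
  simp only [M, rtag, ctag, not_true_eq_false, not_false_eq_true] at t12 t13 t14 t15
  cases x with
  | pad i_x =>
    exact (h22 (M_pad_row _ _ _)).elim
  | rs1 i_x =>
    simp only [M, rtag, ctag, not_true_eq_false, not_false_eq_true] at t12 t23 t24 t25 <;> omega
  | thin j_x v_x q_x i_x =>
    simp only [M, rtag, ctag, not_true_eq_false, not_false_eq_true] at t12 t23 t24 t25 <;> omega
  | rs2 i_x =>
    simp only [M, rtag, ctag, not_true_eq_false, not_false_eq_true] at t12 t23 t24 t25 <;> omega
  | zs i_x =>
    simp only [M, rtag, ctag, not_true_eq_false, not_false_eq_true] at t12 t23 t24 t25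
    cases y with
    | pad i_y =>
      exact (h22 (M_pad_col _ _ _)).elim
    | cs1 i_y =>
      simp only [M, rtag, ctag, not_true_eq_false, not_false_eq_true] at h12 h22 u12 u23 u24 u25 <;> first | (clear * - h22; omega) | omega -- ('zs', 'zs', None, None, None)|(None, 'cs1', None, None, None)
    | thin j_y v_y q_y i_y =>
      simp only [M, rtag, ctag, not_true_eq_false, not_false_eq_true] at h12 h22 u12 u23 u24 u25 <;> first | (clear * - h12; omega) | omega -- ('zs', 'zs', None, None, None)|(None, 'thin', None, None, None)
    | w c_y i_y =>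
      simp only [M, rtag, ctag, not_true_eq_false, not_false_eq_true] at h12 h22 u12 u23 u24 u25 <;> first | (clear * - h12; omega) | omega -- ('zs', 'zs', None, None, None)|(None, 'w', None, None, None)
    | anc i_y =>
      simp only [M, rtag, ctag, not_true_eq_false, not_false_eq_true] at h12 h22 u12 u23 u24 u25 <;> first | (clear * - h12; omega) | omega -- ('zs', 'zs', None, None, None)|(None, 'anc', None, None, None)
    | cs2 i_y =>
      simp only [M, rtag, ctag, not_true_eq_false, not_false_eq_true] at h12 h22 u12 u23 u24 u25 <;> first | (clear * - h22; omega) | omega -- ('zs', 'zs', None, None, None)|(None, 'cs2', None, None, None)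
    | zs i_y =>
      simp only [M, rtag, ctag, not_true_eq_false, not_false_eq_true] at h12 h22 u12 u23 u24 u25 <;> first | (clear * - h12; omega) | omega -- ('zs', 'zs', None, None, None)|(None, 'zs', None, None, None)
    | f j_y i_y =>
      simp only [M, rtag, ctag, not_true_eq_false, not_false_eq_true] at h12 h22 u12 u23 u24 u25 <;> first | (clear * - h22; omega) | omega -- ('zs', 'zs', None, None, None)|(None, 'f', None, None, None)
    | g j_y c_y i_y =>
      simp only [M, rtag, ctag, not_true_eq_false, not_false_eq_true] at h12 h22 u12 u23 u24 u25 <;> first | (clear * - h12; omega) | omega -- ('zs', 'zs', None, None, None)|(None, 'g', None, None, None)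
    | k j_y c_y i_y =>
      simp only [M, rtag, ctag, not_true_eq_false, not_false_eq_true] at h12 h22 u12 u23 u24 u25 <;> first | (clear * - h22; omega) | omega -- ('zs', 'zs', None, None, None)|(None, 'k', None, None, None)
  | f j_x i_x =>
    simp only [M, rtag, ctag, not_true_eq_false, not_false_eq_true] at t12 t23 t24 t25
    cases s1 with
    | pad i_s1 =>
      exact (h51 (M_pad_col _ _ _)).elim
    | cs1 i_s1 =>
      simp only [M, rtag, ctag, not_true_eq_false, not_false_eq_true] at h11 h21 u12 u13 u14 u15 <;> first | (clear * - h21; omega) | omega -- ('zs', 'f', None, None, None)|('cs1', None, None, None, None)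
    | thin j_s1 v_s1 q_s1 i_s1 =>
      simp only [M, rtag, ctag, not_true_eq_false, not_false_eq_true] at h11 h21 u12 u13 u14 u15 <;> first | (clear * - h11; omega) | omega -- ('zs', 'f', None, None, None)|('thin', None, None, None, None)
    | w c_s1 i_s1 =>
      simp only [M, rtag, ctag, not_true_eq_false, not_false_eq_true] at h11 h21 u12 u13 u14 u15 <;> first | (clear * - h21; omega) | omega -- ('zs', 'f', None, None, None)|('w', None, None, None, None)
    | anc i_s1 =>
      simp only [M, rtag, ctag, not_true_eq_false, not_false_eq_true] at h11 h21 u12 u13 u14 u15 <;> first | (clear * - h11; omega) | omega -- ('zs', 'f', None, None, None)|('anc', None, None, None, None)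
    | cs2 i_s1 =>
      simp only [M, rtag, ctag, not_true_eq_false, not_false_eq_true] at h11 h21 u12 u13 u14 u15 <;> first | (clear * - h21; omega) | omega -- ('zs', 'f', None, None, None)|('cs2', None, None, None, None)
    | zs i_s1 =>
      simp only [M, rtag, ctag, not_true_eq_false, not_false_eq_true] at h11 h21 u12 u13 u14 u15 <;> first | (clear * - h11; omega) | omega -- ('zs', 'f', None, None, None)|('zs', None, None, None, None)
    | f j_s1 i_s1 =>
      simp only [M, rtag, ctag, not_true_eq_false, not_false_eq_true] at h11 h21 u12 u13 u14 u15 <;> first | (clear * - h21; omega) | omega -- ('zs', 'f', None, None, None)|('f', None, None, None, None)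
    | g j_s1 c_s1 i_s1 =>
      simp only [M, rtag, ctag, not_true_eq_false, not_false_eq_true] at h11 h21 u12 u13 u14 u15 <;> first | (clear * - h11; omega) | omega -- ('zs', 'f', None, None, None)|('g', None, None, None, None)
    | k j_s1 c_s1 i_s1 =>
      simp only [M, rtag, ctag, not_true_eq_false, not_false_eq_true] at h11 h21 u12 u13 u14 u15 <;> first | (clear * - h21; omega) | omega -- ('zs', 'f', None, None, None)|('k', None, None, None, None)
  | g j_x c_x i_x =>
    simp only [M, rtag, ctag, not_true_eq_false, not_false_eq_true] at t12 t23 t24 t25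
    cases z2 with
    | pad i_z2 =>
      exact (h15 (M_pad_col _ _ _)).elim
    | cs1 i_z2 =>
      simp only [M, rtag, ctag, not_true_eq_false, not_false_eq_true] at h15 h25 u15 u25 u35 u45 <;> first | (clear * - h25; omega) | omega -- ('zs', 'g', None, None, None)|(None, None, None, None, 'cs1')
    | thin j_z2 v_z2 q_z2 i_z2 =>
      simp only [M, rtag, ctag, not_true_eq_false, not_false_eq_true] at h15 h25 u15 u25 u35 u45
      cases s1 with
      | pad i_s1 =>
        exact (h51 (M_pad_col _ _ _)).elim
      | cs1 i_s1 =>
        simp only [M, rtag, ctag, not_true_eq_false, not_false_eq_true] at h11 h21 u12 u13 u14 u15 <;> first | (clear * - h21; omega) | omega -- ('zs', 'g', None, None, None)|('cs1', None, None, None, 'thin')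
      | thin j_s1 v_s1 q_s1 i_s1 =>
        simp only [M, rtag, ctag, not_true_eq_false, not_false_eq_true] at h11 h21 u12 u13 u14 u15 <;> first | (clear * - h11; omega) | omega -- ('zs', 'g', None, None, None)|('thin', None, None, None, 'thin')
      | w c_s1 i_s1 =>
        simp only [M, rtag, ctag, not_true_eq_false, not_false_eq_true] at h11 h21 u12 u13 u14 u15 <;> omega
      | anc i_s1 =>
        simp only [M, rtag, ctag, not_true_eq_false, not_false_eq_true] at h11 h21 u12 u13 u14 u15 <;> omega
      | cs2 i_s1 =>
        simp only [M, rtag, ctag, not_true_eq_false, not_false_eq_true] at h11 h21 u12 u13 u14 u15 <;> omega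
      | zs i_s1 =>
        simp only [M, rtag, ctag, not_true_eq_false, not_false_eq_true] at h11 h21 u12 u13 u14 u15 <;> omega
      | f j_s1 i_s1 =>
        simp only [M, rtag, ctag, not_true_eq_false, not_false_eq_true] at h11 h21 u12 u13 u14 u15 <;> omega
      | g j_s1 c_s1 i_s1 =>
        simp only [M, rtag, ctag, not_true_eq_false, not_false_eq_true] at h11 h21 u12 u13 u14 u15 <;> omega
      | k j_s1 c_s1 i_s1 =>
        simp only [M, rtag, ctag, not_true_eq_false, not_false_eq_true] at h11 h21 u12 u13 u14 u15 <;> omega
    | w c_z2 i_z2 =>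
      simp only [M, rtag, ctag, not_true_eq_false, not_false_eq_true] at h15 h25 u15 u25 u35 u45 <;> first | (clear * - h25; omega) | omega -- ('zs', 'g', None, None, None)|(None, None, None, None, 'w')
    | anc i_z2 =>
      simp only [M, rtag, ctag, not_true_eq_false, not_false_eq_true] at h15 h25 u15 u25 u35 u45 <;> first | (clear * - h25; omega) | omega -- ('zs', 'g', None, None, None)|(None, None, None, None, 'anc')
    | cs2 i_z2 =>
      simp only [M, rtag, ctag, not_true_eq_false, not_false_eq_true] at h15 h25 u15 u25 u35 u45 <;> first | (clear * - h25; omega) | omega -- ('zs', 'g', None, None, None)|(None, None, None, None, 'cs2')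
    | zs i_z2 =>
      simp only [M, rtag, ctag, not_true_eq_false, not_false_eq_true] at h15 h25 u15 u25 u35 u45 <;> first | (clear * - h25; omega) | omega -- ('zs', 'g', None, None, None)|(None, None, None, None, 'zs')
    | f j_z2 i_z2 =>
      simp only [M, rtag, ctag, not_true_eq_false, not_false_eq_true] at h15 h25 u15 u25 u35 u45 <;> first | (clear * - h15; omega) | omega -- ('zs', 'g', None, None, None)|(None, None, None, None, 'f')
    | g j_z2 c_z2 i_z2 =>
      simp only [M, rtag, ctag, not_true_eq_false, not_false_eq_true] at h15 h25 u15 u25 u35 u45 <;> first | (clear * - h25; omega) | omega -- ('zs', 'g', None, None, None)|(None, None, None, None, 'g')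
    | k j_z2 c_z2 i_z2 =>
      simp only [M, rtag, ctag, not_true_eq_false, not_false_eq_true] at h15 h25 u15 u25 u35 u45 <;> first | (clear * - h15; omega) | omega -- ('zs', 'g', None, None, None)|(None, None, None, None, 'k')
  | k j_x c_x i_x =>
    simp only [M, rtag, ctag, not_true_eq_false, not_false_eq_true] at t12 t23 t24 t25
    cases s1 with
    | pad i_s1 =>
      exact (h51 (M_pad_col _ _ _)).elim
    | cs1 i_s1 =>
      simp only [M, rtag, ctag, not_true_eq_false, not_false_eq_true] at h11 h21 u12 u13 u14 u15 <;> first | (clear * - h21; omega) | omega -- ('zs', 'k', None, None, None)|('cs1', None, None, None, None)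
    | thin j_s1 v_s1 q_s1 i_s1 =>
      simp only [M, rtag, ctag, not_true_eq_false, not_false_eq_true] at h11 h21 u12 u13 u14 u15 <;> first | (clear * - h11; omega) | omega -- ('zs', 'k', None, None, None)|('thin', None, None, None, None)
    | w c_s1 i_s1 =>
      simp only [M, rtag, ctag, not_true_eq_false, not_false_eq_true] at h11 h21 u12 u13 u14 u15 <;> first | (clear * - h11; omega) | omega -- ('zs', 'k', None, None, None)|('w', None, None, None, None)
    | anc i_s1 =>
      simp only [M, rtag, ctag, not_true_eq_false, not_false_eq_true] at h11 h21 u12 u13 u14 u15 <;> first | (clear * - h21; omega) | omega -- ('zs', 'k', None, None, None)|('anc', None, None, None, None)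
    | cs2 i_s1 =>
      simp only [M, rtag, ctag, not_true_eq_false, not_false_eq_true] at h11 h21 u12 u13 u14 u15 <;> first | (clear * - h21; omega) | omega -- ('zs', 'k', None, None, None)|('cs2', None, None, None, None)
    | zs i_s1 =>
      simp only [M, rtag, ctag, not_true_eq_false, not_false_eq_true] at h11 h21 u12 u13 u14 u15 <;> first | (clear * - h11; omega) | omega -- ('zs', 'k', None, None, None)|('zs', None, None, None, None)
    | f j_s1 i_s1 =>
      simp only [M, rtag, ctag, not_true_eq_false, not_false_eq_true] at h11 h21 u12 u13 u14 u15 <;> first | (clear * - h21; omega) | omega -- ('zs', 'k', None, None, None)|('f', None, None, None, None)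
    | g j_s1 c_s1 i_s1 =>
      simp only [M, rtag, ctag, not_true_eq_false, not_false_eq_true] at h11 h21 u12 u13 u14 u15 <;> first | (clear * - h11; omega) | omega -- ('zs', 'k', None, None, None)|('g', None, None, None, None)
    | k j_s1 c_s1 i_s1 =>
      simp only [M, rtag, ctag, not_true_eq_false, not_false_eq_true] at h11 h21 u12 u13 u14 u15 <;> first | (clear * - h21; omega) | omega -- ('zs', 'k', None, None, None)|('k', None, None, None, None)

end Crest.Agent.ZigZag
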