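import Crest.Agent.Lib.ZigZag.ClassifyP1
import Crest.Agent.Lib.ZigZag.ClassifyP2
import Crest.Agent.Lib.ZigZag.ClassifyP3
import Crest.Agent.Lib.ZigZag.ClassifyP4
import Crest.Agent.Lib.ZigZag.ClassifyP5
import Crest.Agent.Lib.ZigZag.ClassifyP6
import Crest.Agent.Lib.ZigZag.ClassifyP7

set_option autoImplicit false
set_option maxRecDepth 100000
set_option linter.unusedSimpArgs false
set_option linter.unusedVariables false

namespace Crest.Agent.ZigZag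

/-- Classification of core copies with tag-sorted lines. -/
theorem classify (J : ℕ) (r1 x r3 w1 w2 : Rw) (s1 y s3 z1 z2 : Cl)
    (t1 : rtag r1 ≤ rtag x) (t2 : rtag x ≤ rtag r3) (t3 : rtag r3 ≤ rtag w1) (t4 : rtag w1 ≤ rtag w2)
    (u1 : ctag s1 ≤ ctag y) (u2 : ctag y ≤ ctag s3) (u3 : ctag s3 ≤ ctag z1) (u4 : ctag z1 ≤ ctag z2)
    (h : CoreCopy J r1 x r3 w1 w2 s1 y s3 z1 z2) : IsA r1 x r3 y ∨ IsB J x s1 s3 y := by
  cases r1 with
  | pad i_r1 =>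
    exact (h.h15 (M_pad_row _ _ _)).elim
  | rs1 i_r1 =>
    cases s1 with
    | pad i_s1 =>
      exact (h.h51 (M_pad_col _ _ _)).elim
    | cs1 i_s1 =>
      exfalso
      obtain ⟨h11,h12,h13,h14,h15,h21,h22,h23,h24,h25,h31,h32,h33,h34,h35,h41,h42,h43,h44,h45,h51,h52,h53,h54,h55⟩ := h
      simp only [M, rtag, ctag, not_true_eq_false, not_false_eq_true] at * <;> omega
    | thin j_s1 v_s1 q_s1 i_s1 =>
      exact cls_rs1_n_n_n_n__thin_n_n_n_n J i_r1 x r3 w1 w2 j_s1 v_s1 q_s1 i_s1 y s3 z1 z2 t1 t2 t3 t4 u1 u2 u3 u4 h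
    | w c_s1 i_s1 =>
      exact cls_rs1_n_n_n_n__w_n_n_n_n J i_r1 x r3 w1 w2 c_s1 i_s1 y s3 z1 z2 t1 t2 t3 t4 u1 u2 u3 u4 h
    | anc i_s1 =>
      exact cls_rs1_n_n_n_n__anc_n_n_n_n J i_r1 x r3 w1 w2 i_s1 y s3 z1 z2 t1 t2 t3 t4 u1 u2 u3 u4 h
    | cs2 i_s1 =>
      exfalso
      obtain ⟨h11,h12,h13,h14,h15,h21,h22,h23,h24,h25,h31,h32,h33,h34,h35,h41,h42,h43,h44,h45,h51,h52,h53,h54,h55⟩ := h
      simp only [M, rtag, ctag, not_true_eq_false, not_false_eq_true] at * <;> omega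
    | zs i_s1 =>
      exact cls_rs1_n_n_n_n__zs_n_n_n_n J i_r1 x r3 w1 w2 i_s1 y s3 z1 z2 t1 t2 t3 t4 u1 u2 u3 u4 h
    | f j_s1 i_s1 =>
      exfalso
      obtain ⟨h11,h12,h13,h14,h15,h21,h22,h23,h24,h25,h31,h32,h33,h34,h35,h41,h42,h43,h44,h45,h51,h52,h53,h54,h55⟩ := h
      simp only [M, rtag, ctag, not_true_eq_false, not_false_eq_true] at * <;> omega
    | g j_s1 c_s1 i_s1 =>
      exfalso
      obtain ⟨h11,h12,h13,h14,h15,h21,h22,h23,h24,h25,h31,h32,h33,h34,h35,h41,h42,h43,h44,h45,h51,h52,h53,h54,h55⟩ := h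
      simp only [M, rtag, ctag, not_true_eq_false, not_false_eq_true] at * <;> omega
    | k j_s1 c_s1 i_s1 =>
      exfalso
      obtain ⟨h11,h12,h13,h14,h15,h21,h22,h23,h24,h25,h31,h32,h33,h34,h35,h41,h42,h43,h44,h45,h51,h52,h53,h54,h55⟩ := h
      simp only [M, rtag, ctag, not_true_eq_false, not_false_eq_true] at * <;> omega
  | thin j_r1 v_r1 q_r1 i_r1 =>
    cases x with
    | pad i_x =>
      exact (h.h22 (M_pad_row _ _ _)).elim
    | rs1 i_x =>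
      exfalso
      obtain ⟨h11,h12,h13,h14,h15,h21,h22,h23,h24,h25,h31,h32,h33,h34,h35,h41,h42,h43,h44,h45,h51,h52,h53,h54,h55⟩ := h
      simp only [M, rtag, ctag, not_true_eq_false, not_false_eq_true] at * <;> omega
    | thin j_x v_x q_x i_x =>
      cases y with
      | pad i_y =>
        exact (h.h22 (M_pad_col _ _ _)).elim
      | cs1 i_y =>
        exfalso
        obtain ⟨h11,h12,h13,h14,h15,h21,h22,h23,h24,h25,h31,h32,h33,h34,h35,h41,h42,h43,h44,h45,h51,h52,h53,h54,h55⟩ := h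
        simp only [M, rtag, ctag, not_true_eq_false, not_false_eq_true] at * <;> omega
      | thin j_y v_y q_y i_y =>
        cases s1 with
        | pad i_s1 =>
          exact (h.h51 (M_pad_col _ _ _)).elim
        | cs1 i_s1 =>
          exact cls_thin_thin_n_n_n__cs1_thin_n_n_n J j_r1 v_r1 q_r1 i_r1 j_x v_x q_x i_x r3 w1 w2 i_s1 j_y v_y q_y i_y s3 z1 z2 t1 t2 t3 t4 u1 u2 u3 u4 h
        | thin j_s1 v_s1 q_s1 i_s1 =>
          exact cls_thin_thin_n_n_n__thin_thin_n_n_n J j_r1 v_r1 q_r1 i_r1 j_x v_x q_x i_x r3 w1 w2 j_s1 v_s1 q_s1 i_s1 j_y v_y q_y i_y s3 z1 z2 t1 t2 t3 t4 u1 u2 u3 u4 h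
        | w c_s1 i_s1 =>
          exfalso
          obtain ⟨h11,h12,h13,h14,h15,h21,h22,h23,h24,h25,h31,h32,h33,h34,h35,h41,h42,h43,h44,h45,h51,h52,h53,h54,h55⟩ := h
          simp only [M, rtag, ctag, not_true_eq_false, not_false_eq_true] at * <;> omega
        | anc i_s1 =>
          exfalso
          obtain ⟨h11,h12,h13,h14,h15,h21,h22,h23,h24,h25,h31,h32,h33,h34,h35,h41,h42,h43,h44,h45,h51,h52,h53,h54,h55⟩ := h
          simp only [M, rtag, ctag, not_true_eq_false, not_false_eq_true] at * <;> omega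
        | cs2 i_s1 =>
          exfalso
          obtain ⟨h11,h12,h13,h14,h15,h21,h22,h23,h24,h25,h31,h32,h33,h34,h35,h41,h42,h43,h44,h45,h51,h52,h53,h54,h55⟩ := h
          simp only [M, rtag, ctag, not_true_eq_false, not_false_eq_true] at * <;> omega
        | zs i_s1 =>
          exfalso
          obtain ⟨h11,h12,h13,h14,h15,h21,h22,h23,h24,h25,h31,h32,h33,h34,h35,h41,h42,h43,h44,h45,h51,h52,h53,h54,h55⟩ := h
          simp only [M, rtag, ctag, not_true_eq_false, not_false_eq_true] at * <;> omega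
        | f j_s1 i_s1 =>
          exfalso
          obtain ⟨h11,h12,h13,h14,h15,h21,h22,h23,h24,h25,h31,h32,h33,h34,h35,h41,h42,h43,h44,h45,h51,h52,h53,h54,h55⟩ := h
          simp only [M, rtag, ctag, not_true_eq_false, not_false_eq_true] at * <;> omega
        | g j_s1 c_s1 i_s1 =>
          exfalso
          obtain ⟨h11,h12,h13,h14,h15,h21,h22,h23,h24,h25,h31,h32,h33,h34,h35,h41,h42,h43,h44,h45,h51,h52,h53,h54,h55⟩ := h
          simp only [M, rtag, ctag, not_true_eq_false, not_false_eq_true] at * <;> omega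
        | k j_s1 c_s1 i_s1 =>
          exfalso
          obtain ⟨h11,h12,h13,h14,h15,h21,h22,h23,h24,h25,h31,h32,h33,h34,h35,h41,h42,h43,h44,h45,h51,h52,h53,h54,h55⟩ := h
          simp only [M, rtag, ctag, not_true_eq_false, not_false_eq_true] at * <;> omega
      | w c_y i_y =>
        exfalso
        obtain ⟨h11,h12,h13,h14,h15,h21,h22,h23,h24,h25,h31,h32,h33,h34,h35,h41,h42,h43,h44,h45,h51,h52,h53,h54,h55⟩ := h
        simp only [M, rtag, ctag, not_true_eq_false, not_false_eq_true] at * <;> omega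
      | anc i_y =>
        exact cls_thin_thin_n_n_n__n_anc_n_n_n J j_r1 v_r1 q_r1 i_r1 j_x v_x q_x i_x r3 w1 w2 s1 i_y s3 z1 z2 t1 t2 t3 t4 u1 u2 u3 u4 h
      | cs2 i_y =>
        exfalso
        obtain ⟨h11,h12,h13,h14,h15,h21,h22,h23,h24,h25,h31,h32,h33,h34,h35,h41,h42,h43,h44,h45,h51,h52,h53,h54,h55⟩ := h
        simp only [M, rtag, ctag, not_true_eq_false, not_false_eq_true] at * <;> omega
      | zs i_y =>
        exfalso
        obtain ⟨h11,h12,h13,h14,h15,h21,h22,h23,h24,h25,h31,h32,h33,h34,h35,h41,h42,h43,h44,h45,h51,h52,h53,h54,h55⟩ := h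
        simp only [M, rtag, ctag, not_true_eq_false, not_false_eq_true] at * <;> omega
      | f j_y i_y =>
        exact cls_thin_thin_n_n_n__n_f_n_n_n J j_r1 v_r1 q_r1 i_r1 j_x v_x q_x i_x r3 w1 w2 s1 j_y i_y s3 z1 z2 t1 t2 t3 t4 u1 u2 u3 u4 h
      | g j_y c_y i_y =>
        exact cls_thin_thin_n_n_n__n_g_n_n_n J j_r1 v_r1 q_r1 i_r1 j_x v_x q_x i_x r3 w1 w2 s1 j_y c_y i_y s3 z1 z2 t1 t2 t3 t4 u1 u2 u3 u4 h
      | k j_y c_y i_y =>
        exact cls_thin_thin_n_n_n__n_k_n_n_n J j_r1 v_r1 q_r1 i_r1 j_x v_x q_x i_x r3 w1 w2 s1 j_y c_y i_y s3 z1 z2 t1 t2 t3 t4 u1 u2 u3 u4 h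
    | rs2 i_x =>
      exact cls_thin_rs2_n_n_n__n_n_n_n_n J j_r1 v_r1 q_r1 i_r1 i_x r3 w1 w2 s1 y s3 z1 z2 t1 t2 t3 t4 u1 u2 u3 u4 h
    | zs i_x =>
      exact cls_thin_zs_n_n_n__n_n_n_n_n J j_r1 v_r1 q_r1 i_r1 i_x r3 w1 w2 s1 y s3 z1 z2 t1 t2 t3 t4 u1 u2 u3 u4 h
    | f j_x i_x =>
      exact cls_thin_f_n_n_n__n_n_n_n_n J j_r1 v_r1 q_r1 i_r1 j_x i_x r3 w1 w2 s1 y s3 z1 z2 t1 t2 t3 t4 u1 u2 u3 u4 h
    | g j_x c_x i_x =>
      exact cls_thin_g_n_n_n__n_n_n_n_n J j_r1 v_r1 q_r1 i_r1 j_x c_x i_x r3 w1 w2 s1 y s3 z1 z2 t1 t2 t3 t4 u1 u2 u3 u4 h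
    | k j_x c_x i_x =>
      exact cls_thin_k_n_n_n__n_n_n_n_n J j_r1 v_r1 q_r1 i_r1 j_x c_x i_x r3 w1 w2 s1 y s3 z1 z2 t1 t2 t3 t4 u1 u2 u3 u4 h
  | rs2 i_r1 =>
    exact cls_rs2_n_n_n_n__n_n_n_n_n J i_r1 x r3 w1 w2 s1 y s3 z1 z2 t1 t2 t3 t4 u1 u2 u3 u4 h
  | zs i_r1 =>
    exact cls_zs_n_n_n_n__n_n_n_n_n J i_r1 x r3 w1 w2 s1 y s3 z1 z2 t1 t2 t3 t4 u1 u2 u3 u4 h
  | f j_r1 i_r1 =>
    exact cls_f_n_n_n_n__n_n_n_n_n J j_r1 i_r1 x r3 w1 w2 s1 y s3 z1 z2 t1 t2 t3 t4 u1 u2 u3 u4 h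
  | g j_r1 c_r1 i_r1 =>
    exact cls_g_n_n_n_n__n_n_n_n_n J j_r1 c_r1 i_r1 x r3 w1 w2 s1 y s3 z1 z2 t1 t2 t3 t4 u1 u2 u3 u4 h
  | k j_r1 c_r1 i_r1 =>
    exact cls_k_n_n_n_n__n_n_n_n_n J j_r1 c_r1 i_r1 x r3 w1 w2 s1 y s3 z1 z2 t1 t2 t3 t4 u1 u2 u3 u4 h

end Crest.Agent.ZigZag
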