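import Crest.Agent.Lib.ZigZag.Defs

set_option autoImplicit false
set_option maxRecDepth 100000
set_option linter.unusedSimpArgs false
set_option linter.unusedVariables false
set_option maxHeartbeats 0

namespace Crest.Agent.ZigZag

theorem M_pad_row (J i : ℕ) (c : Cl) : M J (.pad i) c := by
  cases c <;> trivial

theorem M_pad_col (J : ℕ) (r : Rw) (i : ℕ) : M J r (.pad i) := by
  cases r <;> trivial

/-- Signature (A) of a core copy. -/
def IsA : Rw → Rw → Rw → Cl → Prop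
  | .thin j1 v1 _ _, .thin jx vx _ _, .thin j3 v3 _ _, .thin jy vy _ _ =>
      j1 = jy ∧ j3 = jy ∧ jx = jy + 1 ∧ vy / 2 = v1 ∧ vy / 2 = v3 ∧ (vx / 2) % 2 = vy % 2
  | _, _, _, _ => False

/-- Signature (B) of a core copy. -/
def IsB (J : ℕ) : Rw → Cl → Cl → Cl → Prop
  | .thin jx vx _ _, .thin j1 v1 _ _, .thin j3 v3 _ _, .thin jy vy _ _ =>
      j1 + 1 = jx ∧ j3 + 1 = jx ∧ jy = jx ∧ vx / 2 = v1 ∧ vx / 2 = v3 ∧
        (vy / 2) % 2 = vx % 2 ∧ jx ≠ J
  | _, _, _, _ => False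

end Crest.Agent.ZigZag
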