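import Mathlib

/-!
# The zigzag bracket design (S0066): line types and the matrix `M`.
-/

set_option autoImplicit false

namespace Crest.Agent.ZigZag

/-- Row lines of the design. -/
inductive Rw where
  | pad (i : ℕ)
  | rs1 (i : ℕ)
  | thin (j v : ℕ) (κ : Bool) (i : ℕ)
  | rs2 (i : ℕ)
  | zs (i : ℕ)
  | f (j i : ℕ)
  | g (j c i : ℕ)
  | k (j c i : ℕ)
  deriving DecidableEq

/-- Column lines of the design. -/
inductive Cl where
  | pad (i : ℕ)
  | cs1 (i : ℕ)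
  | thin (j v : ℕ) (κ : Bool) (i : ℕ)
  | w (c i : ℕ)
  | anc (i : ℕ)
  | cs2 (i : ℕ)
  | zs (i : ℕ)
  | f (j i : ℕ)
  | g (j c i : ℕ)
  | k (j c i : ℕ)
  deriving DecidableEq

/-- Row tag: the coarse position of a row. -/
def rtag : Rw → ℕ
  | .pad _ => 0
  | .rs1 _ => 1
  | .thin _ _ _ _ => 2
  | .rs2 _ => 3
  | .zs _ => 4
  | .f _ _ => 5
  | .g _ _ _ => 6
  | .k _ _ _ => 7

/-- Column tag: the coarse position of a column. -/
def ctag : Cl → ℕ
  | .pad _ => 0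
  | .cs1 _ => 1
  | .thin _ _ _ _ => 2
  | .w _ _ => 3
  | .anc _ => 4
  | .cs2 _ => 5
  | .zs _ => 6
  | .f _ _ => 7
  | .g _ _ _ => 8
  | .k _ _ _ => 9

/-- The design matrix, as a proposition. -/
def M (J : ℕ) : Rw → Cl → Prop
  | .pad _, _ => True
  | .rs1 _, .pad _ => True
  | .rs1 _, .cs1 _ => False
  | .rs1 _, .thin _ _ _ _ => True
  | .rs1 _, .w _ _ => True
  | .rs1 _, .anc _ => True
  | .rs1 _, .cs2 _ => False
  | .rs1 _, .zs _ => True
  | .rs1 _, .f _ _ => False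
  | .rs1 _, .g _ _ _ => False
  | .rs1 _, .k _ _ _ => False
  | .rs2 _, .pad _ => True
  | .rs2 _, .cs1 _ => False
  | .rs2 _, .thin _ _ _ _ => True
  | .rs2 _, .w _ _ => True
  | .rs2 _, .anc _ => True
  | .rs2 _, .cs2 _ => False
  | .rs2 _, .zs _ => True
  | .rs2 _, .f _ _ => False
  | .rs2 _, .g _ _ _ => False
  | .rs2 _, .k _ _ _ => False
  | .thin _ _ _ _, .pad _ => True
  | .thin _ _ _ _, .cs1 _ => True
  | .thin j v _ _, .thin j' v' _ _ => (j' = j ∧ v' / 2 = v ∧ j ≠ J) ∨ (j = j' + 1 ∧ v / 2 = v' ∧ j ≠ J)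
  | .thin _ _ _ _, .w _ _ => False
  | .thin j _ _ _, .anc _ => j = J
  | .thin _ _ _ _, .cs2 _ => True
  | .thin _ _ _ _, .zs _ => False
  | .thin j _ _ _, .f j' _ => j' = j
  | .thin j v _ _, .g j' c _ => j' = j ∧ v % 2 = c
  | .thin j v _ _, .k j' c _ => j' = j ∧ (v / 2) % 2 = c
  | .zs _, .pad _ => True
  | .zs _, .cs1 _ => True
  | .zs _, .thin _ _ _ _ => False
  | .zs _, .w _ _ => False
  | .zs _, .anc _ => False
  | .zs _, .cs2 _ => True
  | .zs _, .zs _ => False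
  | .zs _, .f _ _ => True
  | .zs _, .g _ _ _ => False
  | .zs _, .k _ _ _ => True
  | .f _ _, .pad _ => True
  | .f _ _, .cs1 _ => False
  | .f j _, .thin j' _ _ _ => j' = j
  | .f _ _, .w _ _ => False
  | .f j _, .anc _ => j + 1 = J
  | .f _ _, .cs2 _ => False
  | .f _ _, .zs _ => True
  | .f _ _, .f _ _ => False
  | .f j _, .g j' _ _ => j' = j + 1
  | .f _ _, .k _ _ _ => False
  | .g _ _ _, .pad _ => True
  | .g _ _ _, .cs1 _ => False
  | .g j c _, .thin j' v' _ _ => j' = j ∧ v' % 2 = c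
  | .g _ _ _, .w _ _ => False
  | .g _ _ _, .anc _ => False
  | .g _ _ _, .cs2 _ => False
  | .g _ _ _, .zs _ => False
  | .g j _ _, .f j' _ => j' = j
  | .g _ _ _, .g _ _ _ => False
  | .g j c _, .k j' c' _ => j' = j + 1 ∧ c' = c
  | .k _ _ _, .pad _ => True
  | .k _ _ _, .cs1 _ => False
  | .k j c _, .thin j' v' _ _ => j' = j ∧ (v' / 2) % 2 = c
  | .k j c _, .w c' _ => j = J ∧ c' = c
  | .k _ _ _, .anc _ => False
  | .k _ _ _, .cs2 _ => False
  | .k _ _ _, .zs _ => True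
  | .k _ _ _, .f _ _ => False
  | .k j c _, .g j' c' _ => j' = j ∧ c' = c
  | .k _ _ _, .k _ _ _ => False

/-- The 25 cell conditions of a copy of the `5 × 5` core. -/
structure CoreCopy (J : ℕ) (r1 x r3 w1 w2 : Rw) (s1 y s3 z1 z2 : Cl) : Prop where
  h11 : M J r1 s1
  h12 : M J r1 y
  h13 : M J r1 s3
  h14 : M J r1 z1
  h15 : ¬ M J r1 z2
  h21 : M J x s1
  h22 : ¬ M J x y
  h23 : M J x s3
  h24 : ¬ M J x z1
  h25 : M J x z2
  h31 : M J r3 s1
  h32 : M J r3 y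
  h33 : M J r3 s3
  h34 : M J r3 z1
  h35 : ¬ M J r3 z2
  h41 : M J w1 s1
  h42 : ¬ M J w1 y
  h43 : M J w1 s3
  h44 : M J w1 z1
  h45 : M J w1 z2
  h51 : ¬ M J w2 s1
  h52 : M J w2 y
  h53 : ¬ M J w2 s3
  h54 : M J w2 z1
  h55 : M J w2 z2

end Crest.Agent.ZigZag
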