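import Crest.Prelude.Def_OrderedMatrix

/-!
# Generic lemmas on ordered copy counts (S0066).
-/

set_option autoImplicit false

namespace Crest.Agent.ZigZag

open Crest.CombinatoricsR.OrderedMatrix

/-- A copy forces a positive count. -/
theorem count_pos_of_copy {k n : ℕ} {H : Fin k → Fin k → Bool} {A : Fin n → Fin n → Bool}
    (r c : Fin k → Fin n) (hr : StrictMono r) (hc : StrictMono c)
    (h : ∀ i j, A (r i) (c j) = H i j) : orderedCopyCount H A ≠ 0 := by
  unfold orderedCopyCount
  have : Nonempty {rc : (Fin k → Fin n) × (Fin k → Fin n) //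
      StrictMono rc.1 ∧ StrictMono rc.2 ∧ ∀ i j : Fin k, A (rc.1 i) (rc.2 j) = H i j} :=
    ⟨⟨(r, c), hr, hc, h⟩⟩
  exact Fintype.card_ne_zero

/-- Counting bound: if every copy has `(r i₀, c j₀) ∈ S` then the count is at most
`|S| * n ^ (2 * k)` where `k + 1` is the pattern size. -/
theorem count_le_of_mem {k n : ℕ} {H : Fin (k + 1) → Fin (k + 1) → Bool}
    {A : Fin n → Fin n → Bool} (i₀ j₀ : Fin (k + 1)) (S : Finset (Fin n × Fin n))
    (hS : ∀ (r c : Fin (k + 1) → Fin n), StrictMono r → StrictMono c →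
      (∀ i j, A (r i) (c j) = H i j) → (r i₀, c j₀) ∈ S) :
    orderedCopyCount H A ≤ S.card * n ^ (2 * k) := by
  classical
  unfold orderedCopyCount
  let T := {rc : (Fin (k + 1) → Fin n) × (Fin (k + 1) → Fin n) //
    StrictMono rc.1 ∧ StrictMono rc.2 ∧ ∀ i j : Fin (k + 1), A (rc.1 i) (rc.2 j) = H i j}
  let φ : T → (↥S) × (Fin k → Fin n) × (Fin k → Fin n) := fun rc =>
    (⟨(rc.1.1 i₀, rc.1.2 j₀), hS rc.1.1 rc.1.2 rc.2.1 rc.2.2.1 rc.2.2.2⟩,
      fun i => rc.1.1 (i₀.succAbove i), fun i => rc.1.2 (j₀.succAbove i))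
  have hφ : Function.Injective φ := by
    rintro ⟨⟨r, c⟩, h1⟩ ⟨⟨r', c'⟩, h2⟩ h
    simp only [φ, Prod.mk.injEq, Subtype.mk.injEq] at h
    obtain ⟨⟨h3, h4⟩, h5, h6⟩ := h
    have e1 : r = r' := by
      funext i
      rcases Fin.eq_self_or_eq_succAbove i₀ i with rfl | ⟨l, rfl⟩
      · exact h3
      · exact congrFun h5 l
    have e2 : c = c' := by
      funext i
      rcases Fin.eq_self_or_eq_succAbove j₀ i with rfl | ⟨l, rfl⟩
      · exact h4
      · exact congrFun h6 l
    subst e1 e2
    rfl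
  have := Fintype.card_le_of_injective φ hφ
  refine this.trans ?_
  simp only [Fintype.card_prod, Fintype.card_coe, Fintype.card_fun, Fintype.card_fin]
  apply le_of_eq
  ring

/-- The trivial bound: the count is at most `C(n,k)^2`. -/
theorem count_le_choose_sq {k n : ℕ} (H : Fin k → Fin k → Bool) (A : Fin n → Fin n → Bool) :
    orderedCopyCount H A ≤ (n.choose k) ^ 2 := by
  classical
  unfold orderedCopyCount
  let T := {rc : (Fin k → Fin n) × (Fin k → Fin n) //
    StrictMono rc.1 ∧ StrictMono rc.2 ∧ ∀ i j : Fin k, A (rc.1 i) (rc.2 j) = H i j}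
  let P : Finset (Finset (Fin n)) := Finset.powersetCard k Finset.univ
  have mem : ∀ r : Fin k → Fin n, StrictMono r → Finset.univ.image r ∈ P := by
    intro r hr
    simp only [P, Finset.mem_powersetCard, Finset.subset_univ, true_and]
    rw [Finset.card_image_of_injective _ hr.injective]
    simp
  let φ : T → (↥P) × (↥P) := fun rc =>
    (⟨Finset.univ.image rc.1.1, mem _ rc.2.1⟩, ⟨Finset.univ.image rc.1.2, mem _ rc.2.2.1⟩)
  have key : ∀ r r' : Fin k → Fin n, StrictMono r → StrictMono r' →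
      Finset.univ.image r = Finset.univ.image r' → r = r' := by
    intro r r' hr hr' h
    have : Set.range r = Set.range r' := by
      have := congrArg (fun s : Finset (Fin n) => (s : Set (Fin n))) h
      simpa using this
    exact (hr.range_inj hr').1 this
  have hφ : Function.Injective φ := by
    rintro ⟨⟨r, c⟩, h1⟩ ⟨⟨r', c'⟩, h2⟩ h
    simp only [φ, Prod.mk.injEq, Subtype.mk.injEq] at h
    obtain ⟨h3, h4⟩ := h
    have e1 := key r r' h1.1 h2.1 h3
    have e2 := key c c' h1.2.1 h2.2.1 h4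
    subst e1 e2
    rfl
  have := Fintype.card_le_of_injective φ hφ
  refine this.trans ?_
  simp only [Fintype.card_prod, Fintype.card_coe, P, Finset.card_powersetCard, Finset.card_univ,
    Fintype.card_fin]
  exact le_of_eq (by ring)

/-- Tile construction: `A r c = H (r % k) (c % k)` needs at least `(n / k)^2` flips. -/
theorem tile_flips {k n : ℕ} (hk : 0 < k) (H : Fin k → Fin k → Bool)
    (B : Fin n → Fin n → Bool) (hB : orderedCopyCount H B = 0) :
    (n / k) ^ 2 ≤ (Finset.univ.filter (fun rc : Fin n × Fin n =>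
      H ⟨rc.1.val % k, Nat.mod_lt _ hk⟩ ⟨rc.2.val % k, Nat.mod_lt _ hk⟩ ≠ B rc.1 rc.2)).card := by
  classical
  set q := n / k with hq
  have hqk : q * k ≤ n := Nat.div_mul_le_self n k
  -- the block map
  have hidx : ∀ (a : Fin q) (i : Fin k), a.val * k + i.val < n := by
    intro a i
    have h1 : a.val + 1 ≤ q := a.isLt
    have h2 : (a.val + 1) * k ≤ q * k := Nat.mul_le_mul_right k h1
    have h3 := i.isLt
    nlinarith
  have key : ∀ p : Fin q × Fin q, ∃ ij : Fin k × Fin k,
      H ij.1 ij.2 ≠ B ⟨p.1.val * k + ij.1.val, hidx p.1 ij.1⟩ ⟨p.2.val * k + ij.2.val, hidx p.2 ij.2⟩ := by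
    intro p
    by_contra hcon
    push Not at hcon
    refine count_pos_of_copy (H := H) (A := B)
      (fun i => ⟨p.1.val * k + i.val, hidx p.1 i⟩) (fun j => ⟨p.2.val * k + j.val, hidx p.2 j⟩)
      ?_ ?_ ?_ hB
    · intro i i' h
      simp only [Fin.mk_lt_mk]
      have : i.val < i'.val := h
      omega
    · intro i i' h
      simp only [Fin.mk_lt_mk]
      have : i.val < i'.val := h
      omega
    · intro i j
      exact (hcon (i, j)).symm
  choose ψ hψ using key
  let φ : Fin q × Fin q → Fin n × Fin n := fun p =>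
    (⟨p.1.val * k + (ψ p).1.val, hidx p.1 (ψ p).1⟩, ⟨p.2.val * k + (ψ p).2.val, hidx p.2 (ψ p).2⟩)
  have hφ : Function.Injective φ := by
    intro p p' h
    simp only [φ, Prod.mk.injEq, Fin.mk.injEq] at h
    obtain ⟨h1, h2⟩ := h
    have d : ∀ (a b : ℕ) (i j : Fin k), a * k + i.val = b * k + j.val → a = b := by
      intro a b i j he
      have h1 : (a * k + i.val) / k = (b * k + j.val) / k := by rw [he]
      rw [Nat.mul_comm a k, Nat.mul_comm b k, Nat.mul_add_div hk, Nat.mul_add_div hk,
        Nat.div_eq_of_lt i.isLt, Nat.div_eq_of_lt j.isLt] at h1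
      simpa using h1
    have e1 := d _ _ _ _ h1
    have e2 := d _ _ _ _ h2
    exact Prod.ext (Fin.ext e1) (Fin.ext e2)
  have hcard : (Finset.univ : Finset (Fin q × Fin q)).card = q ^ 2 := by
    simp [Finset.card_univ, Fintype.card_prod, Fintype.card_fin, sq]
  rw [← hcard, ← Finset.card_image_of_injective _ hφ]
  apply Finset.card_le_card
  intro x hx
  simp only [Finset.mem_image, Finset.mem_univ, true_and] at hx
  obtain ⟨p, rfl⟩ := hx
  simp only [Finset.mem_filter, Finset.mem_univ, true_and]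
  have e : ∀ (a : ℕ) (i : Fin k), (a * k + i.val) % k = i.val := by
    intro a i
    rw [Nat.mul_comm, Nat.mul_add_mod]
    exact Nat.mod_eq_of_lt i.isLt
  have := hψ p
  simp only [φ]
  convert this using 2 <;> exact Fin.ext (e _ _)

end Crest.Agent.ZigZag
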