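import Crest.Agent.Lib.ZigZag.Defs

/-!
# The orders on rows and columns, given by keys in `List ℕ` (S0066).
-/

set_option autoImplicit false

namespace Crest.Agent.ZigZag

/-- Width of a row node at level `j`. -/
def rW (J j : ℕ) : ℕ := 4 ^ (J - j)

/-- Width of a column node at level `j`. -/
def cW (J j : ℕ) : ℕ := 2 * 4 ^ (J - j - 1)

/-- Second key coordinate of thin lines: closes (deep first), then opens (shallow first). -/
def sig (J j : ℕ) (κ : Bool) : ℕ := if κ then J - j else J + 1 + j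

/-- Key tail of thin lines. -/
def tl (wd : ℕ → ℕ) (J j v : ℕ) (κ : Bool) (i : ℕ) : List ℕ :=
  [(v + κ.toNat) * wd j, sig J j κ, i, j, v, κ.toNat]

/-- Row key tail. -/
def rrest (J : ℕ) : Rw → List ℕ
  | .pad i => [i]
  | .rs1 i => [i]
  | .thin j v κ i => tl (rW J) J j v κ i
  | .rs2 i => [i]
  | .zs i => [i]
  | .f j i => [j, i]
  | .g j c i => [j, c, i]
  | .k j c i => [j, c, i]

/-- Column key tail. -/
def crest (J : ℕ) : Cl → List ℕ
  | .pad i => [i]
  | .cs1 i => [i]
  | .thin j v κ i => tl (cW J) J j v κ i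
  | .w c i => [c, i]
  | .anc i => [i]
  | .cs2 i => [i]
  | .zs i => [i]
  | .f j i => [j, i]
  | .g j c i => [j, c, i]
  | .k j c i => [j, c, i]

/-- Row key. -/
def rkey (J : ℕ) (r : Rw) : List ℕ := rtag r :: rrest J r

/-- Column key. -/
def ckey (J : ℕ) (c : Cl) : List ℕ := ctag c :: crest J c

theorem tl_inj {wd wd' : ℕ → ℕ} {J j v i j' v' i' : ℕ} {κ κ' : Bool}
    (h : tl wd J j v κ i = tl wd' J j' v' κ' i') : j = j' ∧ v = v' ∧ κ = κ' ∧ i = i' := by
  simp only [tl, List.cons.injEq, and_true] at h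
  obtain ⟨-, -, h3, h4, h5, h6⟩ := h
  refine ⟨h4, h5, ?_, h3⟩
  cases κ <;> cases κ' <;> simp_all

theorem rkey_injective (J : ℕ) : Function.Injective (rkey J) := by
  intro a b h
  simp only [rkey, List.cons.injEq] at h
  obtain ⟨h1, h2⟩ := h
  cases a <;> cases b <;> simp only [rtag] at h1 <;> first | omega | skip
  all_goals
    simp only [rrest] at h2
  case thin.thin =>
    obtain ⟨rfl, rfl, rfl, rfl⟩ := tl_inj h2
    rfl
  all_goals simp_all

theorem ckey_injective (J : ℕ) : Function.Injective (ckey J) := by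
  intro a b h
  simp only [ckey, List.cons.injEq] at h
  obtain ⟨h1, h2⟩ := h
  cases a <;> cases b <;> simp only [ctag] at h1 <;> first | omega | skip
  all_goals
    simp only [crest] at h2
  case thin.thin =>
    obtain ⟨rfl, rfl, rfl, rfl⟩ := tl_inj h2
    rfl
  all_goals simp_all

theorem rkey_lt_of_tag {J : ℕ} {a b : Rw} (h : rtag a < rtag b) : rkey J a < rkey J b := by
  simp only [rkey, List.cons_lt_cons_iff]
  exact Or.inl h

theorem ckey_lt_of_tag {J : ℕ} {a b : Cl} (h : ctag a < ctag b) : ckey J a < ckey J b := by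
  simp only [ckey, List.cons_lt_cons_iff]
  exact Or.inl h

theorem rtag_le_of_key {J : ℕ} {a b : Rw} (h : rkey J a < rkey J b) : rtag a ≤ rtag b := by
  simp only [rkey, List.cons_lt_cons_iff] at h
  omega

theorem ctag_le_of_key {J : ℕ} {a b : Cl} (h : ckey J a < ckey J b) : ctag a ≤ ctag b := by
  simp only [ckey, List.cons_lt_cons_iff] at h
  omega

/-- A key comparison of thin tails gives a weak comparison of the first two coordinates. -/
theorem tl_lt_weak {wd : ℕ → ℕ} {J j v i j' v' i' : ℕ} {κ κ' : Bool}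
    (h : tl wd J j v κ i < tl wd J j' v' κ' i') :
    (v + κ.toNat) * wd j < (v' + κ'.toNat) * wd j' ∨
      ((v + κ.toNat) * wd j = (v' + κ'.toNat) * wd j' ∧ sig J j κ ≤ sig J j' κ') := by
  simp only [tl, List.cons_lt_cons_iff] at h
  rcases h with h | ⟨h1, h | ⟨h2, -⟩⟩
  · exact Or.inl h
  · exact Or.inr ⟨h1, h.le⟩
  · exact Or.inr ⟨h1, h2.le⟩

/-- A strict comparison of the first two coordinates gives a key comparison. -/
theorem tl_lt_of {wd : ℕ → ℕ} {J j v i j' v' i' : ℕ} {κ κ' : Bool}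
    (h : (v + κ.toNat) * wd j < (v' + κ'.toNat) * wd j' ∨
      ((v + κ.toNat) * wd j = (v' + κ'.toNat) * wd j' ∧ sig J j κ < sig J j' κ')) :
    tl wd J j v κ i < tl wd J j' v' κ' i' := by
  simp only [tl, List.cons_lt_cons_iff]
  rcases h with h | ⟨h1, h⟩
  · exact Or.inl h
  · exact Or.inr ⟨h1, Or.inl h⟩

/-- Positive nesting. -/
theorem tl_nest_pos {wd : ℕ → ℕ} {J j v vx : ℕ} (hwd : wd j = 4 * wd (j + 1)) (hw : 0 < wd (j + 1))
    (hj : j < J) (hv : vx / 4 = v) (κ : Bool) (i1 ix i3 : ℕ) :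
    tl wd J j v false i1 < tl wd J (j + 1) vx κ ix ∧
      tl wd J (j + 1) vx κ ix < tl wd J j v true i3 := by
  have e1 : (v + (false : Bool).toNat) * wd j = (v * 4) * wd (j + 1) := by
    rw [hwd]; simp only [Bool.toNat_false, add_zero]; ring
  have e3 : (v + (true : Bool).toNat) * wd j = ((v + 1) * 4) * wd (j + 1) := by
    rw [hwd]; simp only [Bool.toNat_true]; ring
  constructor
  · apply tl_lt_of
    rw [e1]
    by_cases hlt : v * 4 < vx + κ.toNat
    · exact Or.inl (Nat.mul_lt_mul_of_pos_right hlt hw)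
    · have heq : v * 4 = vx + κ.toNat := by omega
      refine Or.inr ⟨by rw [heq], ?_⟩
      cases κ
      · simp only [sig]; simp
      · simp only [Bool.toNat_true] at heq; omega
  · apply tl_lt_of
    rw [e3]
    by_cases hlt : vx + κ.toNat < (v + 1) * 4
    · exact Or.inl (Nat.mul_lt_mul_of_pos_right hlt hw)
    · have heq : vx + κ.toNat = (v + 1) * 4 := by
        have : κ.toNat ≤ 1 := Bool.toNat_le κ
        omega
      refine Or.inr ⟨by rw [heq], ?_⟩
      cases κ
      · simp only [Bool.toNat_false] at heq; omega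
      · simp only [sig]; simp; omega

/-- Negative nesting: a line between two lines of one node lies under that node. -/
theorem tl_nest_neg {wd : ℕ → ℕ} {J j v vx : ℕ} (hwd : wd j = 4 * wd (j + 1))
    (hw : 0 < wd (j + 1)) (hj : j < J) {κ1 κx κ3 : Bool} {i1 ix i3 : ℕ}
    (h1 : tl wd J j v κ1 i1 < tl wd J (j + 1) vx κx ix)
    (h3 : tl wd J (j + 1) vx κx ix < tl wd J j v κ3 i3) : vx / 4 = v := by
  have a1 := tl_lt_weak h1
  have a3 := tl_lt_weak h3
  have e1 : ∀ κ : Bool, (v + κ.toNat) * wd j = ((v + κ.toNat) * 4) * wd (j + 1) := by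
    intro κ; rw [hwd]; ring
  rw [e1] at a1 a3
  have b1 : (v + κ1.toNat) * 4 < vx + κx.toNat ∨
      ((v + κ1.toNat) * 4 = vx + κx.toNat ∧ sig J j κ1 ≤ sig J (j + 1) κx) := by
    rcases a1 with a | ⟨a, s⟩
    · exact Or.inl (Nat.lt_of_mul_lt_mul_right a)
    · exact Or.inr ⟨Nat.eq_of_mul_eq_mul_right hw a, s⟩
  have b3 : vx + κx.toNat < (v + κ3.toNat) * 4 ∨
      (vx + κx.toNat = (v + κ3.toNat) * 4 ∧ sig J (j + 1) κx ≤ sig J j κ3) := by
    rcases a3 with a | ⟨a, s⟩
    · exact Or.inl (Nat.lt_of_mul_lt_mul_right a)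
    · exact Or.inr ⟨Nat.eq_of_mul_eq_mul_right hw a, s⟩
  cases κ1 <;> cases κx <;> cases κ3 <;> simp only [sig, Bool.toNat_false, Bool.toNat_true, if_true, if_false, Bool.false_eq_true] at b1 b3 <;> omega

theorem rW_succ {J j : ℕ} (hj : j < J) : rW J j = 4 * rW J (j + 1) := by
  unfold rW
  have : J - j = (J - (j + 1)) + 1 := by omega
  rw [this, pow_succ]
  ring

theorem rW_pos (J j : ℕ) : 0 < rW J j := by
  unfold rW; positivity

theorem cW_succ {J j : ℕ} (hj : j + 1 < J) : cW J j = 4 * cW J (j + 1) := by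
  unfold cW
  have : J - j - 1 = (J - (j + 1) - 1) + 1 := by omega
  rw [this, pow_succ]
  ring

theorem cW_pos (J j : ℕ) : 0 < cW J j := by
  unfold cW; positivity

/-- `2 * cW J j = rW J j` -/
theorem cW_two {J j : ℕ} (hj : j < J) : cW J j * 2 = rW J j := by
  unfold cW rW
  have : J - j = (J - j - 1) + 1 := by omega
  rw [this, pow_succ]
  simp only [Nat.add_sub_cancel]
  ring

/-- `rW J (j+1) * 2 = cW J j`. -/
theorem rW_two {J j : ℕ} : rW J (j + 1) * 2 = cW J j := by
  unfold cW rW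
  have : J - (j + 1) = J - j - 1 := by omega
  rw [this]
  ring

/-! Keys of thin rows and columns. -/

theorem rkey_thin_nest_pos {J j v vx : ℕ} (hj : j < J) (hv : vx / 4 = v) (κ : Bool) (i1 ix i3 : ℕ) :
    rkey J (.thin j v false i1) < rkey J (.thin (j + 1) vx κ ix) ∧
      rkey J (.thin (j + 1) vx κ ix) < rkey J (.thin j v true i3) := by
  have := tl_nest_pos (wd := rW J) (rW_succ hj) (rW_pos J _) hj hv κ i1 ix i3
  simp only [rkey, rtag, rrest, List.cons_lt_cons_iff, lt_self_iff_false, false_or, true_and]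
  exact this

theorem ckey_thin_nest_pos {J j v vx : ℕ} (hj : j + 1 < J) (hv : vx / 4 = v) (κ : Bool) (i1 ix i3 : ℕ) :
    ckey J (.thin j v false i1) < ckey J (.thin (j + 1) vx κ ix) ∧
      ckey J (.thin (j + 1) vx κ ix) < ckey J (.thin j v true i3) := by
  have := tl_nest_pos (wd := cW J) (J := J) (j := j) (cW_succ hj) (cW_pos J _) (by omega) hv κ i1 ix i3
  simp only [ckey, ctag, crest, List.cons_lt_cons_iff, lt_self_iff_false, false_or, true_and]
  exact this

theorem rkey_thin_nest_neg {J j v vx : ℕ} (hj : j < J) {κ1 κx κ3 : Bool} {i1 ix i3 : ℕ}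
    (h1 : rkey J (.thin j v κ1 i1) < rkey J (.thin (j + 1) vx κx ix))
    (h3 : rkey J (.thin (j + 1) vx κx ix) < rkey J (.thin j v κ3 i3)) : vx / 4 = v := by
  simp only [rkey, rtag, rrest, List.cons_lt_cons_iff, lt_self_iff_false, false_or, true_and] at h1 h3
  exact tl_nest_neg (wd := rW J) (rW_succ hj) (rW_pos J _) hj h1 h3

theorem ckey_thin_nest_neg {J j v vx : ℕ} (hj : j + 1 < J) {κ1 κx κ3 : Bool} {i1 ix i3 : ℕ}
    (h1 : ckey J (.thin j v κ1 i1) < ckey J (.thin (j + 1) vx κx ix))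
    (h3 : ckey J (.thin (j + 1) vx κx ix) < ckey J (.thin j v κ3 i3)) : vx / 4 = v := by
  simp only [ckey, ctag, crest, List.cons_lt_cons_iff, lt_self_iff_false, false_or, true_and] at h1 h3
  exact tl_nest_neg (wd := cW J) (J := J) (j := j) (cW_succ hj) (cW_pos J _) (by omega) h1 h3

end Crest.Agent.ZigZag
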