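import Crest.Agent.Lib.ZigZag.Assemble

/-!
# The natural-number form of the main statement (S0066).
-/

set_option autoImplicit false

namespace Crest.Agent.ZigZag

open Crest.CombinatoricsR.OrderedMatrix

theorem fact_bound : (7722 : ℕ) ^ 2 * 2 ^ 20 ≤ ((66).factorial) ^ 2 := by
  have h16 : (2:ℕ)^40 ≤ Nat.factorial 16 := by decide
  have h : (2:ℕ)^40 ≤ Nat.factorial 66 := le_trans h16 (Nat.factorial_le (by norm_num))
  have h2 : (7722 : ℕ) ^ 2 * 2 ^ 20 ≤ ((2:ℕ)^40)^2 := by norm_num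
  exact le_trans h2 (Nat.pow_le_pow_left h 2)

theorem small_count (N m n C F : ℕ) (hF : 0 < F) (hn : n = N * m) (h2 : F * C ≤ n ^ 66)
    (h3 : N ^ 2 * m ≤ F ^ 2) : C ^ 2 ≤ m * n ^ 130 := by
  have h4 : F ^ 2 * C ^ 2 ≤ n ^ 132 := by
    calc F ^ 2 * C ^ 2 = (F * C) ^ 2 := by ring
      _ ≤ (n ^ 66) ^ 2 := Nat.pow_le_pow_left h2 2
      _ = n ^ 132 := by rw [← pow_mul]
  have h2' : n ^ 2 = N ^ 2 * m ^ 2 := by rw [hn, mul_pow]
  have h5 : n ^ 132 = (m * n ^ 130) * (N ^ 2 * m) := by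
    calc n ^ 132 = n ^ 130 * n ^ 2 := by rw [← pow_add]
      _ = n ^ 130 * (N ^ 2 * m ^ 2) := by rw [h2']
      _ = (m * n ^ 130) * (N ^ 2 * m) := by ring
  have h6 : F ^ 2 * C ^ 2 ≤ F ^ 2 * (m * n ^ 130) := by
    calc _ ≤ n ^ 132 := h4
      _ = (m * n ^ 130) * (N ^ 2 * m) := h5
      _ ≤ (m * n ^ 130) * F ^ 2 := Nat.mul_le_mul_left _ h3
      _ = _ := by ring
  exact Nat.le_of_mul_le_mul_left h6 (by positivity)

/-- The tile matrix on `Fin n`, for general `n`. -/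
theorem tile_general (N m n : ℕ) (hn : n = N * m) (hN : 66 ≤ N)
    (h3 : N ^ 2 * m ≤ ((66).factorial) ^ 2) :
    ∃ A : Fin n → Fin n → Bool,
      (∀ B : Fin n → Fin n → Bool, orderedCopyCount patH B = 0 → m ^ 2 ≤ (flips A B).card) ∧
      orderedCopyCount patH A ≤ m * n ^ 130 := by
  refine ⟨fun r c => patH ⟨r.val % 66, Nat.mod_lt _ (by norm_num)⟩
    ⟨c.val % 66, Nat.mod_lt _ (by norm_num)⟩, ?_, ?_⟩
  · intro B hB
    have h1 := tile_flips (k := 66) (by norm_num) patH B hB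
    have h2 : m ≤ n / 66 := by
      rw [Nat.le_div_iff_mul_le (by norm_num), hn, Nat.mul_comm]
      exact Nat.mul_le_mul_right _ hN
    exact (Nat.pow_le_pow_left h2 2).trans h1
  · refine (count_le_choose_sq (k := 66) patH _).trans ?_
    refine small_count N m n _ ((66).factorial) (Nat.factorial_pos _) hn ?_ h3
    rw [← Nat.descFactorial_eq_factorial_mul_choose]
    exact Nat.descFactorial_le_pow _ _

/-- Small `h`: the tile matrix. -/
theorem main_small (h : ℕ) (h1 : 1 ≤ h) (hh : h ≤ 20) :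
    ∃ A : Fin ((386 * h + 2) * 2 ^ h) → Fin ((386 * h + 2) * 2 ^ h) → Bool,
      (∀ B : Fin ((386 * h + 2) * 2 ^ h) → Fin ((386 * h + 2) * 2 ^ h) → Bool,
        orderedCopyCount patH B = 0 → (2 ^ h) ^ 2 ≤ (flips A B).card) ∧
      orderedCopyCount patH A ≤ 2 ^ h * ((386 * h + 2) * 2 ^ h) ^ 130 := by
  refine tile_general (386 * h + 2) (2 ^ h) _ rfl (by omega) ?_
  have a1 : 386 * h + 2 ≤ 7722 := by omega
  have a2 : 2 ^ h ≤ 2 ^ 20 := Nat.pow_le_pow_right (by norm_num) hh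
  exact (Nat.mul_le_mul (Nat.pow_le_pow_left a1 2) a2).trans fact_bound

/-- Big `h`: the zigzag design. -/
theorem main_big (h : ℕ) (hh : 21 ≤ h) :
    ∃ A : Fin ((386 * h + 2) * 2 ^ h) → Fin ((386 * h + 2) * 2 ^ h) → Bool,
      (∀ B : Fin ((386 * h + 2) * 2 ^ h) → Fin ((386 * h + 2) * 2 ^ h) → Bool,
        orderedCopyCount patH B = 0 → (2 ^ h) ^ 2 ≤ (flips A B).card) ∧
      orderedCopyCount patH A ≤ 2 ^ h * ((386 * h + 2) * 2 ^ h) ^ 130 := by
  set m := 2 ^ h with hm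
  have hm0 : 0 < m := by positivity
  have hm61 : 61 ≤ m := by
    have : (2 : ℕ) ^ 21 ≤ 2 ^ h := Nat.pow_le_pow_right (by norm_num) hh
    have h2 : (61 : ℕ) ≤ 2 ^ 21 := by norm_num
    omega
  set J := (h - 1) / 2 with hJ
  have hJ1 : 2 * J + 1 ≤ h := by omega
  have hJ2 : h ≤ 2 * J + 2 := by omega
  have hJ0 : 1 ≤ J := by omega
  have hT1 : m ≤ 8 * T J := by
    have : h ≤ (2 * J - 1) + 3 := by omega
    calc m = 2 ^ h := rfl
      _ ≤ 2 ^ ((2 * J - 1) + 3) := Nat.pow_le_pow_right (by norm_num) this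
      _ = 8 * T J := by rw [pow_add]; simp only [T]; ring
  have hT2 : 4 * T J ≤ m := by
    have e : 2 + (2 * J - 1) = 2 * J + 1 := by omega
    calc 4 * T J = 2 ^ (2 + (2 * J - 1)) := by rw [pow_add]; simp only [T]; norm_num
      _ = 2 ^ (2 * J + 1) := by rw [e]
      _ ≤ 2 ^ h := Nat.pow_le_pow_right (by norm_num) hJ1
  have hTm : T J ≤ m := by omega
  have hR : (rowsCore J (81 * m)).card + 81 * m + 61 ≤ (386 * h + 2) * m := by
    have h1 := card_rowsCore_le J (81 * m)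
    have h2 : 2 * J * T J + T J ≤ h * m := by
      calc 2 * J * T J + T J = (2 * J + 1) * T J := by ring
        _ ≤ h * m := Nat.mul_le_mul hJ1 hTm
    have h3 : (5 * J + 7) * (81 * m) + h * m + 81 * m + 61 ≤ (386 * h + 2) * m := by
      have : (5 * J + 7) * 81 + h + 81 + 1 ≤ 386 * h + 2 := by omega
      calc (5 * J + 7) * (81 * m) + h * m + 81 * m + 61
          ≤ (5 * J + 7) * (81 * m) + h * m + 81 * m + m := by omega
        _ = ((5 * J + 7) * 81 + h + 81 + 1) * m := by ring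
        _ ≤ _ := Nat.mul_le_mul_right _ this
    omega
  have hC : (colsCore J (81 * m)).card + 1056 * m + 61 ≤ (386 * h + 2) * m := by
    have h1 := card_colsCore_le J (81 * m)
    have h2 : 2 * J * T J ≤ h * m := by
      exact Nat.mul_le_mul (by omega) hTm
    have h3 : (5 * J + 11) * (81 * m) + h * m + 1056 * m + 61 ≤ (386 * h + 2) * m := by
      have : (5 * J + 11) * 81 + h + 1056 + 1 ≤ 386 * h + 2 := by omega
      calc (5 * J + 11) * (81 * m) + h * m + 1056 * m + 61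
          ≤ (5 * J + 11) * (81 * m) + h * m + 1056 * m + m := by omega
        _ = ((5 * J + 11) * 81 + h + 1056 + 1) * m := by ring
        _ ≤ _ := Nat.mul_le_mul_right _ this
    omega
  exact design_main J (81 * m) ((386 * h + 2) * m) m hm0 hJ0 rfl hT1 hT2 hR hC

/-- All `h ≥ 1`. -/
theorem main_nat (h : ℕ) (h1 : 1 ≤ h) :
    ∃ A : Fin ((386 * h + 2) * 2 ^ h) → Fin ((386 * h + 2) * 2 ^ h) → Bool,
      (∀ B : Fin ((386 * h + 2) * 2 ^ h) → Fin ((386 * h + 2) * 2 ^ h) → Bool,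
        orderedCopyCount patH B = 0 → (2 ^ h) ^ 2 ≤ (flips A B).card) ∧
      orderedCopyCount patH A ≤ 2 ^ h * ((386 * h + 2) * 2 ^ h) ^ 130 := by
  by_cases hh : h ≤ 20
  · exact main_small h h1 hh
  · exact main_big h (by omega)

/-- Real form of the farness bound. -/
theorem final_far (n m c : ℕ) (N M : ℝ) (hN : 0 < N) (hM : (m : ℝ) = M) (hn : (n : ℝ) = N * M)
    (hc : m ^ 2 ≤ c) : (N ^ 2)⁻¹ * (n : ℝ) ^ 2 ≤ (c : ℝ) := by
  have h1 : (M ^ 2 : ℝ) ≤ (c : ℝ) := by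
    rw [← hM]
    exact_mod_cast hc
  have h2 : (N ^ 2)⁻¹ * (n : ℝ) ^ 2 = M ^ 2 := by
    rw [hn]
    field_simp
  rw [h2]
  exact h1

/-- Real form of the count bound. -/
theorem final_count (n m c : ℕ) (N M : ℝ) (hN : 0 < N) (hM0 : 0 < M) (hM : (m : ℝ) = M)
    (hn : (n : ℝ) = N * M) (hc : c ≤ m * n ^ 130) :
    (c : ℝ) / (n : ℝ) ^ 132 ≤ (N ^ 2)⁻¹ * M⁻¹ := by
  have hn0 : (0 : ℝ) < n := by rw [hn]; positivity
  have h1 : (c : ℝ) ≤ M * (n : ℝ) ^ 130 := by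
    have : ((c : ℕ) : ℝ) ≤ ((m * n ^ 130 : ℕ) : ℝ) := Nat.cast_le.2 hc
    rwa [Nat.cast_mul, Nat.cast_pow, hM] at this
  generalize (n : ℝ) = x at *
  calc c / x ^ 132 ≤ (M * x ^ 130) / x ^ 132 := by
        apply div_le_div_of_nonneg_right h1 (by positivity)
    _ = M / x ^ 2 := by
        field_simp
    _ = (N ^ 2)⁻¹ * M⁻¹ := by
        rw [hn]
        field_simp

end Crest.Agent.ZigZag
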