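import Crest.Agent.Lib.ZigZag.Classify
import Crest.Agent.Lib.ZigZag.Keys

/-!
# Core copies only occur at seeds (S0066).
-/

set_option autoImplicit false

namespace Crest.Agent.ZigZag

theorem IsA_elim {r1 x r3 : Rw} {y : Cl} (h : IsA r1 x r3 y) :
    ∃ jy v1 q1 i1 vx qx ix q3 i3 vy qy iy,
      r1 = .thin jy v1 q1 i1 ∧ x = .thin (jy + 1) vx qx ix ∧ r3 = .thin jy v1 q3 i3 ∧
      y = .thin jy vy qy iy ∧ vy / 2 = v1 ∧ (vx / 2) % 2 = vy % 2 := by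
  unfold IsA at h
  split at h
  · obtain ⟨rfl, rfl, rfl, rfl, rfl, h6⟩ := h
    exact ⟨_, _, _, _, _, _, _, _, _, _, _, _, rfl, rfl, rfl, rfl, rfl, h6⟩
  · exact h.elim

theorem IsB_elim {J : ℕ} {x : Rw} {s1 s3 y : Cl} (h : IsB J x s1 s3 y) :
    ∃ j v1 q1 i1 q3 i3 vx qx ix vy qy iy,
      s1 = .thin j v1 q1 i1 ∧ s3 = .thin j v1 q3 i3 ∧ y = .thin (j + 1) vy qy iy ∧
      x = .thin (j + 1) vx qx ix ∧ vx / 2 = v1 ∧ (vy / 2) % 2 = vx % 2 := by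
  unfold IsB at h
  split at h
  · obtain ⟨rfl, h2, rfl, rfl, rfl, h6, -⟩ := h
    have h2' : _ = _ := Nat.succ.inj h2
    subst h2'
    exact ⟨_, _, _, _, _, _, _, _, _, _, _, _, rfl, rfl, rfl, rfl, rfl, h6⟩
  · exact h.elim

/-- Every key-sorted core copy is a seed: `x` a leaf row and `y` a column at its parent node. -/
theorem seed_of_copy (J : ℕ) (r1 x r3 w1 w2 : Rw) (s1 y s3 z1 z2 : Cl)
    (k1 : rkey J r1 < rkey J x) (k2 : rkey J x < rkey J r3) (k3 : rkey J r3 < rkey J w1)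
    (k4 : rkey J w1 < rkey J w2)
    (c1 : ckey J s1 < ckey J y) (c2 : ckey J y < ckey J s3) (c3 : ckey J s3 < ckey J z1)
    (c4 : ckey J z1 < ckey J z2)
    (hx : ∀ j v κ i, x = .thin j v κ i → j ≤ J) (hy : ∀ j v κ i, y = .thin j v κ i → j < J)
    (h : CoreCopy J r1 x r3 w1 w2 s1 y s3 z1 z2) :
    ∃ j vx κx ix κy iy, j + 1 = J ∧ x = .thin (j + 1) vx κx ix ∧ y = .thin j (vx / 2) κy iy := by
  rcases classify J r1 x r3 w1 w2 s1 y s3 z1 z2 (rtag_le_of_key k1) (rtag_le_of_key k2)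
    (rtag_le_of_key k3) (rtag_le_of_key k4) (ctag_le_of_key c1) (ctag_le_of_key c2)
    (ctag_le_of_key c3) (ctag_le_of_key c4) h with hA | hB
  · obtain ⟨j, v1, q1, i1, vx, qx, ix, q3, i3, vy, qy, iy, rfl, rfl, rfl, rfl, e1, e2⟩ := IsA_elim hA
    have hj := hx _ _ _ _ rfl
    have hn := rkey_thin_nest_neg (J := J) (j := j) (by omega) k1 k2
    have hv : vx / 2 = vy := by omega
    refine ⟨j, vx, qx, ix, qy, iy, ?_, rfl, ?_⟩
    · by_contra hne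
      exact h.h22 (Or.inr ⟨rfl, hv, by omega⟩)
    · rw [hv]
  · obtain ⟨j, v1, q1, i1, q3, i3, vx, qx, ix, vy, qy, iy, rfl, rfl, rfl, rfl, e1, e2⟩ := IsB_elim hB
    exfalso
    have hj := hy _ _ _ _ rfl
    have hn := ckey_thin_nest_neg (J := J) (j := j) hj c1 c2
    have hv : vy / 2 = vx := by omega
    exact h.h22 (Or.inl ⟨rfl, hv, by omega⟩)

end Crest.Agent.ZigZag
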