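import Crest.Agent.Lib.ZigZag.Keys

/-!
# The finite sets of rows and columns of the design (S0066).
-/

set_option autoImplicit false

namespace Crest.Agent.ZigZag

open Finset

/-- Number of leaves. -/
def T (J : ℕ) : ℕ := 2 ^ (2 * J - 1)

/-- The thin row of level `j`, kind `κ`, indexed by the leaf `t`. -/
abbrev X (J j : ℕ) (κ : Bool) (t : ℕ) : Rw := .thin j (t / rW J j) κ (t % rW J j)

/-- The thin column of level `j`, kind `κ`, indexed by the leaf `t`. -/
abbrev Xc (J j : ℕ) (κ : Bool) (t : ℕ) : Cl := .thin j (t / cW J j) κ (t % cW J j)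

/-- All rows but the pad rows. -/
def rowsCore (J D : ℕ) : Finset Rw :=
  (range D).image Rw.rs1 ∪ (range D).image Rw.rs2 ∪ (range D).image Rw.zs
  ∪ (range D).image (fun i => Rw.thin 0 0 false i) ∪ (range D).image (fun i => Rw.thin 0 0 true i)
  ∪ ((Ico 1 J ×ˢ (univ : Finset Bool)) ×ˢ range (T J)).image (fun p => X J p.1.1 p.1.2 p.2)
  ∪ (range (T J)).image (fun t => X J J false t)
  ∪ (range J ×ˢ range D).image (fun p => Rw.f p.1 p.2)
  ∪ ((range J ×ˢ range 2) ×ˢ range D).image (fun p => Rw.g p.1.1 p.1.2 p.2)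
  ∪ ((range (J + 1) ×ˢ range 2) ×ˢ range D).image (fun p => Rw.k p.1.1 p.1.2 p.2)

/-- All rows; the pad rows fill up to `n`. -/
def rowsSet (J D n : ℕ) : Finset Rw :=
  (range (n - (rowsCore J D).card)).image Rw.pad ∪ rowsCore J D

/-- All columns but the pad columns. -/
def colsCore (J D : ℕ) : Finset Cl :=
  (range D).image Cl.cs1 ∪ (range D).image Cl.cs2 ∪ (range D).image Cl.zs ∪ (range D).image Cl.anc
  ∪ (range 2 ×ˢ range D).image (fun p => Cl.w p.1 p.2)
  ∪ ((range J ×ˢ (univ : Finset Bool)) ×ˢ range (T J)).image (fun p => Xc J p.1.1 p.1.2 p.2)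
  ∪ (range (J + 1) ×ˢ range D).image (fun p => Cl.f p.1 p.2)
  ∪ ((range (J + 1) ×ˢ range 2) ×ˢ range D).image (fun p => Cl.g p.1.1 p.1.2 p.2)
  ∪ ((range (J + 1) ×ˢ range 2) ×ˢ range D).image (fun p => Cl.k p.1.1 p.1.2 p.2)

/-- All columns; the pad columns fill up to `n`. -/
def colsSet (J D n : ℕ) : Finset Cl :=
  (range (n - (colsCore J D).card)).image Cl.pad ∪ colsCore J D

theorem card_rowsCore_le (J D : ℕ) : (rowsCore J D).card ≤ (5 * J + 7) * D + 2 * J * T J + T J := by
  unfold rowsCore
  refine (card_union_le _ _).trans ?_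
  have h1 := card_image_le (s := ((range (J + 1) ×ˢ range 2) ×ˢ range D))
    (f := fun p : (ℕ × ℕ) × ℕ => Rw.k p.1.1 p.1.2 p.2)
  have h2 := card_image_le (s := ((range J ×ˢ range 2) ×ˢ range D))
    (f := fun p : (ℕ × ℕ) × ℕ => Rw.g p.1.1 p.1.2 p.2)
  have h3 := card_image_le (s := (range J ×ˢ range D))
    (f := fun p : ℕ × ℕ => Rw.f p.1 p.2)
  have h4 := card_image_le (s := (range (T J)))
    (f := fun t => X J J false t)
  have h5 := card_image_le (s := ((Ico 1 J ×ˢ (univ : Finset Bool)) ×ˢ range (T J)))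
    (f := fun p : (ℕ × Bool) × ℕ => X J p.1.1 p.1.2 p.2)
  have h6 := card_image_le (s := range D) (f := fun i => Rw.thin 0 0 true i)
  have h7 := card_image_le (s := range D) (f := fun i => Rw.thin 0 0 false i)
  have h8 := card_image_le (s := range D) (f := Rw.zs)
  have h9 := card_image_le (s := range D) (f := Rw.rs2)
  have h10 := card_image_le (s := range D) (f := Rw.rs1)
  simp only [card_product, card_range, Nat.card_Ico, card_univ, Fintype.card_bool] at h1 h2 h3 h4 h5 h6 h7 h8 h9 h10
  have u1 := card_union_le (((range D).image Rw.rs1 ∪ (range D).image Rw.rs2 ∪ (range D).image Rw.zs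
    ∪ (range D).image (fun i => Rw.thin 0 0 false i) ∪ (range D).image (fun i => Rw.thin 0 0 true i)
    ∪ ((Ico 1 J ×ˢ (univ : Finset Bool)) ×ˢ range (T J)).image (fun p => X J p.1.1 p.1.2 p.2)
    ∪ (range (T J)).image (fun t => X J J false t)
    ∪ (range J ×ˢ range D).image (fun p => Rw.f p.1 p.2)))
    (((range J ×ˢ range 2) ×ˢ range D).image (fun p => Rw.g p.1.1 p.1.2 p.2))
  have u2 := card_union_le (((range D).image Rw.rs1 ∪ (range D).image Rw.rs2 ∪ (range D).image Rw.zs
    ∪ (range D).image (fun i => Rw.thin 0 0 false i) ∪ (range D).image (fun i => Rw.thin 0 0 true i)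
    ∪ ((Ico 1 J ×ˢ (univ : Finset Bool)) ×ˢ range (T J)).image (fun p => X J p.1.1 p.1.2 p.2)
    ∪ (range (T J)).image (fun t => X J J false t)))
    ((range J ×ˢ range D).image (fun p => Rw.f p.1 p.2))
  have u3 := card_union_le (((range D).image Rw.rs1 ∪ (range D).image Rw.rs2 ∪ (range D).image Rw.zs
    ∪ (range D).image (fun i => Rw.thin 0 0 false i) ∪ (range D).image (fun i => Rw.thin 0 0 true i)
    ∪ ((Ico 1 J ×ˢ (univ : Finset Bool)) ×ˢ range (T J)).image (fun p => X J p.1.1 p.1.2 p.2)))
    ((range (T J)).image (fun t => X J J false t))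
  have u4 := card_union_le (((range D).image Rw.rs1 ∪ (range D).image Rw.rs2 ∪ (range D).image Rw.zs
    ∪ (range D).image (fun i => Rw.thin 0 0 false i) ∪ (range D).image (fun i => Rw.thin 0 0 true i)))
    (((Ico 1 J ×ˢ (univ : Finset Bool)) ×ˢ range (T J)).image (fun p => X J p.1.1 p.1.2 p.2))
  have u5 := card_union_le (((range D).image Rw.rs1 ∪ (range D).image Rw.rs2 ∪ (range D).image Rw.zs
    ∪ (range D).image (fun i => Rw.thin 0 0 false i)))
    ((range D).image (fun i => Rw.thin 0 0 true i))
  have u6 := card_union_le (((range D).image Rw.rs1 ∪ (range D).image Rw.rs2 ∪ (range D).image Rw.zs))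
    ((range D).image (fun i => Rw.thin 0 0 false i))
  have u7 := card_union_le (((range D).image Rw.rs1 ∪ (range D).image Rw.rs2))
    ((range D).image Rw.zs)
  have u8 := card_union_le ((range D).image Rw.rs1) ((range D).image Rw.rs2)
  have e1 : (J - 1) * 2 * T J + T J ≤ 2 * J * T J + T J := by
    have : (J - 1) * 2 ≤ 2 * J := by omega
    exact Nat.add_le_add_right (Nat.mul_le_mul_right _ this) _
  have e2 : (J + 1) * 2 * D + J * 2 * D + J * D + (5 * D) ≤ (5 * J + 7) * D := by nlinarith
  omega

theorem card_colsCore_le (J D : ℕ) : (colsCore J D).card ≤ (5 * J + 11) * D + 2 * J * T J := by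
  unfold colsCore
  refine (card_union_le _ _).trans ?_
  have h1 := card_image_le (s := ((range (J + 1) ×ˢ range 2) ×ˢ range D))
    (f := fun p : (ℕ × ℕ) × ℕ => Cl.k p.1.1 p.1.2 p.2)
  have h2 := card_image_le (s := ((range (J + 1) ×ˢ range 2) ×ˢ range D))
    (f := fun p : (ℕ × ℕ) × ℕ => Cl.g p.1.1 p.1.2 p.2)
  have h3 := card_image_le (s := (range (J + 1) ×ˢ range D))
    (f := fun p : ℕ × ℕ => Cl.f p.1 p.2)
  have h5 := card_image_le (s := ((range J ×ˢ (univ : Finset Bool)) ×ˢ range (T J)))
    (f := fun p : (ℕ × Bool) × ℕ => Xc J p.1.1 p.1.2 p.2)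
  have h6 := card_image_le (s := range 2 ×ˢ range D) (f := fun p : ℕ × ℕ => Cl.w p.1 p.2)
  have h7 := card_image_le (s := range D) (f := Cl.anc)
  have h8 := card_image_le (s := range D) (f := Cl.zs)
  have h9 := card_image_le (s := range D) (f := Cl.cs2)
  have h10 := card_image_le (s := range D) (f := Cl.cs1)
  simp only [card_product, card_range, card_univ, Fintype.card_bool] at h1 h2 h3 h5 h6 h7 h8 h9 h10
  have u1 := card_union_le ((range D).image Cl.cs1 ∪ (range D).image Cl.cs2 ∪ (range D).image Cl.zs ∪ (range D).image Cl.anc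
    ∪ (range 2 ×ˢ range D).image (fun p => Cl.w p.1 p.2)
    ∪ ((range J ×ˢ (univ : Finset Bool)) ×ˢ range (T J)).image (fun p => Xc J p.1.1 p.1.2 p.2)
    ∪ (range (J + 1) ×ˢ range D).image (fun p => Cl.f p.1 p.2))
    (((range (J + 1) ×ˢ range 2) ×ˢ range D).image (fun p => Cl.g p.1.1 p.1.2 p.2))
  have u2 := card_union_le ((range D).image Cl.cs1 ∪ (range D).image Cl.cs2 ∪ (range D).image Cl.zs ∪ (range D).image Cl.anc
    ∪ (range 2 ×ˢ range D).image (fun p => Cl.w p.1 p.2)
    ∪ ((range J ×ˢ (univ : Finset Bool)) ×ˢ range (T J)).image (fun p => Xc J p.1.1 p.1.2 p.2))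
    ((range (J + 1) ×ˢ range D).image (fun p => Cl.f p.1 p.2))
  have u3 := card_union_le ((range D).image Cl.cs1 ∪ (range D).image Cl.cs2 ∪ (range D).image Cl.zs ∪ (range D).image Cl.anc
    ∪ (range 2 ×ˢ range D).image (fun p => Cl.w p.1 p.2))
    (((range J ×ˢ (univ : Finset Bool)) ×ˢ range (T J)).image (fun p => Xc J p.1.1 p.1.2 p.2))
  have u4 := card_union_le ((range D).image Cl.cs1 ∪ (range D).image Cl.cs2 ∪ (range D).image Cl.zs ∪ (range D).image Cl.anc)
    ((range 2 ×ˢ range D).image (fun p => Cl.w p.1 p.2))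
  have u5 := card_union_le ((range D).image Cl.cs1 ∪ (range D).image Cl.cs2 ∪ (range D).image Cl.zs)
    ((range D).image Cl.anc)
  have u6 := card_union_le ((range D).image Cl.cs1 ∪ (range D).image Cl.cs2)
    ((range D).image Cl.zs)
  have u7 := card_union_le ((range D).image Cl.cs1) ((range D).image Cl.cs2)
  have e2 : (J + 1) * 2 * D + (J + 1) * 2 * D + (J + 1) * D + (2 * D + 4 * D) ≤ (5 * J + 11) * D := by
    nlinarith
  have e3 : J * 2 * T J ≤ 2 * J * T J := by nlinarith
  omega

theorem pad_not_mem_rowsCore (J D i : ℕ) : Rw.pad i ∉ rowsCore J D := by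
  simp [rowsCore]

theorem pad_not_mem_colsCore (J D i : ℕ) : Cl.pad i ∉ colsCore J D := by
  simp [colsCore]

theorem card_rowsSet {J D n : ℕ} (h : (rowsCore J D).card ≤ n) : (rowsSet J D n).card = n := by
  unfold rowsSet
  rw [card_union_of_disjoint, card_image_of_injective, card_range]
  · omega
  · intro a b hab; exact Rw.pad.inj hab
  · rw [disjoint_left]
    intro a ha
    simp only [mem_image, mem_range] at ha
    obtain ⟨i, -, rfl⟩ := ha
    exact pad_not_mem_rowsCore J D i

theorem card_colsSet {J D n : ℕ} (h : (colsCore J D).card ≤ n) : (colsSet J D n).card = n := by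
  unfold colsSet
  rw [card_union_of_disjoint, card_image_of_injective, card_range]
  · omega
  · intro a b hab; exact Cl.pad.inj hab
  · rw [disjoint_left]
    intro a ha
    simp only [mem_image, mem_range] at ha
    obtain ⟨i, -, rfl⟩ := ha
    exact pad_not_mem_colsCore J D i

section mem
variable {J D n i j c t : ℕ} {κ : Bool}

theorem mem_rows_of_core {r : Rw} (h : r ∈ rowsCore J D) : r ∈ rowsSet J D n :=
  mem_union_right _ h

theorem mem_cols_of_core {r : Cl} (h : r ∈ colsCore J D) : r ∈ colsSet J D n :=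
  mem_union_right _ h

theorem mem_rs1 (hi : i < D) : Rw.rs1 i ∈ rowsSet J D n :=
  mem_rows_of_core (by simp only [rowsCore, mem_union, mem_image, mem_range]; grind)

theorem mem_rs2 (hi : i < D) : Rw.rs2 i ∈ rowsSet J D n :=
  mem_rows_of_core (by simp only [rowsCore, mem_union, mem_image, mem_range]; grind)

theorem mem_zs (hi : i < D) : Rw.zs i ∈ rowsSet J D n :=
  mem_rows_of_core (by simp only [rowsCore, mem_union, mem_image, mem_range]; grind)

theorem mem_thin0 (hi : i < D) : Rw.thin 0 0 κ i ∈ rowsSet J D n := by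
  refine mem_rows_of_core ?_
  cases κ
  · simp only [rowsCore, mem_union, mem_image, mem_range]; grind
  · simp only [rowsCore, mem_union, mem_image, mem_range]; grind

theorem mem_X (h1 : 1 ≤ j) (h2 : j < J) (ht : t < T J) : X J j κ t ∈ rowsSet J D n := by
  refine mem_rows_of_core ?_
  simp only [rowsCore, mem_union, mem_image]
  left; left; left; left
  right
  exact ⟨((j, κ), t), by simp [h1, h2, ht], rfl⟩

theorem mem_Xleaf (ht : t < T J) : X J J false t ∈ rowsSet J D n := by
  refine mem_rows_of_core ?_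
  simp only [rowsCore, mem_union, mem_image]
  left; left; left; right
  exact ⟨t, by simp [ht], rfl⟩

theorem mem_f (h1 : j < J) (hi : i < D) : Rw.f j i ∈ rowsSet J D n := by
  refine mem_rows_of_core ?_
  simp only [rowsCore, mem_union, mem_image]
  left; left; right
  exact ⟨(j, i), by simp [h1, hi], rfl⟩

theorem mem_g (h1 : j < J) (hc : c < 2) (hi : i < D) : Rw.g j c i ∈ rowsSet J D n := by
  refine mem_rows_of_core ?_
  simp only [rowsCore, mem_union, mem_image]
  left; right
  exact ⟨((j, c), i), by simp [h1, hc, hi], rfl⟩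

theorem mem_k (h1 : j ≤ J) (hc : c < 2) (hi : i < D) : Rw.k j c i ∈ rowsSet J D n := by
  refine mem_rows_of_core ?_
  simp only [rowsCore, mem_union, mem_image]
  right
  exact ⟨((j, c), i), by simp [Nat.lt_succ_of_le h1, hc, hi], rfl⟩

theorem mem_pad_r (hi : i < n - (rowsCore J D).card) : Rw.pad i ∈ rowsSet J D n :=
  mem_union_left _ (mem_image_of_mem _ (mem_range.2 hi))

theorem mem_pad_c (hi : i < n - (colsCore J D).card) : Cl.pad i ∈ colsSet J D n :=
  mem_union_left _ (mem_image_of_mem _ (mem_range.2 hi))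

theorem mem_cs1 (hi : i < D) : Cl.cs1 i ∈ colsSet J D n :=
  mem_cols_of_core (by simp only [colsCore, mem_union, mem_image, mem_range]; grind)

theorem mem_cs2 (hi : i < D) : Cl.cs2 i ∈ colsSet J D n :=
  mem_cols_of_core (by simp only [colsCore, mem_union, mem_image, mem_range]; grind)

theorem mem_czs (hi : i < D) : Cl.zs i ∈ colsSet J D n :=
  mem_cols_of_core (by simp only [colsCore, mem_union, mem_image, mem_range]; grind)

theorem mem_anc (hi : i < D) : Cl.anc i ∈ colsSet J D n :=
  mem_cols_of_core (by simp only [colsCore, mem_union, mem_image, mem_range]; grind)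

theorem mem_w (hc : c < 2) (hi : i < D) : Cl.w c i ∈ colsSet J D n := by
  refine mem_cols_of_core ?_
  simp only [colsCore, mem_union, mem_image]
  left; left; left; left; right
  exact ⟨(c, i), by simp [hc, hi], rfl⟩

theorem mem_Xc (h2 : j < J) (ht : t < T J) : Xc J j κ t ∈ colsSet J D n := by
  refine mem_cols_of_core ?_
  simp only [colsCore, mem_union, mem_image]
  left; left; left; right
  exact ⟨((j, κ), t), by simp [h2, ht], rfl⟩

theorem mem_cf (h1 : j ≤ J) (hi : i < D) : Cl.f j i ∈ colsSet J D n := by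
  refine mem_cols_of_core ?_
  simp only [colsCore, mem_union, mem_image]
  left; left; right
  exact ⟨(j, i), by simp [Nat.lt_succ_of_le h1, hi], rfl⟩

theorem mem_cg (h1 : j ≤ J) (hc : c < 2) (hi : i < D) : Cl.g j c i ∈ colsSet J D n := by
  refine mem_cols_of_core ?_
  simp only [colsCore, mem_union, mem_image]
  left; right
  exact ⟨((j, c), i), by simp [Nat.lt_succ_of_le h1, hc, hi], rfl⟩

theorem mem_ck (h1 : j ≤ J) (hc : c < 2) (hi : i < D) : Cl.k j c i ∈ colsSet J D n := by
  refine mem_cols_of_core ?_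
  simp only [colsCore, mem_union, mem_image]
  right
  exact ⟨((j, c), i), by simp [Nat.lt_succ_of_le h1, hc, hi], rfl⟩

/-- Thin rows in the set have level at most `J`. -/
theorem thin_row_level {v : ℕ} (h : Rw.thin j v κ i ∈ rowsSet J D n) : j ≤ J := by
  simp only [rowsSet, rowsCore, mem_union, mem_image, mem_range, mem_product, mem_Ico, mem_univ,
    and_true, or_assoc] at h
  rcases h with h | h | h | h | h | h | h | h | h | h | h
  all_goals
    obtain ⟨a, ha, he⟩ := h
    simp only [reduceCtorEq, Rw.thin.injEq] at he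
  all_goals omega

/-- Thin columns in the set have level below `J`. -/
theorem thin_col_level {v : ℕ} (h : Cl.thin j v κ i ∈ colsSet J D n) : j < J := by
  simp only [colsSet, colsCore, mem_union, mem_image, mem_range, mem_product, mem_univ,
    and_true, or_assoc] at h
  rcases h with h | h | h | h | h | h | h | h | h | h
  all_goals
    obtain ⟨a, ha, he⟩ := h
    simp only [reduceCtorEq, Cl.thin.injEq] at he
  all_goals omega

/-- Thin rows at the leaf level are the leaves. -/
theorem leaf_row {v : ℕ} (hJ : 1 ≤ J) (h : Rw.thin J v κ i ∈ rowsSet J D n) : v < T J ∧ κ = false ∧ i = 0 := by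
  simp only [rowsSet, rowsCore, mem_union, mem_image, mem_range, mem_product, mem_Ico, mem_univ,
    and_true, or_assoc] at h
  rcases h with h | h | h | h | h | h | h | h | h | h | h
  all_goals
    obtain ⟨a, ha, he⟩ := h
    simp only [reduceCtorEq, Rw.thin.injEq] at he
  · omega
  · omega
  · omega
  · obtain ⟨h1, h2, h3, h4⟩ := he
    simp only [rW, Nat.sub_self, pow_zero, Nat.div_one, Nat.mod_one] at h2 h4
    exact ⟨h2 ▸ ha, h3.symm, h4.symm⟩

/-- Thin columns at level `J - 1` have index below `2`. -/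
theorem leaf_col {v : ℕ} {j' : ℕ} (hj' : j' + 1 = J) (h : Cl.thin j' v κ i ∈ colsSet J D n) : i < 2 := by
  simp only [colsSet, colsCore, mem_union, mem_image, mem_range, mem_product, mem_univ,
    and_true, or_assoc] at h
  rcases h with h | h | h | h | h | h | h | h | h | h
  all_goals
    obtain ⟨a, ha, he⟩ := h
    simp only [reduceCtorEq, Cl.thin.injEq] at he
  obtain ⟨h1, h2, h3, h4⟩ := he
  have : cW J j' = 2 := by
    unfold cW
    have : J - j' - 1 = 0 := by omega
    rw [this]; rfl
  rw [← h4, h1, this]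
  exact Nat.mod_lt _ (by norm_num)

end mem

end Crest.Agent.ZigZag
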